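import Vale.Agent.P310.Core

/-! Horn systems on a finite box of the plane, simulated on a torus of digit vectors. -/

namespace Vale.Agent.P310

open Classical Function Finset

/-- A Horn system given by a table and a chain of rules spelling out the input word. -/
structure Tab (S0 R0 G : Type) (q : ℕ) where
  acc : S0
  in1 : R0 → Option S0
  in2 : R0 → Option S0
  out : R0 → S0
  sh1 : R0 → G
  sh2 : R0 → G
  tin : Fin (q + 1) → S0
  tsh : Fin (q + 1) → G
  emit : Option Bool → S0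

def up {S0 : Type} : Option S0 → S0 ⊕ ℕ
  | none => .inr 0
  | some s => .inl s

def Tab.horn {S0 R0 G : Type} {q : ℕ} (T : Tab S0 R0 G q) (u : List Bool) :
    Horn (S0 ⊕ ℕ) (R0 ⊕ Fin (u.length + 1) × Fin (q + 1)) G where
  start := .inr 0
  acc := .inl T.acc
  in1 := Sum.elim (fun ρ => up (T.in1 ρ)) fun y => .inr y.1.1
  in2 := Sum.elim (fun ρ => up (T.in2 ρ)) fun y => .inl (T.tin y.2)
  out := Sum.elim (fun ρ => .inl (T.out ρ))
    fun y => if y.2.1 < q then .inr (y.1.1 + 1) else .inl (T.emit u[y.1.1]?)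
  sh1 := Sum.elim T.sh1 fun y => T.tsh y.2
  sh2 := Sum.elim T.sh2 fun y => T.tsh y.2

inductive Kind
  | loc
  | right
  | left
  | next

def Kind.Step : Kind → ℕ → ℕ → ℕ → ℕ → Prop
  | .loc, t, x, t', x' => t' = t ∧ x' = x
  | .right, t, x, t', x' => t' = t ∧ x' = x + 1
  | .left, t, x, t', x' => t' = t ∧ x = x' + 1
  | .next, t, x, t', x' => t' = t + 1 ∧ x' = x

structure Box (Sb Rb : Type) where
  start : Sb
  acc : Sb
  emit : Option Bool → Sb
  kind : Rb → Kind
  in1 : Rb → Sb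
  in2 : Rb → Sb
  out : Rb → Sb
  start_ne : start ≠ acc
  emit_ne : ∀ o, emit o ≠ acc

def Box.Model {Sb Rb : Type} (B : Box Sb Rb) (u : List Bool) (T : ℕ) (K : Sb → ℕ → ℕ → Prop) :
    Prop :=
  K B.start 0 0 ∧ (∀ x < T, x ≤ u.length → K (B.emit u[x]?) 0 x) ∧
    ∀ ρ t x t' x', t < T → x < T → t' < T → x' < T → (B.kind ρ).Step t x t' x' →
      K (B.in1 ρ) t x → (B.kind ρ = .loc → K (B.in2 ρ) t x) → B.out ρ ≠ B.acc ∧ K (B.out ρ) t' x'

section digits

variable {p q : ℕ} [hp : Fact p.Prime]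

def dig (p q x : ℕ) : Fin q → ZMod p := fun j => (x / p ^ j.1 : ℕ)

def Car (ℓ : Fin q) (w : Fin q → ZMod p) : Prop := (∀ j < ℓ, w j = -1) ∧ w ℓ ≠ -1

def stp (p : ℕ) (ℓ : Fin q) : Fin q → ZMod p := fun j => if j ≤ ℓ then 1 else 0

@[simp] lemma dig_zero : dig p q 0 = 0 := by funext j; simp [dig]

lemma dig_inj {x y : ℕ} (hx : x < p ^ q) (hy : y < p ^ q) (h : dig p q x = dig p q y) : x = y := by
  have : ∀ j ≤ q, x % p ^ j = y % p ^ j := by
    intro j
    induction j with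
    | zero => simp [Nat.mod_one]
    | succ j ih =>
      intro hj
      have h1 := (ZMod.natCast_eq_natCast_iff' _ _ _).1 (congrFun h ⟨j, hj⟩)
      rw [Nat.mod_pow_succ, Nat.mod_pow_succ, ih (by omega), h1]
  simpa [Nat.mod_eq_of_lt hx, Nat.mod_eq_of_lt hy] using this q le_rfl

lemma dig_surj (w : Fin q → ZMod p) : ∃ x < p ^ q, dig p q x = w := by
  have hinj : Injective fun x : Fin (p ^ q) => dig p q x.1 := fun x y h =>
    Fin.ext (dig_inj x.2 y.2 h)
  obtain ⟨x, hx⟩ := ((Fintype.bijective_iff_injective_and_card _).2 ⟨hinj, by simp⟩).2 w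
  exact ⟨x.1, x.2, hx⟩

lemma dvd_succ_iff (x j : ℕ) :
    p ^ (j + 1) ∣ x + 1 ↔ p ^ j ∣ x + 1 ∧ ((x / p ^ j : ℕ) : ZMod p) = -1 := by
  have key : p ^ j ∣ x + 1 → (p ^ (j + 1) ∣ x + 1 ↔ ((x / p ^ j : ℕ) : ZMod p) = -1) := by
    intro h
    have h1 := Nat.succ_div (a := x) (b := p ^ j)
    rw [if_pos h] at h1
    rw [← add_eq_zero_iff_eq_neg, ← Nat.cast_succ, ZMod.natCast_eq_zero_iff, Nat.succ_eq_add_one,
      ← h1, pow_succ, Nat.dvd_div_iff_mul_dvd h]
  exact ⟨fun h => ⟨(pow_dvd_pow p j.le_succ).trans h, (key ((pow_dvd_pow p j.le_succ).trans h)).1 h⟩,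
    fun h => (key h.1).2 h.2⟩

lemma dvd_iff_all (x j : ℕ) : p ^ j ∣ x + 1 ↔ ∀ i < j, ((x / p ^ i : ℕ) : ZMod p) = -1 := by
  induction j with
  | zero => simp
  | succ j ih => rw [dvd_succ_iff, ih, Nat.forall_lt_succ_right]

lemma car_iff (x : ℕ) (ℓ : Fin q) :
    Car ℓ (dig p q x) ↔ p ^ ℓ.1 ∣ x + 1 ∧ ¬ p ^ (ℓ.1 + 1) ∣ x + 1 := by
  have h1 : (∀ j < ℓ, dig p q x j = -1) ↔ p ^ ℓ.1 ∣ x + 1 := by
    rw [dvd_iff_all]
    exact ⟨fun h i hi => h ⟨i, hi.trans ℓ.2⟩ hi, fun h j hj => h j.1 hj⟩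
  rw [Car, h1, dvd_succ_iff]
  simp only [dig]
  tauto

lemma exists_car {x : ℕ} (h : x + 1 < p ^ q) : ∃ ℓ : Fin q, Car ℓ (dig p q x) := by
  simp only [car_iff]
  by_contra hc
  push Not at hc
  have : ∀ j ≤ q, p ^ j ∣ x + 1 := by
    intro j
    induction j with
    | zero => simp
    | succ j ih => intro hj; exact hc ⟨j, hj⟩ (ih (by omega))
  have := Nat.le_of_dvd (by omega) (this q le_rfl)
  omega

lemma car_succ {x : ℕ} (hx : x < p ^ q) {ℓ : Fin q} (h : Car ℓ (dig p q x)) :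
    x + 1 < p ^ q ∧ dig p q (x + 1) = dig p q x + stp p ℓ := by
  rw [car_iff] at h
  constructor
  · by_contra hc
    exact h.2 (by rw [show x + 1 = p ^ q by omega]; exact pow_dvd_pow p ℓ.2)
  · funext j
    simp only [dig, Pi.add_apply, stp, Nat.succ_div]
    by_cases hj : j ≤ ℓ
    · simp [hj, (pow_dvd_pow p hj).trans h.1]
    · have : ¬ p ^ j.1 ∣ x + 1 := fun h' => h.2 ((pow_dvd_pow p (not_le.1 hj)).trans h')
      simp [hj, this]

abbrev Tor (p q : ℕ) := (Fin q → ZMod p) × (Fin q → ZMod p)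

def part (b : Bool) (w : Tor p q) : Fin q → ZMod p := if b then w.1 else w.2

def emb (b : Bool) (s : Fin q → ZMod p) : Tor p q := if b then (s, 0) else (0, s)

lemma part_sub (b : Bool) (w w' : Tor p q) : part b (w - w') = part b w - part b w' := by
  cases b <;> rfl

lemma tor_induction (P : Tor p q → Prop) (h0 : P 0)
    (h1 : ∀ w b j, P w → P (w + emb b (Pi.single j 1))) (w : Tor p q) : P w := by
  have h2 : ∀ (n : ℕ) w b j, P w → P (w + emb b (Pi.single j (n : ZMod p))) := by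
    intro n w b j hw
    induction n with
    | zero => cases b <;> simpa [emb, Prod.mk_zero_zero] using hw
    | succ n ih =>
      have := h1 _ b j ih
      cases b <;> simpa [emb, add_assoc, Pi.single_add] using this
  have h3 : ∀ (s : Fin q → ZMod p) b w, P w → P (w + emb b s) := by
    intro s b
    induction s using Pi.single_induction with
    | zero => intro w hw; cases b <;> simpa [emb, Prod.mk_zero_zero] using hw
    | add f g hf hg =>
      intro w hw
      have := hg _ (hf w hw)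
      cases b <;> simpa [emb, add_assoc] using this
    | single j a => intro w hw; simpa using h2 a.val w b j hw
  simpa [emb] using h3 w.2 false _ (h3 w.1 true _ h0)

end digits

abbrev S0 (Sb : Type) (p q : ℕ) :=
  Sb ⊕ (Bool × Fin q × ZMod p) ⊕ (Bool × Fin (q + 1)) ⊕ (Bool × Fin q)

abbrev R0 (Rb : Type) (p q : ℕ) :=
  (Rb × Fin q) ⊕ (Bool × Fin q) ⊕ (Bool × Fin q × ZMod p × Bool × Fin q) ⊕
    (Bool × Fin q × ZMod p) ⊕ (Bool × Fin q) ⊕ (Bool × Fin q × ZMod p) ⊕ Unit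

variable {Sb Rb : Type} {p q : ℕ} [hp : Fact p.Prime]

def sDig (b : Bool) (j : Fin q) (a : ZMod p) : S0 Sb p q := .inr (.inl (b, j, a))
def sPre (b : Bool) (ℓ : Fin (q + 1)) : S0 Sb p q := .inr (.inr (.inl (b, ℓ)))
def sCar (b : Bool) (ℓ : Fin q) : S0 Sb p q := .inr (.inr (.inr (b, ℓ)))

noncomputable def Box.rule (B : Box Sb Rb) (p q : ℕ) [Fact p.Prime] : R0 Rb p q →
    Option (S0 Sb p q) × Option (S0 Sb p q) × S0 Sb p q × Tor p q × Tor p q
  | .inl (ρ, ℓ) => match B.kind ρ with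
    | .loc => (some (.inl (B.in1 ρ)), some (.inl (B.in2 ρ)), .inl (B.out ρ), 0, 0)
    | .right => (some (.inl (B.in1 ρ)), some (sCar false ℓ), .inl (B.out ρ),
        emb false (stp p ℓ), emb false (stp p ℓ))
    | .left => (some (.inl (B.in1 ρ)), some (sCar false ℓ), .inl (B.out ρ),
        -emb false (stp p ℓ), 0)
    | .next => (some (.inl (B.in1 ρ)), some (sCar true ℓ), .inl (B.out ρ),
        emb true (stp p ℓ), emb true (stp p ℓ))
  | .inr (.inl (b, j)) => (none, none, sDig b j 0, 0, 0)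
  | .inr (.inr (.inl (b, j, a, b', j'))) => (some (sDig b j a), some (sDig b j a),
      sDig b j (a + part b (emb b' (Pi.single j' 1)) j), emb b' (Pi.single j' 1),
      emb b' (Pi.single j' 1))
  | .inr (.inr (.inr (.inl (b, j, a)))) => (some (sDig b j a), some (sDig b j a), sPre b 0, 0, 0)
  | .inr (.inr (.inr (.inr (.inl (b, ℓ))))) =>
      (some (sPre b ℓ.castSucc), some (sDig b ℓ (-1)), sPre b ℓ.succ, 0, 0)
  | .inr (.inr (.inr (.inr (.inr (.inl (b, ℓ, a)))))) =>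
      (some (sPre b ℓ.castSucc), some (sDig b ℓ a), if a = -1 then sPre b 0 else sCar b ℓ, 0, 0)
  | .inr (.inr (.inr (.inr (.inr (.inr _))))) => (none, none, .inl B.start, 0, 0)

noncomputable def Box.tab (B : Box Sb Rb) (p q : ℕ) [Fact p.Prime] :
    Tab (S0 Sb p q) (R0 Rb p q) (Tor p q) q where
  acc := .inl B.acc
  in1 ρ := (B.rule p q ρ).1
  in2 ρ := (B.rule p q ρ).2.1
  out ρ := (B.rule p q ρ).2.2.1
  sh1 ρ := (B.rule p q ρ).2.2.2.1
  sh2 ρ := (B.rule p q ρ).2.2.2.2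
  tin ℓ := if h : ℓ.1 < q then sCar false ⟨ℓ.1, h⟩ else sPre false 0
  tsh ℓ := if h : ℓ.1 < q then emb false (stp p ⟨ℓ.1, h⟩) else 0
  emit o := .inl (B.emit o)

def truth (p q : ℕ) [Fact p.Prime] (K : Sb → ℕ → ℕ → Prop) : S0 Sb p q ⊕ ℕ → Tor p q → Prop
  | .inl (.inl σ), w => ∃ t x, t < p ^ q ∧ x < p ^ q ∧ w = (dig p q t, dig p q x) ∧ K σ t x
  | .inl (.inr (.inl (b, j, a))), w => part b w j = a
  | .inl (.inr (.inr (.inl (b, ℓ)))), w => ∀ j : Fin q, j.1 < ℓ.1 → part b w j = -1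
  | .inl (.inr (.inr (.inr (b, ℓ)))), w => Car ℓ (part b w)
  | .inr x, w => x < p ^ q ∧ w = (0, dig p q x)

theorem tab_model_of_box (B : Box Sb Rb) (u : List Bool) {K} (h : B.Model u (p ^ q) K) :
    ∃ 𝒦, ((B.tab p q).horn u).Model 𝒦 ∧ ∀ w, 𝒦 ((B.tab p q).horn u).start w → w = 0 := by
  have hpos : 0 < p ^ q := pow_pos hp.out.pos q
  refine ⟨truth p q K, ⟨⟨hpos, by simp [Prod.mk_zero_zero]⟩, ?_⟩, fun w hw => ?_⟩
  swap
  · simpa [Prod.mk_zero_zero] using hw.2
  rintro (ρ | ⟨x, ℓ⟩) w h1 h2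
  · rcases ρ with ⟨ρ, ℓ⟩ | ⟨b, j⟩ | ⟨b, j, a, b', j'⟩ | ⟨b, j, a⟩ | ⟨b, ℓ⟩ | ⟨b, ℓ, a⟩ | _
    · simp only [Tab.horn, Box.tab, Sum.elim_inl, Box.rule] at h1 h2 ⊢
      have key := h.2.2 ρ
      rcases hk : B.kind ρ with _ | _ | _ | _ <;>
        simp only [hk, up, truth, sCar, sub_zero, Kind.Step, ne_eq, Sum.inl.injEq] at h1 h2 key ⊢
      · obtain ⟨t, x, a1, a2, rfl, a4⟩ := h1
        obtain ⟨t', x', b1, b2, b3, b4⟩ := h2
        simp only [Prod.mk.injEq] at b3
        obtain rfl := dig_inj a1 b1 b3.1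
        obtain rfl := dig_inj a2 b2 b3.2
        have := key t x t x a1 a2 a1 a2 ⟨rfl, rfl⟩ a4 (fun _ => b4)
        exact ⟨this.1, t, x, a1, a2, rfl, this.2⟩
      · obtain ⟨t, x, a1, a2, a3, a4⟩ := h1
        rw [a3] at h2
        obtain ⟨c1, c2⟩ := car_succ a2 h2
        have := key t x t (x + 1) a1 a2 a1 c1 ⟨rfl, rfl⟩ a4 (by simp)
        refine ⟨this.1, t, x + 1, a1, c1, ?_, this.2⟩
        rw [sub_eq_iff_eq_add] at a3
        simp [a3, c2, emb]
      · obtain ⟨t, x, a1, a2, a3, a4⟩ := h1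
        obtain ⟨x', b1, b2⟩ := dig_surj w.2
        have h2' : Car ℓ (dig p q x') := by rw [b2]; exact h2
        obtain ⟨c1, c2⟩ := car_succ b1 h2'
        have e1 : w.1 = dig p q t := by simpa [emb] using congrArg Prod.fst a3
        have e2 : x = x' + 1 := dig_inj a2 c1 (by
          rw [c2, b2]; simpa [emb] using (congrArg Prod.snd a3).symm)
        have := key t x t x' a1 a2 a1 b1 ⟨rfl, e2⟩ a4 (by simp)
        exact ⟨this.1, t, x', a1, b1, Prod.ext e1 b2.symm, this.2⟩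
      · obtain ⟨t, x, a1, a2, a3, a4⟩ := h1
        rw [a3] at h2
        obtain ⟨c1, c2⟩ := car_succ a1 h2
        have := key t x (t + 1) x a1 a2 c1 a2 ⟨rfl, rfl⟩ a4 (by simp)
        refine ⟨this.1, t + 1, x, c1, a2, ?_, this.2⟩
        rw [sub_eq_iff_eq_add] at a3
        simp [a3, c2, emb]
    · simp only [Tab.horn, Box.tab, Sum.elim_inl, Box.rule, up, truth, sDig, sub_zero] at h1 ⊢
      refine ⟨by simp, ?_⟩
      rw [h1.2]
      cases b <;> simp [part]
    · simp only [Tab.horn, Box.tab, Sum.elim_inl, Box.rule, up, truth, sDig, part_sub] at h1 ⊢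
      exact ⟨by simp, by rw [← h1]; simp⟩
    · simp [Tab.horn, Box.tab, Box.rule, truth, sPre]
    · simp only [Tab.horn, Box.tab, Sum.elim_inl, Box.rule, up, truth, sDig, sPre, sub_zero]
        at h1 h2 ⊢
      refine ⟨by simp, fun j hj => ?_⟩
      by_cases h3 : j = ℓ
      · rw [h3, h2]
      · exact h1 j (by simp [Fin.ext_iff] at h3 hj ⊢; omega)
    · simp only [Tab.horn, Box.tab, Sum.elim_inl, Box.rule, up, truth, sDig, sPre, sCar, sub_zero]
        at h1 h2 ⊢
      split_ifs with h3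
      · simp [truth]
      · exact ⟨by simp, fun j hj => h1 j hj, by rw [h2]; exact h3⟩
    · simp only [Tab.horn, Box.tab, Sum.elim_inl, Box.rule, up, truth, sub_zero] at h1 ⊢
      exact ⟨by simpa using B.start_ne, 0, 0, hpos, hpos, by simpa using h1.2, h.1⟩
  · simp only [Tab.horn, Box.tab, Sum.elim_inr, truth] at h1 h2 ⊢
    split_ifs at h1 h2 ⊢ with h3
    · simp only [sCar, truth, h1.2] at h2 ⊢
      obtain ⟨c1, c2⟩ := car_succ h1.1 h2
      refine ⟨by simp, c1, ?_⟩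
      have a3 := h1.2
      rw [sub_eq_iff_eq_add] at a3
      simp [a3, c2, emb]
    · refine ⟨by simpa using B.emit_ne _, 0, x, hpos, h1.1, by simpa using h1.2,
        h.2.1 x h1.1 (by have := x.2; omega)⟩

theorem box_model_of_tab (B : Box Sb Rb) (u : List Bool) (hq : 0 < q) {𝒦}
    (h : ((B.tab p q).horn u).Model 𝒦) : ∃ K, B.Model u (p ^ q) K := by
  have hs : 𝒦 (.inr 0) 0 := h.1
  have hr := fun ρ w => h.2 (.inl ρ) w
  have d1 : ∀ b j w, 𝒦 (.inl (sDig b j (part b w j))) w := by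
    intro b j w
    induction w using tor_induction with
    | h0 =>
      have := (hr (.inr (.inl (b, j))) 0 (by simpa [Tab.horn, Box.tab, Box.rule, up] using hs)
        (by simpa [Tab.horn, Box.tab, Box.rule, up] using hs)).2
      cases b <;> exact this
    | h1 w b' j' ih =>
      have := (hr (.inr (.inr (.inl (b, j, part b w j, b', j')))) (w + emb b' (Pi.single j' 1))
        (by simpa [Tab.horn, Box.tab, Box.rule, up] using ih)
        (by simpa [Tab.horn, Box.tab, Box.rule, up] using ih)).2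
      cases b <;> exact this
  have d2 : ∀ b w (n : ℕ) (hn : n < q + 1), (∀ j : Fin q, j.1 < n → part b w j = -1) →
      𝒦 (.inl (sPre b ⟨n, hn⟩)) w := by
    intro b w n
    induction n with
    | zero =>
      intro _ _
      exact (hr (.inr (.inr (.inr (.inl (b, ⟨0, hq⟩, part b w ⟨0, hq⟩))))) w
        (by simpa [Tab.horn, Box.tab, Box.rule, up] using d1 _ _ _)
        (by simpa [Tab.horn, Box.tab, Box.rule, up] using d1 _ _ _)).2
    | succ n ih =>
      intro hn h1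
      have h2 := d1 b ⟨n, by omega⟩ w
      rw [h1 _ (by simp)] at h2
      exact (hr (.inr (.inr (.inr (.inr (.inl (b, ⟨n, by omega⟩)))))) w
        (by simpa [Tab.horn, Box.tab, Box.rule, up] using ih _ fun j hj => h1 j (by omega))
        (by simpa [Tab.horn, Box.tab, Box.rule, up] using h2)).2
  have d3 : ∀ b w ℓ, Car ℓ (part b w) → 𝒦 (.inl (sCar b ℓ)) w := by
    intro b w ℓ hc
    have h0 : 𝒦 (.inl (sPre b ℓ.castSucc)) w := d2 b w ℓ.1 (by omega) hc.1
    have := (hr (.inr (.inr (.inr (.inr (.inr (.inl (b, ℓ, part b w ℓ))))))) w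
      (by simpa [Tab.horn, Box.tab, Box.rule, up] using h0)
      (by simpa [Tab.horn, Box.tab, Box.rule, up] using d1 _ _ _)).2
    simpa [Tab.horn, Box.tab, Box.rule, hc.2] using this
  have d4 : ∀ x < p ^ q, x ≤ u.length → 𝒦 (.inr x) (0, dig p q x) := by
    intro x
    induction x with
    | zero => intro _ _; simpa [Prod.mk_zero_zero] using hs
    | succ x ih =>
      intro h1 h2
      obtain ⟨ℓ, hℓ⟩ := exists_car h1
      have e := (car_succ (by omega) hℓ).2
      have := (h.2 (.inr (⟨x, by omega⟩, ℓ.castSucc)) (0, dig p q (x + 1))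
        (by simpa [Tab.horn, Box.tab, e, emb] using ih (by omega) (by omega))
        (by simpa [Tab.horn, Box.tab, e, emb] using d3 false (0, dig p q x) ℓ hℓ)).2
      simpa [Tab.horn] using this
  refine ⟨fun σ t x => 𝒦 (.inl (.inl σ)) (dig p q t, dig p q x), ?_, fun x h1 h2 => ?_,
    fun ρ t x t' x' a1 a2 a3 a4 a5 a6 a7 => ?_⟩
  · have := (hr (.inr (.inr (.inr (.inr (.inr (.inr ())))))) 0
      (by simpa [Tab.horn, Box.tab, Box.rule, up] using hs)
      (by simpa [Tab.horn, Box.tab, Box.rule, up] using hs)).2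
    simpa [Prod.mk_zero_zero, Tab.horn, Box.tab, Box.rule] using this
  · have := (h.2 (.inr (⟨x, by omega⟩, Fin.last q)) (0, dig p q x)
      (by simpa [Tab.horn, Box.tab] using d4 x h1 h2)
      (by simpa [Tab.horn, Box.tab] using d2 false (0, dig p q x) 0 (by omega) (by simp))).2
    simpa [Tab.horn, Box.tab] using this
  · have key := fun ℓ => hr (.inl (ρ, ℓ)) (dig p q t', dig p q x')
    simp only [Tab.horn, Box.tab, Sum.elim_inl, Box.rule] at key
    rcases hk : B.kind ρ with _ | _ | _ | _ <;>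
      simp only [hk, up, sub_zero, Kind.Step, ne_eq, Sum.inl.injEq] at key a5 a7
    · obtain ⟨rfl, rfl⟩ := a5
      exact key ⟨0, hq⟩ a6 (a7 trivial)
    · obtain ⟨rfl, rfl⟩ := a5
      obtain ⟨ℓ, hℓ⟩ := exists_car a4
      have e := (car_succ a2 hℓ).2
      exact key ℓ (by simpa [e, emb] using a6)
        (by simpa [e, emb] using d3 false (dig p q t', dig p q x) ℓ hℓ)
    · obtain ⟨rfl, rfl⟩ := a5
      obtain ⟨ℓ, hℓ⟩ := exists_car a2
      have e := (car_succ a4 hℓ).2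
      exact key ℓ (by simpa [e, emb] using a6) (d3 false (dig p q t', dig p q x') ℓ hℓ)
    · obtain ⟨rfl, rfl⟩ := a5
      obtain ⟨ℓ, hℓ⟩ := exists_car a3
      have e := (car_succ a1 hℓ).2
      exact key ℓ (by simpa [e, emb] using a6)
        (by simpa [e, emb] using d3 true (dig p q t, dig p q x') ℓ hℓ)

end Vale.Agent.P310
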