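import Vale.Agent.P310.Ey

/-! Closure properties of functions computed by expressions. -/

namespace Vale.Agent.P310

open Function Finset Classical

structure Ctx where
  α : Type
  U : α → List Bool
  c : ℕ
  φ : α → ℕ → ℕ
  pos : 0 < c
  len : ∀ a, φ a 0 = (U a).length

abbrev Ctx.ext (X : Ctx) : Ctx where
  α := X.α × ℕ
  U a := X.U a.1
  c := X.c + 1
  φ a := update (X.φ a.1) X.c a.2
  pos := Nat.succ_pos _
  len a := by rw [update_of_ne X.pos.ne, X.len]

def CmpL (X : Ctx) (f : X.α → List Bool) : Prop :=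
  ∀ (d : ℕ) (ι : ℕ → ℕ), (∀ i < X.c, ι i < d) → ∃ e : Ey, ∀ a v,
    (∀ i < X.c, v (ι i) = X.φ a i) → e.eval (X.U a) d v = f a

def Cmp (X : Ctx) (f : X.α → ℕ) : Prop := ∃ g, CmpL X g ∧ ∀ a, (g a).length = f a

def CmpP (X : Ctx) (p : X.α → Prop) : Prop := Cmp X fun a => if p a then 1 else 0

variable {X : Ctx}

lemma CmpL.lit (l : List Bool) : CmpL X fun _ => l := fun _ _ _ => ⟨.lit l, fun _ _ _ => rfl⟩

lemma CmpL.app {f g} (hf : CmpL X f) (hg : CmpL X g) : CmpL X fun a => f a ++ g a := by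
  intro d ι h
  obtain ⟨e1, h1⟩ := hf d ι h
  obtain ⟨e2, h2⟩ := hg d ι h
  exact ⟨.app e1 e2, fun a v hv => by simp [Ey.eval, h1 a v hv, h2 a v hv]⟩

lemma CmpL.rep {f g} (hf : Cmp X f) (hg : CmpL X g) :
    CmpL X fun a => (List.range (f a)).flatMap fun _ => g a := by
  intro d ι h
  obtain ⟨f', hf, hf'⟩ := hf
  obtain ⟨e1, h1⟩ := hf d ι h
  obtain ⟨e2, h2⟩ := hg d ι h
  exact ⟨.rep e1 e2, fun a v hv => by simp [Ey.eval, h1 a v hv, h2 a v hv, hf']⟩

lemma CmpL.each {f} {g : X.α → ℕ → List Bool} (hf : Cmp X f)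
    (hg : CmpL X.ext fun a => g a.1 a.2) :
    CmpL X fun a => (List.range (f a)).flatMap (g a) := by
  intro d ι h
  obtain ⟨f', hf, hf'⟩ := hf
  obtain ⟨e1, h1⟩ := hf d ι h
  obtain ⟨e2, h2⟩ := hg (d + 1) (update ι X.c d) (fun i hi => by
    by_cases hc : i = X.c
    · subst hc; simp
    · rw [update_of_ne hc]
      exact (h i (by simp only at hi; omega)).trans (Nat.lt_succ_self _))
  refine ⟨.each e1 e2, fun a v hv => ?_⟩
  simp only [Ey.eval, h1 a v hv, hf']
  congr 1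
  funext y
  refine h2 (a, y) _ fun i hi => ?_
  by_cases hc : i = X.c
  · subst hc; simp
  · have hi' : i < X.c := by simp only at hi; omega
    simp only [update_of_ne hc, update_of_ne (h i hi').ne, hv i hi']

lemma CmpL.weak {f} (hf : CmpL X f) : CmpL X.ext fun a => f a.1 := by
  intro d ι h
  obtain ⟨e, he⟩ := hf d ι fun i hi => h i (Nat.lt_succ_of_lt hi)
  refine ⟨e, fun a v hv => he a.1 v fun i hi => ?_⟩
  rw [hv i (Nat.lt_succ_of_lt hi)]
  exact update_of_ne hi.ne _ _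

lemma Cmp.weak {f} (hf : Cmp X f) : Cmp X.ext fun a => f a.1 := by
  obtain ⟨g, h1, h2⟩ := hf
  exact ⟨_, h1.weak, fun a => h2 a.1⟩

lemma Cmp.proj (i : ℕ) (hi : i < X.c) : Cmp X fun a => X.φ a i :=
  ⟨fun a => List.replicate (X.φ a i) true,
    fun _ ι _ => ⟨.var (ι i), fun a v hv => by simp [Ey.eval, hv i hi]⟩, by simp⟩

lemma Cmp.congr {f g} (hf : Cmp X f) (h : ∀ a, f a = g a) : Cmp X g := by
  rwa [← funext h]

lemma Cmp.snd : Cmp X.ext fun a => a.2 :=
  (Cmp.proj (X := X.ext) X.c (Nat.lt_succ_self _)).congr fun a => by simp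

lemma Cmp.len : Cmp X fun a => (X.U a).length := (Cmp.proj 0 X.pos).congr X.len

lemma Cmp.const (n : ℕ) : Cmp X fun _ => n := ⟨_, CmpL.lit (List.replicate n true), by simp⟩

lemma Cmp.add {f g} (hf : Cmp X f) (hg : Cmp X g) : Cmp X fun a => f a + g a := by
  obtain ⟨f', h1, h2⟩ := hf
  obtain ⟨g', h3, h4⟩ := hg
  exact ⟨_, h1.app h3, by simp [h2, h4]⟩

lemma Cmp.sub {f g} (hf : Cmp X f) (hg : Cmp X g) : Cmp X fun a => f a - g a := by
  obtain ⟨f', h1, h2⟩ := hf
  obtain ⟨g', h3, h4⟩ := hg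
  refine ⟨fun a => List.replicate (f a - g a) true, fun d ι h => ?_, by simp⟩
  obtain ⟨e1, h1⟩ := h1 d ι h
  obtain ⟨e2, h3⟩ := h3 d ι h
  exact ⟨.sub e1 e2, fun a v hv => by simp [Ey.eval, h1 a v hv, h3 a v hv, h2, h4]⟩

lemma Cmp.mul {f g} (hf : Cmp X f) (hg : Cmp X g) : Cmp X fun a => f a * g a := by
  obtain ⟨g', h3, h4⟩ := hg
  exact ⟨_, CmpL.rep hf h3, by simp [h4]⟩

lemma Cmp.sum {f} {g : X.α → ℕ → ℕ} (hf : Cmp X f) (hg : Cmp X.ext fun a => g a.1 a.2) :
    Cmp X fun a => ∑ y ∈ range (f a), g a y := by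
  obtain ⟨g', h3, h4⟩ := hg
  refine ⟨_, CmpL.each (g := fun a y => g' (a, y)) hf h3, fun a => ?_⟩
  simp only [List.length_flatMap, h4]
  rfl

lemma CmpP.bit {f} (hf : Cmp X f) : CmpP X fun a => (X.U a)[f a]? = some true := by
  obtain ⟨f', h1, h2⟩ := hf
  refine ⟨fun a => if (X.U a)[f a]? = some true then [true] else [], fun d ι h => ?_,
    fun a => by by_cases h : (X.U a)[f a]? = some true <;> simp [h]⟩
  obtain ⟨e1, h1⟩ := h1 d ι h
  exact ⟨.bit e1, fun a v hv => by simp [Ey.eval, h1 a v hv, h2]⟩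

lemma Cmp.ite {p : X.α → Prop} [∀ a, Decidable (p a)] {f g} (hp : CmpP X p) (hf : Cmp X f)
    (hg : Cmp X g) : Cmp X fun a => if p a then f a else g a :=
  ((Cmp.mul hp hf).add (((Cmp.const 1).sub hp).mul hg)).congr fun a => by split_ifs <;> simp

lemma CmpP.lt {f g} (hf : Cmp X f) (hg : Cmp X g) : CmpP X fun a => f a < g a :=
  ((Cmp.const 1).sub ((Cmp.const 1).sub (hg.sub hf))).congr fun a => by split_ifs <;> omega

lemma CmpP.eq {f g} (hf : Cmp X f) (hg : Cmp X g) : CmpP X fun a => f a = g a :=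
  ((Cmp.const 1).sub ((hf.sub hg).add (hg.sub hf))).congr fun a => by split_ifs <;> omega

lemma CmpP.not {p} (hp : CmpP X p) : CmpP X fun a => ¬ p a :=
  ((Cmp.const 1).sub hp).congr fun a => by by_cases h : p a <;> simp [h]

lemma CmpP.ne {f g} (hf : Cmp X f) (hg : Cmp X g) : CmpP X fun a => f a ≠ g a := (CmpP.eq hf hg).not

lemma CmpP.and {p q} (hp : CmpP X p) (hq : CmpP X q) : CmpP X fun a => p a ∧ q a :=
  (Cmp.mul hp hq).congr fun a => by by_cases h : p a <;> by_cases h' : q a <;> simp [h, h']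

lemma CmpP.congr {p q} (hp : CmpP X p) (h : ∀ a, p a ↔ q a) : CmpP X q := by
  rwa [← funext fun a => propext (h a)]

lemma CmpP.ite {p : X.α → Prop} [∀ a, Decidable (p a)] {q r} (hp : CmpP X p) (hq : CmpP X q)
    (hr : CmpP X r) : CmpP X fun a => if p a then q a else r a :=
  (Cmp.ite hp hq hr).congr fun a => by by_cases h : p a <;> simp [h]

lemma CmpP.ex {f} {p : X.α → ℕ → Prop} (hf : Cmp X f) (hp : CmpP X.ext fun a => p a.1 a.2) :
    CmpP X fun a => ∃ y < f a, p a y :=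
  (CmpP.lt (Cmp.const 0) (Cmp.sum (g := fun a y => if p a y then 1 else 0) hf hp)).congr fun a => by
    simp [← Finset.card_filter, Finset.card_pos, Finset.filter_nonempty_iff]

lemma sum_lt_ind (n m : ℕ) (p : ℕ → Prop) [DecidablePred p] (hm : m ≤ n) (h : ∀ y, p y ↔ y < m) :
    ∑ y ∈ range n, (if p y then 1 else 0) = m := by
  rw [← card_filter]
  have : (range n).filter p = range m := by ext y; simp [h]; omega
  rw [this, card_range]

lemma Cmp.div {f g} (hf : Cmp X f) (hg : Cmp X g) : Cmp X fun a => f a / g a := by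
  have h1 := Cmp.sum (g := fun a y => if 0 < g a ∧ (y + 1) * g a < f a + 1 then 1 else 0) hf
    (Cmp.ite ((CmpP.lt (Cmp.const 0) hg.weak).and (CmpP.lt ((Cmp.snd.add (Cmp.const 1)).mul hg.weak)
      (hf.weak.add (Cmp.const 1)))) (Cmp.const 1) (Cmp.const 0))
  refine h1.congr fun a => sum_lt_ind _ _ _ (Nat.div_le_self _ _) fun y => ?_
  rcases Nat.eq_zero_or_pos (g a) with h | h
  · simp [h]
  · rw [Nat.lt_iff_add_one_le (m := y), Nat.le_div_iff_mul_le h]
    omega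

lemma Cmp.mod {f g} (hf : Cmp X f) (hg : Cmp X g) : Cmp X fun a => f a % g a :=
  (hf.sub (hg.mul (hf.div hg))).congr fun a => (Nat.mod_def _ _).symm

lemma Cmp.sqrt {f} (hf : Cmp X f) : Cmp X fun a => Nat.sqrt (f a) := by
  have h1 := Cmp.sum (g := fun a y => if (y + 1) * (y + 1) < f a + 1 then 1 else 0) hf
    (Cmp.ite (CmpP.lt ((Cmp.snd.add (Cmp.const 1)).mul (Cmp.snd.add (Cmp.const 1)))
      (hf.weak.add (Cmp.const 1))) (Cmp.const 1) (Cmp.const 0))
  refine h1.congr fun a => sum_lt_ind _ _ _ (Nat.sqrt_le_self _) fun y => ?_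
  rw [Nat.lt_iff_add_one_le (m := y), Nat.le_sqrt]
  omega

lemma Cmp.pair {f g} (hf : Cmp X f) (hg : Cmp X g) : Cmp X fun a => Nat.pair (f a) (g a) :=
  Cmp.ite (CmpP.lt hf hg) ((hg.mul hg).add hf) (((hf.mul hf).add hf).add hg)

lemma CmpL.dec {p : X.α → Prop} (hp : CmpP X p) : CmpL X fun a => [decide (p a)] := by
  have := (CmpL.rep hp (CmpL.lit [true])).app (CmpL.rep hp.not (CmpL.lit [false]))
  convert this using 2 with a
  by_cases h : p a <;> simp [h]

def ctx0 : Ctx := ⟨List Bool, id, 1, fun u _ => u.length, Nat.one_pos, fun _ => rfl⟩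

open Vale.Agent.TM Turing in
theorem CmpL.machine {f : List Bool → List Bool} (hf : CmpL ctx0 f) :
    ∃ (c : Cmd) (R : ℕ) (P : Polynomial ℕ), ∀ u,
      Nonempty (TM2OutputsInTime (TM.machine c R 1 5) u (some (f u)) (P.eval u.length)) := by
  obtain ⟨e, he⟩ := hf 1 id (fun i hi => hi)
  obtain ⟨P, hP⟩ := top_exec e
  refine ⟨top e, max (top e).bd 5, P + 1, fun u => ?_⟩
  have h1 : e.eval u 1 (env1 u.length) = f u := he u _ fun i hi => by
    obtain rfl : i = 0 := by simpa [ctx0] using hi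
    rfl
  rw [← h1, Polynomial.eval_add, Polynomial.eval_one]
  exact machine_outputs (le_max_left _ _) (by omega) (by omega) (hP u).2

end Vale.Agent.P310
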