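import Vale.Agent.P310.Core

/-! The Reed-Solomon coding data. -/

namespace Vale.Agent.P310

open Classical Function Finset Polynomial

variable {F : Type} [Field F] {k r : ℕ}

def FnJ (F : Type) [Field F] (k j : ℕ) : Submodule F (Fin k → F → F) where
  carrier := {d | ∀ i, ∃ q : F[X], q.natDegree ≤ j ∧ ∀ h, d i h = q.eval h}
  zero_mem' := fun _ => ⟨0, by simp, by simp⟩
  add_mem' := fun {a b} ha hb i => by
    obtain ⟨p, h1, h2⟩ := ha i
    obtain ⟨q, h3, h4⟩ := hb i
    exact ⟨p + q, natDegree_add_le_of_degree_le h1 h3, by simp [h2, h4]⟩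
  smul_mem' := fun c a ha i => by
    obtain ⟨p, h1, h2⟩ := ha i
    exact ⟨c • p, (natDegree_smul_le c p).trans h1, by simp [h2]⟩

lemma FnJ_mono {j j' : ℕ} (h : j ≤ j') {d} (hd : d ∈ FnJ F k j) : d ∈ FnJ F k j' := fun i => by
  obtain ⟨p, h1, h2⟩ := hd i
  exact ⟨p, h1.trans h, h2⟩

lemma single_mem {j : ℕ} (i0 : Fin k) (f : F[X]) (hf : f.natDegree ≤ j) :
    (fun i h => if i = i0 then f.eval h else 0) ∈ FnJ F k j := fun i => by
  by_cases hi : i = i0
  · exact ⟨f, hf, by simp [hi]⟩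
  · exact ⟨0, by simp, by simp [hi]⟩

lemma const_mem {j : ℕ} (c : Fin k → F) : (fun i (_ : F) => c i) ∈ FnJ F k j := fun i =>
  ⟨C (c i), by simp, by simp⟩

lemma natDegree_prodX (Z : Finset F) : (∏ x ∈ Z, (X - C x)).natDegree = Z.card := by
  rw [natDegree_prod_of_monic _ _ fun x _ => monic_X_sub_C x]
  simp

variable (α : Fin k → F)

noncomputable def rsEnc (r : ℕ) : degreeLT F r →+ (Fin k → F) where
  toFun w i := w.1.eval (α i)
  map_zero' := by funext i; simp
  map_add' a b := by funext i; simp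

/-- The checks: row-wise polynomial functions with zero sum over each codeword. -/
def Chk (r : ℕ) : Submodule F (Fin k → F → F) where
  carrier := {a | a ∈ FnJ F k 4 ∧ ∀ w : degreeLT F r, ∑ i, a i (rsEnc α r w i) = 0}
  zero_mem' := ⟨Submodule.zero_mem _, by simp⟩
  add_mem' := fun {a b} ha hb => ⟨Submodule.add_mem _ ha.1 hb.1, fun w => by
    simp [sum_add_distrib, ha.2 w, hb.2 w]⟩
  smul_mem' := fun c a ha => ⟨Submodule.smul_mem _ c ha.1, fun w => by
    simp [← mul_sum, ha.2 w]⟩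

variable {α}

lemma absorb (hα : Injective α) {j : ℕ} (hj : j ≤ 4) (I : Finset (Fin k)) (hI : j * (r - 1) < I.card)
    {d} (hd : d ∈ FnJ F k j) : ∃ a ∈ Chk α r, ∀ i, i ∉ I → a i = d i := by
  choose q hq1 hq2 using hd
  refine ⟨fun i' h => if i' ∈ I then
    -∑ i ∈ Iᶜ, (Lagrange.basis I α i').eval (α i) * d i h else d i' h, ⟨fun i' => ?_, fun w => ?_⟩,
    fun i hi => by simp [hi]⟩
  · by_cases hi : i' ∈ I
    · refine ⟨-∑ i ∈ Iᶜ, C ((Lagrange.basis I α i').eval (α i)) * q i, ?_, fun h => ?_⟩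
      · rw [natDegree_neg]
        exact natDegree_sum_le_of_forall_le _ _ fun i _ =>
          (natDegree_C_mul_le _ _).trans ((hq1 i).trans hj)
      · simp [hi, eval_finset_sum, hq2]
    · exact ⟨q i', (hq1 i').trans hj, by simp [hi, hq2]⟩
  · rw [← sum_add_sum_compl I]
    rw [sum_congr rfl fun i (hi : i ∈ I) => if_pos hi,
      sum_congr rfl fun i (hi : i ∈ Iᶜ) => if_neg (mem_compl.1 hi)]
    rw [sum_neg_distrib, sum_comm, neg_add_eq_zero]
    refine sum_congr rfl fun i _ => ?_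
    have h1 : w.1.natDegree ≤ r - 1 := by
      by_cases h0 : w.1 = 0
      · simp [h0]
      · have := (natDegree_lt_iff_degree_lt h0).2 (mem_degreeLT.1 w.2)
        omega
    have h2 : ((q i).comp w.1).degree < I.card := by
      refine (degree_le_natDegree).trans_lt ?_
      exact_mod_cast (natDegree_comp_le.trans (Nat.mul_le_mul (hq1 i) h1)).trans_lt hI
    have h3 := congrArg (Polynomial.eval (α i)) (Lagrange.eq_interpolate hα.injOn h2)
    simp only [Lagrange.interpolate_apply, eval_finset_sum, eval_mul, eval_C, eval_comp] at h3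
    simp only [hq2, rsEnc, AddMonoidHom.coe_mk, ZeroHom.coe_mk]
    rw [h3]
    exact sum_congr rfl fun _ _ => mul_comm _ _

lemma match_pos (hα : Injective α) (hr : 0 < r) (hk : 12 * r ≤ k) (Pos : Finset (Fin k × F))
    {d} (hd : d ∈ FnJ F k 4) (hP : Pos.card ≤ k + 2)
    (hw : ∀ w, (∀ i, (i, rsEnc α r w i) ∈ Pos) → ∑ i, d i (rsEnc α r w i) = 0) :
    ∃ a ∈ Chk α r, ∀ i h, (i, h) ∈ Pos → a i h = d i h := by
  let fib : Fin k → Finset F := fun i => (Pos.filter fun x => x.1 = i).image Prod.snd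
  have hfib : ∀ i h, h ∈ fib i ↔ (i, h) ∈ Pos := by
    intro i h
    simp only [fib, mem_image, mem_filter]
    constructor
    · rintro ⟨⟨i', h'⟩, ⟨h1, rfl⟩, rfl⟩; exact h1
    · intro h1; exact ⟨_, ⟨h1, rfl⟩, rfl⟩
  have hsum : ∑ i, (fib i).card ≤ k + 2 := by
    refine le_trans ?_ hP
    rw [card_eq_sum_card_fiberwise (f := Prod.fst) (t := univ) (fun _ _ => mem_univ _)]
    exact sum_le_sum fun i _ => card_image_le
  let I0 := univ.filter fun i => (fib i).card = 0
  let I1 := univ.filter fun i => (fib i).card = 1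
  by_cases h0 : 4 * (r - 1) < I0.card
  · obtain ⟨a, ha, ha'⟩ := absorb hα le_rfl I0 h0 hd
    refine ⟨a, ha, fun i h hp => congrFun (ha' i fun hi => ?_) h⟩
    have := (hfib i h).2 hp
    rw [card_eq_zero.1 (mem_filter.1 hi).2] at this
    simp at this
  have h1 : 2 * k ≤ ∑ i, (fib i).card + 2 * I0.card + I1.card := by
    simp only [I0, I1, card_filter, mul_sum, ← sum_add_distrib]
    calc 2 * k = ∑ _i : Fin k, 2 := by simp [mul_comm]
      _ ≤ _ := sum_le_sum fun i _ => by split_ifs <;> omega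
  obtain ⟨I, hI1, hI2⟩ := exists_subset_card_eq (s := I1) (n := 4 * (r - 1) + 1) (by omega)
  have hex : ∀ i, ∃ x, i ∈ I → ∀ h, (i, h) ∈ Pos ↔ h = x := by
    intro i
    by_cases hi : i ∈ I
    · obtain ⟨x, hx⟩ := card_eq_one.1 (mem_filter.1 (hI1 hi)).2
      exact ⟨x, fun _ h => by rw [← hfib, hx, mem_singleton]⟩
    · exact ⟨0, fun h => absurd h hi⟩
  choose hp hhp using hex
  obtain ⟨a1, ha1, ha1'⟩ := absorb (r := r) hα le_rfl I (by omega) hd
  have fin : ∀ a3 ∈ Chk α r, ∀ t : F, (∀ i h, (i, h) ∈ Pos → i ∉ I → a3 i h = 0) →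
      ∑ i ∈ I, (d i (hp i) - a1 i (hp i)) = t * ∑ i ∈ I, a3 i (hp i) →
      ∃ a ∈ Chk α r, ∀ i h, (i, h) ∈ Pos → a i h = d i h := by
    intro a3 ha3 t h2 h3
    have hc : (fun i (_ : F) => if i ∈ I then d i (hp i) - a1 i (hp i) - t * a3 i (hp i) else 0)
        ∈ Chk α r := ⟨const_mem _, fun w => by
      rw [sum_ite_mem, univ_inter, sum_sub_distrib, h3, mul_sum, sub_self]⟩
    refine ⟨_, Submodule.add_mem _ (Submodule.add_mem _ ha1 (Submodule.smul_mem _ t ha3)) hc,
      fun i h hih => ?_⟩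
    by_cases hi : i ∈ I
    · obtain rfl := (hhp i hi h).1 hih
      simp [hi]
    · simp [hi, h2 i h hih hi, ha1' i hi]
  by_cases hV : ∑ i ∈ I, (d i (hp i) - a1 i (hp i)) = 0
  · exact fin 0 (Submodule.zero_mem _) 0 (fun _ _ _ _ => rfl) (by simp [hV])
  have mk3 : ∀ (j : ℕ) (I' : Finset (Fin k)) (w : degreeLT F r) (i0 : Fin k) (f : F[X]), j ≤ 4 →
      I' ⊆ I → j * (r - 1) < I'.card → (∀ i ∈ I', rsEnc α r w i = hp i) → i0 ∉ I' →
      f.natDegree ≤ j → (∀ h, (i0, h) ∈ Pos → f.eval h = 0) → f.eval (rsEnc α r w i0) ≠ 0 →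
      ∃ a ∈ Chk α r, ∀ i h, (i, h) ∈ Pos → a i h = d i h := by
    intro j I' w i0 f c1 c2 c3 c4 c5 c6 c7 c8
    obtain ⟨a3, ha3, ha3'⟩ := absorb hα c1 I' c3 (single_mem i0 f c6)
    have e1 : ∀ i h, (i, h) ∈ Pos → i ∉ I' → a3 i h = 0 := by
      intro i h hih hi
      rw [ha3' i hi]
      by_cases h2 : i = i0
      · subst h2; simp [c7 h hih]
      · simp [h2]
    have e2 : ∑ i ∈ I, a3 i (hp i) = -f.eval (rsEnc α r w i0) := by
      rw [← sum_subset c2 fun i hi hi' => e1 i _ ((hhp i hi _).2 rfl) hi']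
      have e3 := ha3.2 w
      rw [← sum_add_sum_compl I', sum_congr rfl fun i (hi : i ∈ I') => by rw [c4 i hi],
        sum_congr rfl fun i (hi : i ∈ I'ᶜ) => by rw [ha3' i (mem_compl.1 hi)]] at e3
      rw [sum_eq_single i0 (fun i _ hi => if_neg hi) (fun h => absurd (mem_compl.2 c5) h),
        if_pos rfl] at e3
      exact eq_neg_of_add_eq_zero_left e3
    refine fin a3 ha3 ((∑ i ∈ I, (d i (hp i) - a1 i (hp i))) / -f.eval (rsEnc α r w i0))
      (fun i h hih hi => e1 i h hih fun h' => hi (c2 h')) ?_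
    rw [e2, div_mul_cancel₀ _ (neg_ne_zero.2 c8)]
  obtain ⟨I', hI'1, hI'2⟩ := exists_subset_card_eq (s := I) (n := r) (by omega)
  let w : degreeLT F r := ⟨Lagrange.interpolate I' α hp, by
    rw [mem_degreeLT, ← hI'2]
    exact Lagrange.degree_interpolate_lt _ hα.injOn⟩
  have hw1 : ∀ i ∈ I', rsEnc α r w i = hp i := fun i hi =>
    Lagrange.eval_interpolate_at_node _ hα.injOn hi
  by_cases h2 : ∃ i0 ∈ I, rsEnc α r w i0 ≠ hp i0
  · obtain ⟨i0, h3, h4⟩ := h2
    refine mk3 1 I' w i0 (X - C (hp i0)) (by omega) hI'1 (by omega) hw1 (fun h => h4 (hw1 _ h))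
      (natDegree_X_sub_C_le _) (fun h hh => by simp [(hhp i0 h3 h).1 hh]) (by simpa [sub_eq_zero])
  push Not at h2
  obtain ⟨i0, h3, h4⟩ : ∃ i0, (i0, rsEnc α r w i0) ∉ Pos ∧ (fib i0).card ≤ 4 := by
    by_cases h3 : ∃ i, (fib i).card = 0
    · obtain ⟨i, hi⟩ := h3
      exact ⟨i, by rw [← hfib, card_eq_zero.1 hi]; simp, by omega⟩
    push Not at h3
    by_cases h4 : ∀ i, (i, rsEnc α r w i) ∈ Pos
    · exfalso
      apply hV
      have e1 : ∑ i, (d i (rsEnc α r w i) - a1 i (rsEnc α r w i)) = 0 := by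
        rw [sum_sub_distrib, hw w h4, ha1.2 w, sub_self]
      rw [← e1, ← sum_subset (subset_univ I) fun i _ hi => by rw [ha1' i hi, sub_self]]
      exact sum_congr rfl fun i hi => by rw [h2 i hi]
    push Not at h4
    obtain ⟨i0, h4⟩ := h4
    refine ⟨i0, h4, ?_⟩
    rw [← add_sum_erase _ _ (mem_univ i0)] at hsum
    have : ∑ _i ∈ univ.erase i0, 1 ≤ ∑ i ∈ univ.erase i0, (fib i).card :=
      sum_le_sum fun i _ => Nat.one_le_iff_ne_zero.2 (h3 i)
    simp at this
    omega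
  refine mk3 4 I w i0 (∏ x ∈ fib i0, (X - C x)) le_rfl subset_rfl (by omega) h2
    (fun h => h3 ((hhp i0 h _).2 (h2 i0 h))) ((natDegree_prodX _).trans_le (by assumption)) (fun h hh => ?_) ?_
  · rw [eval_prod]
    exact prod_eq_zero ((hfib _ _).2 hh) (by simp)
  · rw [eval_prod]
    refine prod_ne_zero_iff.2 fun x hx => ?_
    simp only [eval_sub, eval_X, eval_C, sub_ne_zero]
    rintro rfl
    exact h3 ((hfib _ _).1 hx)

theorem exists_setup [Fintype F] (hα : Injective α) (hr : 0 < r) (hk : 12 * r ≤ k) :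
    ∃ m, 0 < m ∧ m ≤ k * Fintype.card F + 1 ∧ Nonempty (Setup F (degreeLT F r) k r m) := by
  let n := Module.finrank F (Chk α r)
  let b := Module.finBasis F (Chk α r)
  let a : ℕ → Chk α r := fun j => if h : j < n then b ⟨j, h⟩ else 0
  refine ⟨n + 1, Nat.succ_pos _, ?_, ⟨⟨rsEnc α r, FnJ F k 4, fun π => a (π % (n + 1)), ?_, ?_,
    const_mem, ?_, fun π => (a _).2.1, fun π => (a _).2.2, ?_⟩⟩⟩
  · have := Submodule.finrank_le (Chk α r)
    simp only [Module.finrank_pi_fintype, Module.finrank_fintype_fun_eq_card, sum_const, card_univ,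
      Fintype.card_fin, smul_eq_mul, Module.finrank_self, mul_one] at this
    omega
  · intro w hw
    have h0 : w.1 ≠ 0 := fun h => hw (Subtype.ext h)
    have h1 := (natDegree_lt_iff_degree_lt h0).2 (mem_degreeLT.1 w.2)
    refine lt_of_le_of_lt ?_ h1
    refine le_trans ?_ ((Multiset.toFinset_card_le _).trans (card_roots' w.1))
    refine card_le_card_of_injOn α (fun i hi => ?_) hα.injOn
    simp only [coe_filter, mem_univ, true_and, Set.mem_setOf_eq] at hi
    simpa [h0, rsEnc] using hi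
  · intro d hd s i
    obtain ⟨q, h1, h2⟩ := hd i
    refine ⟨q.comp (X - C (s i)), natDegree_comp_le.trans ?_, fun h => by simp [h2]⟩
    have := natDegree_X_sub_C_le (s i)
    nlinarith
  · intro i0 Z t hZ ht
    have h1 : ∏ x ∈ Z, (t - x) ≠ 0 :=
      prod_ne_zero_iff.2 fun x hx => sub_ne_zero.2 fun h => ht (h ▸ hx)
    refine ⟨_, single_mem i0 (C (∏ x ∈ Z, (t - x))⁻¹ * ∏ x ∈ Z, (X - C x))
      ((natDegree_C_mul_le _ _).trans ((natDegree_prodX _).trans_le (by assumption))), fun i hi h => if_neg hi,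
      fun z hz => ?_, ?_⟩
    · simp only [if_true, eval_mul, eval_prod]
      exact mul_eq_zero_of_right _ (prod_eq_zero hz (by simp))
    · simp [eval_prod, h1]
  · intro g Pos d hd hP hw
    obtain ⟨c, hc, hc'⟩ := match_pos hα hr hk Pos hd hP hw
    refine ⟨fun π => if h : π % (n + 1) < n then b.repr ⟨c, hc⟩ ⟨_, h⟩ else 0, fun i h hih => ?_⟩
    rw [← hc' i h hih, sum_Ico_eq_sum_range, show (g + 1) * (n + 1) - g * (n + 1) = n + 1 by
      rw [add_mul]; omega]
    rw [sum_congr rfl (g := fun j => (if h : j < n then b.repr ⟨c, hc⟩ ⟨_, h⟩ else 0) *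
      (a j).1 i h) fun j hj => by
        have : (g * (n + 1) + j) % (n + 1) = j := by
          rw [Nat.mul_add_mod_self_right, Nat.mod_eq_of_lt (mem_range.1 hj)]
        simp only [this]]
    rw [sum_range_succ, dif_neg (lt_irrefl n), zero_mul, add_zero, sum_range]
    have := congrArg (fun x : Chk α r => x.1 i h) (b.sum_repr ⟨c, hc⟩)
    simp only [AddSubmonoidClass.coe_finset_sum, SetLike.val_smul, Finset.sum_apply, Pi.smul_apply,
      smul_eq_mul] at this
    rw [← this]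
    exact sum_congr rfl fun j _ => by simp [a]

end Vale.Agent.P310
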