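import Vale.Agent.P310.Csp

/-! Horn systems on a group of codewords and their linear constraint systems: completeness. -/

namespace Vale.Agent.P310

open Classical Function Finset

/-- The coding data: locations are encoded by `k` row coordinates. -/
structure Setup (F G : Type) [Field F] [AddCommGroup G] (k r m : ℕ) where
  enc : G →+ (Fin k → F)
  Fn : Submodule F (Fin k → F → F)
  chk : ℕ → Fin k → F → F
  agree : ∀ w, w ≠ 0 → (univ.filter fun i => enc w i = 0).card < r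
  shift : ∀ d ∈ Fn, ∀ s : Fin k → F, (fun i h => d i (h - s i)) ∈ Fn
  const : ∀ c : Fin k → F, (fun i _ => c i) ∈ Fn
  bump : ∀ (i0 : Fin k) (Z : Finset F) (t : F), Z.card ≤ 4 → t ∉ Z →
    ∃ b ∈ Fn, (∀ i, i ≠ i0 → ∀ h, b i h = 0) ∧ (∀ z ∈ Z, b i0 z = 0) ∧ b i0 t = 1
  chk_mem : ∀ π, chk π ∈ Fn
  chk_sum : ∀ π w, ∑ i, chk π i (enc w i) = 0
  span : ∀ (g : ℕ) (Pos : Finset (Fin k × F)), ∀ d ∈ Fn, Pos.card ≤ k + 2 →
    (∀ w, (∀ i, (i, enc w i) ∈ Pos) → ∑ i, d i (enc w i) = 0) →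
    ∃ lam : ℕ → F, ∀ i h, (i, h) ∈ Pos →
      ∑ π ∈ Ico (g * m) ((g + 1) * m), lam π * chk π i h = d i h

/-- A translation invariant system of binary Horn rules. -/
structure Horn (Sy Rl G : Type) where
  start : Sy
  acc : Sy
  in1 : Rl → Sy
  in2 : Rl → Sy
  out : Rl → Sy
  sh1 : Rl → G
  sh2 : Rl → G

variable {F G Sy Rl : Type} [Field F] [AddCommGroup G] {k r m : ℕ}

def Horn.Model (H : Horn Sy Rl G) (𝒦 : Sy → G → Prop) : Prop :=
  𝒦 H.start 0 ∧ ∀ ρ w, 𝒦 (H.in1 ρ) (w - H.sh1 ρ) → 𝒦 (H.in2 ρ) (w - H.sh2 ρ) →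
    H.out ρ ≠ H.acc ∧ 𝒦 (H.out ρ) w

def Horn.psym (H : Horn Sy Rl G) (ρ : Rl) : Fin 5 → Sy :=
  ![H.in1 ρ, H.in1 ρ, H.in2 ρ, H.in2 ρ, H.out ρ]

def Horn.psh (H : Horn Sy Rl G) (ρ : Rl) : Fin 5 → G :=
  ![H.sh1 ρ, H.sh1 ρ, H.sh2 ρ, H.sh2 ρ, 0]

noncomputable def Horn.eps (H : Horn Sy Rl G) (F : Type) [Field F] (ρ : Rl) : Fin 5 → F :=
  ![1, -1, 1, -1, if H.out ρ = H.acc then 0 else 1]

noncomputable def Horn.gam (H : Horn Sy Rl G) (F : Type) [Field F] (ρ : Rl) : F :=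
  if H.out ρ = H.acc then 1 else 0

inductive Con (F Rl : Type) (k L : ℕ)
  | step (ρ : Rl) (τ : Fin 5) (π : Fin L) (i : Fin k) (h : F)
  | jun (ρ : Rl) (i : Fin k) (h : F)
  | gr (i : Fin k)

inductive Var (F Sy Rl : Type) (k : ℕ)
  | X (σ : Sy) (i : Fin k) (h : F)
  | Y (ρ : Rl) (τ : Fin 5) (π : ℕ) (i : Fin k) (h : F)
  | lam (ρ : Rl) (τ : Fin 5) (π : ℕ)

variable (D : Setup F G k r m) (H : Horn Sy Rl G)

def yv (ρ : Rl) (τ : Fin 5) (π : ℕ) (i : Fin k) (h : F) : Var F Sy Rl k :=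
  if π = 0 then .X (H.psym ρ τ) i (h - D.enc (H.psh ρ τ) i) else .Y ρ τ π i h

noncomputable def hcsp (L : ℕ) : Csp F (Con F Rl k L) (Var F Sy Rl k) where
  var
    | .step ρ τ π i h => ![yv D H ρ τ π i h, .lam ρ τ π, yv D H ρ τ (π + 1) i h, .lam ρ τ π,
        .lam ρ τ π]
    | .jun ρ i h => fun τ => yv D H ρ τ L i h
    | .gr i => fun _ => .X H.start i 0
  coef
    | .step _ _ π i h => ![1, D.chk π i h, -1, 0, 0]
    | .jun ρ _ _ => H.eps F ρ
    | .gr _ => ![1, 0, 0, 0, 0]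
  rhs
    | .step _ _ _ _ _ => 0
    | .jun ρ i _ => if i.1 = 0 then H.gam F ρ else 0
    | .gr _ => 0

lemma sat_step {L : ℕ} (ρ τ) (π : Fin L) (i h) (x : Var F Sy Rl k → F) :
    (hcsp D H L).Sat (.step ρ τ π i h) x ↔
      x (yv D H ρ τ (π + 1) i h) = x (yv D H ρ τ π i h) + x (.lam ρ τ π) * D.chk π i h := by
  simp only [Csp.Sat, hcsp, Fin.sum_univ_five]
  simp
  constructor <;> intro h <;> linear_combination -h

lemma sat_jun {L : ℕ} (ρ i h) (x : Var F Sy Rl k → F) :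
    (hcsp D H L).Sat (.jun ρ i h) x ↔
      ∑ τ, H.eps F ρ τ * x (yv D H ρ τ L i h) = if i.1 = 0 then H.gam F ρ else 0 := Iff.rfl

lemma sat_gr {L : ℕ} (i) (x : Var F Sy Rl k → F) :
    (hcsp D H L).Sat (.gr i) x ↔ x (.X H.start i 0) = 0 := by
  simp [Csp.Sat, hcsp, Fin.sum_univ_five]

section complete

variable {Cn Vr : Type} [DecidableEq Cn] {C : Csp F Cn Vr} {𝓢 : Finset Cn → (Vr → F) → Prop}

def Holds (C : Csp F Cn Vr) (𝓢 : Finset Cn → (Vr → F) → Prop) (v : Fin k → Vr) : Prop :=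
  ∀ κ : Fin k → Cn, (∀ i, ∃ τ, C.var (κ i) τ = v i) → ∀ x, 𝓢 (univ.image κ) x → ∑ i, x (v i) = 0

lemma holds_of (h : C.Strat (k + 1) 𝓢) {v : Fin k → Vr} (κ0 : Fin k → Cn)
    (h0 : ∀ i, ∃ τ, C.var (κ0 i) τ = v i) (h1 : ∀ x, 𝓢 (univ.image κ0) x → ∑ i, x (v i) = 0) :
    Holds C 𝓢 v := by
  intro κ hκ
  have key : ∀ T : Finset (Fin k), ∀ x, 𝓢 (univ.image (T.piecewise κ κ0)) x →
      ∑ i, x (v i) = 0 := by
    intro T
    induction T using Finset.induction_on with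
    | empty => simpa using h1
    | insert i T hi ih =>
      intro x hx
      obtain ⟨x', h2, h3⟩ := h.ext _ x (κ0 i) (Nat.lt_succ_of_le (card_image_le.trans (by simp))) hx
      have h4 := ih x' (h.mono _ _ _ (by
        intro c hc
        obtain ⟨j, _, rfl⟩ := mem_image.1 hc
        by_cases hj : j = i
        · subst hj
          rw [piecewise_eq_of_notMem _ _ _ hi]
          exact mem_insert_self _ _
        · refine mem_insert_of_mem (mem_image.2 ⟨j, mem_univ _, ?_⟩)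
          rw [piecewise_insert_of_ne _ _ _ hj]) h2)
      rw [← h4]
      refine sum_congr rfl fun j _ => ?_
      have : ∃ τ, C.var (((insert i T).piecewise κ κ0) j) τ = v j := by
        by_cases hj : j ∈ insert i T
        · rw [piecewise_eq_of_mem _ _ _ hj]; exact hκ j
        · rw [piecewise_eq_of_notMem _ _ _ hj]; exact h0 j
      obtain ⟨τ, hτ⟩ := this
      rw [← hτ]
      exact (h3 _ (mem_image_of_mem _ (mem_univ j)) τ).symm
  simpa using key univ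

end complete

variable {L : ℕ} [DecidableEq (Con F Rl k L)]

lemma holds_step {𝓢} (h : (hcsp D H L).Strat (k + 1) 𝓢) (ρ τ) (π : Fin L) (w : G) :
    Holds (hcsp D H L) 𝓢 (fun i => yv D H ρ τ π i (D.enc w i)) ↔
      Holds (hcsp D H L) 𝓢 (fun i => yv D H ρ τ (π + 1) i (D.enc w i)) := by
  have key : ∀ x, 𝓢 (univ.image fun i => Con.step ρ τ π i (D.enc w i)) x →
      ∑ i, x (yv D H ρ τ (π + 1) i (D.enc w i)) = ∑ i, x (yv D H ρ τ π i (D.enc w i)) := by
    intro x hx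
    have := fun i => (sat_step D H ρ τ π i (D.enc w i) x).1
      (h.sat _ _ _ hx (mem_image_of_mem _ (mem_univ i)))
    simp only [this, sum_add_distrib, ← mul_sum, D.chk_sum, mul_zero, add_zero]
  constructor
  · intro h1
    refine holds_of h (fun i => Con.step ρ τ π i (D.enc w i)) (fun i => ⟨2, rfl⟩) fun x hx => ?_
    rw [key x hx]
    exact h1 _ (fun i => ⟨0, rfl⟩) x hx
  · intro h1
    refine holds_of h (fun i => Con.step ρ τ π i (D.enc w i)) (fun i => ⟨0, rfl⟩) fun x hx => ?_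
    rw [← key x hx]
    exact h1 _ (fun i => ⟨2, rfl⟩) x hx

lemma holds_wire {𝓢} (h : (hcsp D H L).Strat (k + 1) 𝓢) (ρ τ) (w : G) :
    Holds (hcsp D H L) 𝓢 (fun i => .X (H.psym ρ τ) i (D.enc (w - H.psh ρ τ) i)) ↔
      Holds (hcsp D H L) 𝓢 (fun i => yv D H ρ τ L i (D.enc w i)) := by
  have : ∀ π ≤ L, Holds (hcsp D H L) 𝓢 (fun i => .X (H.psym ρ τ) i (D.enc (w - H.psh ρ τ) i)) ↔
      Holds (hcsp D H L) 𝓢 (fun i => yv D H ρ τ π i (D.enc w i)) := by
    intro π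
    induction π with
    | zero => intro _; simp [yv]
    | succ π ih => intro hπ; exact (ih (by omega)).trans (holds_step D H h ρ τ ⟨π, hπ⟩ w)
  exact this L le_rfl

theorem model_of_cons (hk : 0 < k) (h : (hcsp D H L).Cons (k + 1)) : ∃ 𝒦, H.Model 𝒦 := by
  obtain ⟨𝓢, h⟩ := h
  refine ⟨fun σ w => Holds (hcsp D H L) 𝓢 (fun i => .X σ i (D.enc w i)), ?_, fun ρ w h1 h2 => ?_⟩
  · refine holds_of h Con.gr (fun i => ⟨0, by simp [hcsp]⟩) fun x hx => ?_
    refine sum_eq_zero fun i _ => ?_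
    simpa using (sat_gr D H i x).1 (h.sat _ _ _ hx (mem_image_of_mem _ (mem_univ i)))
  · have a0 := (holds_wire D H h ρ 0 w).1 h1
    have a1 := (holds_wire D H h ρ 1 w).1 h1
    have a2 := (holds_wire D H h ρ 2 w).1 h2
    have a3 := (holds_wire D H h ρ 3 w).1 h2
    have key : ∀ x, 𝓢 (univ.image fun i => Con.jun ρ i (D.enc w i)) x →
        H.eps F ρ 4 * ∑ i, x (yv D H ρ 4 L i (D.enc w i)) = H.gam F ρ := by
      intro x hx
      have b := fun i => (sat_jun D H ρ i (D.enc w i) x).1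
        (h.sat _ _ _ hx (mem_image_of_mem _ (mem_univ i)))
      have b' := sum_congr (s₁ := univ) rfl fun i _ => b i
      rw [sum_comm] at b'
      simp only [← mul_sum, Fin.sum_univ_five] at b'
      rw [a0 _ (fun i => ⟨0, rfl⟩) x hx, a1 _ (fun i => ⟨1, rfl⟩) x hx,
        a2 _ (fun i => ⟨2, rfl⟩) x hx, a3 _ (fun i => ⟨3, rfl⟩) x hx] at b'
      rw [sum_eq_single (⟨0, hk⟩ : Fin k) (fun i _ hi => if_neg fun h0 => hi (Fin.ext h0))
        (by simp)] at b'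
      simpa using b'
    have hne : H.out ρ ≠ H.acc := by
      intro ha
      obtain ⟨x, hx⟩ := h.nonempty (univ.image fun i => Con.jun ρ i (D.enc w i))
        (card_image_le.trans (by simp))
      simpa [Horn.eps, Horn.gam, ha] using key x hx
    refine ⟨hne, ?_⟩
    have := (holds_wire D H h ρ 4 w).2 (holds_of h (fun i => Con.jun ρ i (D.enc w i))
      (fun i => ⟨4, rfl⟩) fun x hx => by simpa [Horn.eps, Horn.gam, hne] using key x hx)
    simpa [Horn.psym, Horn.psh] using this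

end Vale.Agent.P310
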