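import Vale.Agent.P310.Defs

/-! Linear constraint systems, local consistency, and the associated pair of graphs. -/

namespace Vale.Agent.P310

open Classical Function

/-- A system of linear constraints, each with five variable slots. -/
structure Csp (F Con Var : Type) where
  var : Con → Fin 5 → Var
  coef : Con → Fin 5 → F
  rhs : Con → F

variable {F Con Var Con' Var' : Type} [Field F]

def Csp.Sat (C : Csp F Con Var) (κ : Con) (x : Var → F) : Prop :=
  ∑ τ, C.coef κ τ * x (C.var κ τ) = C.rhs κ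

def Csp.Agree (C : Csp F Con Var) (S : Finset Con) (x' x : Var → F) : Prop :=
  ∀ κ ∈ S, ∀ τ, x' (C.var κ τ) = x (C.var κ τ)

variable [DecidableEq Con] [DecidableEq Con']

structure Csp.Strat (C : Csp F Con Var) (K : ℕ) (𝓢 : Finset Con → (Var → F) → Prop) : Prop where
  init : ∃ x, 𝓢 ∅ x
  sat : ∀ S x κ, 𝓢 S x → κ ∈ S → C.Sat κ x
  mono : ∀ S S' x, S ⊆ S' → 𝓢 S' x → 𝓢 S x
  ext : ∀ S x κ, S.card < K → 𝓢 S x → ∃ x', 𝓢 (insert κ S) x' ∧ C.Agree S x' x

/-- Local consistency with `K` pebbles. -/
def Csp.Cons (C : Csp F Con Var) (K : ℕ) : Prop := ∃ 𝓢, C.Strat K 𝓢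

lemma Csp.Cons.map {C : Csp F Con Var} {C' : Csp F Con' Var'} {K : ℕ} (f : Con' → Con)
    (g : (Var → F) → Var' → F) (hg : ∀ x κ τ, g x (C'.var κ τ) = x (C.var (f κ) τ))
    (hc : ∀ κ, C'.coef κ = C.coef (f κ)) (hr : ∀ κ, C'.rhs κ = C.rhs (f κ)) (h : C.Cons K) :
    C'.Cons K := by
  obtain ⟨𝓢, h⟩ := h
  refine ⟨fun S x' => ∃ x, 𝓢 (S.image f) x ∧ x' = g x, ?_, ?_, ?_, ?_⟩
  · obtain ⟨x, hx⟩ := h.init
    exact ⟨g x, x, by simpa using hx, rfl⟩
  · rintro S _ κ ⟨x, hx, rfl⟩ hκ
    have := h.sat _ _ _ hx (Finset.mem_image_of_mem f hκ)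
    simpa [Csp.Sat, hg, hc, hr] using this
  · rintro S S' _ hS ⟨x, hx, rfl⟩
    exact ⟨x, h.mono _ _ _ (Finset.image_subset_image hS) hx, rfl⟩
  · rintro S _ κ hS ⟨x, hx, rfl⟩
    obtain ⟨x', h1, h2⟩ := h.ext _ _ (f κ) (Finset.card_image_le.trans_lt hS) hx
    refine ⟨g x', ⟨x', by simpa [Finset.image_insert] using h1, rfl⟩, fun κ' hκ' τ => ?_⟩
    rw [hg, hg]
    exact h2 _ (Finset.mem_image_of_mem f hκ') τ

lemma Csp.Strat.nonempty {C : Csp F Con Var} {K : ℕ} {𝓢} (h : C.Strat K 𝓢) (S : Finset Con)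
    (hS : S.card ≤ K) : ∃ x, 𝓢 S x := by
  induction S using Finset.induction_on with
  | empty => exact h.init
  | insert κ S hκ ih =>
    rw [Finset.card_insert_of_notMem hκ] at hS
    obtain ⟨x, hx⟩ := ih (by omega)
    obtain ⟨x', hx', _⟩ := h.ext S x κ (by omega) hx
    exact ⟨x', hx'⟩

section graph

variable {M : ℕ} (C : Csp F (Fin M) Var)

/-- Two block vertices disagree on a common variable. -/
def dis (u v : Fin M × (Fin 5 → F)) : Prop :=
  ∃ τ τ', C.var u.1 τ = C.var v.1 τ' ∧ u.2 τ ≠ v.2 τ'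

lemma dis_symm {u v} (h : dis C u v) : dis C v u := by
  obtain ⟨τ, τ', h1, h2⟩ := h
  exact ⟨τ', τ, h1.symm, h2.symm⟩

def ok (b : Bool) (u : Fin M × (Fin 5 → F)) : Prop :=
  ∑ τ, C.coef u.1 τ * u.2 τ = (if b then C.rhs u.1 else 0) ∧ ¬ dis C u u

noncomputable def col (b : Bool) (u : Fin M × (Fin 5 → F)) : ℕ :=
  2 * u.1.1 + if ok C b u then 1 else 0

abbrev Vx (F : Type) (M Mk : ℕ) := (Fin M × (Fin 5 → F)) ⊕ Fin Mk

def adj (b : Bool) (N Mk : ℕ) : Vx F M Mk → Vx F M Mk → Prop
  | .inl u, .inl v => u ≠ v ∧ dis C u v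
  | .inl u, .inr j => j.1 < (col C b u + 2) * N
  | .inr j, .inl u => j.1 < (col C b u + 2) * N
  | .inr _, .inr _ => False

def graph (b : Bool) (N Mk : ℕ) : SimpleGraph (Vx F M Mk) where
  Adj := adj C b N Mk
  symm := ⟨by
    rintro (u | j) (v | j') h
    · exact ⟨h.1.symm, dis_symm C h.2⟩
    · exact h
    · exact h
    · exact h⟩
  loopless := ⟨by
    rintro (u | j) h
    · exact h.1 rfl
    · exact h⟩

def trB (x : Var → F) (u : Fin M × (Fin 5 → F)) : Fin M × (Fin 5 → F) :=
  (u.1, fun τ => u.2 τ + x (C.var u.1 τ))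

def tr {Mk : ℕ} (x : Var → F) : Vx F M Mk → Vx F M Mk := Sum.map (trB C x) id

lemma trB_inj (x : Var → F) : Injective (trB C x) := by
  rintro ⟨κ, a⟩ ⟨κ', a'⟩ h
  simp only [trB, Prod.mk.injEq] at h
  obtain ⟨rfl, h⟩ := h
  congr 1
  funext τ
  simpa using congrFun h τ

lemma tr_inj {Mk : ℕ} (x : Var → F) : Injective (tr (Mk := Mk) C x) :=
  (trB_inj C x).sumMap injective_id

lemma dis_trB (x : Var → F) (u v) : dis C (trB C x u) (trB C x v) ↔ dis C u v := by
  constructor
  · rintro ⟨τ, τ', h1, h2⟩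
    refine ⟨τ, τ', h1, fun h => h2 ?_⟩
    simp only [trB] at h1 ⊢
    rw [h, h1]
  · rintro ⟨τ, τ', h1, h2⟩
    refine ⟨τ, τ', h1, fun h => h2 ?_⟩
    simp only [trB] at h
    rw [h1] at h
    exact add_right_cancel h

lemma col_trB {x : Var → F} {u} (h : C.Sat u.1 x) : col C true (trB C x u) = col C false u := by
  have : ok C true (trB C x u) ↔ ok C false u := by
    simp only [ok, dis_trB]
    simp only [Csp.Sat] at h
    simp [trB, mul_add, Finset.sum_add_distrib, h]
  simp only [col, this]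
  rfl

/-- The blocks met by a tuple. -/
noncomputable def blocks {Mk k : ℕ} (y : Fin k → Vx F M Mk) : Finset (Fin M) :=
  Finset.univ.filter fun κ => ∃ i a, y i = .inl (κ, a)

lemma card_blocks {Mk k : ℕ} (y : Fin k → Vx F M Mk) : (blocks y).card ≤ k := by
  have : ∀ κ : blocks y, ∃ i a, y i = .inl (κ.1, a) := fun κ => (Finset.mem_filter.1 κ.2).2
  choose f a hf using this
  have hinj : Injective f := by
    intro κ κ' h
    have h1 := hf κ
    rw [h, hf κ'] at h1
    simp only [Sum.inl.injEq, Prod.mk.injEq] at h1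
    exact Subtype.ext h1.1.symm
  simpa using Fintype.card_le_of_injective f hinj

variable [Fintype F]

lemma color_tr {k N Mk : ℕ} {𝓢} (h : C.Strat (k + 1) 𝓢) : ∀ (r : ℕ) (y : Fin k → Vx F M Mk) x,
    𝓢 (blocks y) x → color (graph C false N Mk) k r y = color (graph C true N Mk) k r (tr C x ∘ y)
  | 0, y, x, hx => by
    funext i j
    simp only [color, comp_apply, (tr_inj C x).eq_iff, Prod.mk.injEq, true_and]
    have hs : ∀ i u, y i = .inl u → C.Sat u.1 x := fun i u hu =>
      h.sat _ _ _ hx (by simp only [blocks, Finset.mem_filter, Finset.mem_univ, true_and]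
                         exact ⟨i, u.2, hu⟩)
    rcases hi : y i with u | a <;> rcases hj : y j with v | b
    · simp [graph, adj, tr, dis_trB, (trB_inj C x).eq_iff]
    · simp [graph, adj, tr, col_trB C (hs i u hi)]
    · simp [graph, adj, tr, col_trB C (hs j v hj)]
    · simp [graph, adj, tr]
  | r + 1, y, x, hx => by
    have hext := fun κ => h.ext _ x κ (Nat.lt_succ_of_le (card_blocks y)) hx
    choose xs hxs hag using hext
    let xs' : Vx F M Mk → Var → F := fun v => Sum.elim (fun u => xs u.1) (fun _ => x) v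
    let β : Vx F M Mk → Vx F M Mk := fun v => tr C (xs' v) v
    have hβ : Injective β := by
      rintro (u | j) (v | j') hv
      · have h1 : u.1 = v.1 := by
          simp only [β, tr, Sum.map_inl, Sum.inl.injEq, trB, Prod.mk.injEq] at hv
          exact hv.1
        have h2 : xs' (.inl u) = xs' (.inl v) := by simp [xs', h1]
        simp only [β, h2] at hv
        exact tr_inj C _ hv
      · simp [β, tr] at hv
      · simp [β, tr] at hv
      · simpa [β, tr] using hv
    have hβ' := Finite.injective_iff_bijective.1 hβ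
    simp only [color]
    rw [color_tr h r y x hx]
    congr 1
    conv_rhs => rw [← Multiset.map_univ_val_equiv (Equiv.ofBijective β hβ'), Multiset.map_map]
    apply Multiset.map_congr rfl
    intro v _
    funext i
    have h1 : 𝓢 (blocks (update y i v)) (xs' v) := by
      rcases v with u | j
      · refine h.mono _ _ _ ?_ (hxs u.1)
        intro κ hκ
        simp only [blocks, Finset.mem_filter, Finset.mem_univ, true_and, Finset.mem_insert]
          at hκ ⊢
        obtain ⟨i', a, hi'⟩ := hκ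
        by_cases hh : i' = i
        · subst hh
          rw [update_self] at hi'
          left
          simp only [Sum.inl.injEq] at hi'
          rw [hi']
        · rw [update_of_ne hh] at hi'
          exact Or.inr ⟨i', a, hi'⟩
      · refine h.mono _ _ _ ?_ hx
        intro κ hκ
        simp only [blocks, Finset.mem_filter, Finset.mem_univ, true_and] at hκ ⊢
        obtain ⟨i', a, hi'⟩ := hκ
        by_cases hh : i' = i
        · subst hh
          simp at hi'
        · rw [update_of_ne hh] at hi'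
          exact ⟨i', a, hi'⟩
    rw [color_tr h r _ _ h1]
    simp only [comp_apply, Equiv.ofBijective_apply]
    congr 1
    funext j
    by_cases hh : j = i
    · subst hh; simp [β]
    · simp only [comp_apply, update_of_ne hh]
      rcases hj : y j with u | a
      · rcases v with v | a
        · simp only [tr, Sum.map_inl, trB, Sum.inl.injEq, Prod.mk.injEq, true_and]
          funext τ
          congr 1
          refine hag v.1 u.1 ?_ τ
          simp only [blocks, Finset.mem_filter, Finset.mem_univ, true_and]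
          exact ⟨j, u.2, hj⟩
        · rfl
      · rfl

lemma blocks_tr {Mk k : ℕ} (x : Var → F) (y : Fin k → Vx F M Mk) :
    blocks (tr C x ∘ y) = blocks y := by
  ext κ
  simp only [blocks, Finset.mem_filter, Finset.mem_univ, true_and, comp_apply]
  refine exists_congr fun i => ?_
  rcases y i with u | j
  · simp only [tr, Sum.map_inl, trB, Sum.inl.injEq, Prod.mk.injEq]
    constructor
    · rintro ⟨a, h1, _⟩
      exact ⟨u.2, by rw [← h1]⟩
    · rintro ⟨a, rfl⟩
      exact ⟨_, rfl, rfl⟩
  · simp [tr]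

theorem wl_of_cons {k N Mk : ℕ} (h : C.Cons (k + 1)) :
    WLEquiv k (graph C false N Mk) (graph C true N Mk) := by
  obtain ⟨𝓢, h⟩ := h
  have hne : ∀ S : Finset (Fin M), ∃ x, S.card ≤ k + 1 → 𝓢 S x := by
    intro S
    by_cases hS : S.card ≤ k + 1
    · obtain ⟨x, hx⟩ := h.nonempty S hS
      exact ⟨x, fun _ => hx⟩
    · exact ⟨0, fun h' => absurd h' hS⟩
  choose X hX using hne
  let Φ : (Fin k → Vx F M Mk) → (Fin k → Vx F M Mk) := fun y => tr C (X (blocks y)) ∘ y
  have hΦ : Injective Φ := by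
    intro y y' hy
    have h1 : blocks y = blocks y' := by
      have := congrArg blocks hy
      simpa only [Φ, blocks_tr] using this
    simp only [Φ, h1] at hy
    exact (tr_inj C _).comp_left hy
  have hΦ' := Finite.injective_iff_bijective.1 hΦ
  intro r
  conv_rhs => rw [← Multiset.map_univ_val_equiv (Equiv.ofBijective Φ hΦ'), Multiset.map_map]
  apply Multiset.map_congr
  · congr
  intro y _
  exact color_tr C h r y _ (hX _ ((card_blocks y).trans (Nat.le_succ k)))

end graph

end Vale.Agent.P310
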