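import Mathlib

/-! Joint-update Weisfeiler-Leman refinement and the adjacency-matrix encoding of graph pairs. -/

namespace Vale.Agent.P310

open Classical

/-- The colours of `k`-tuples after `r` rounds: atomic types, then pairs of the previous colour and
a multiset of `k`-tuples of previous colours. -/
def Color (k : ℕ) : ℕ → Type
  | 0 => Fin k → Fin k → Prop × Prop
  | r + 1 => Color k r × Multiset (Fin k → Color k r)

/-- The colour `C_r(x)` of the tuple `x` in the graph `G`. -/
noncomputable def color {V : Type} [Fintype V] (G : SimpleGraph V) (k : ℕ) :
    (r : ℕ) → (Fin k → V) → Color k r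
  | 0, x => fun i j => (x i = x j, G.Adj (x i) (x j))
  | r + 1, x => (color G k r x,
      (Finset.univ : Finset V).val.map fun y i => color G k r (Function.update x i y))

/-- `G` and `H` are `k`-WL equivalent: in every round the multisets of colours coincide. -/
def WLEquiv (k : ℕ) {V W : Type} [Fintype V] [Fintype W] (G : SimpleGraph V) (H : SimpleGraph W) :
    Prop :=
  ∀ r, (Finset.univ : Finset (Fin k → V)).val.map (color G k r) =
    (Finset.univ : Finset (Fin k → W)).val.map (color H k r)

/-- A number `n` and two graphs on `n` vertices. -/
abbrev GraphPair := Σ n : ℕ, SimpleGraph (Fin n) × SimpleGraph (Fin n)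

/-- The adjacency matrix, row by row. -/
noncomputable def adjBits {n : ℕ} (G : SimpleGraph (Fin n)) : List Bool :=
  (List.finRange n).flatMap fun i => (List.finRange n).map fun j => decide (G.Adj i j)

/-- The input word: the first adjacency matrix followed by the second. -/
noncomputable def encodePair (x : GraphPair) : List Bool := adjBits x.2.1 ++ adjBits x.2.2

/-- The Boolean answer to the question whether the two graphs are `k`-WL equivalent. -/
noncomputable def wlAnswer (k : ℕ) (x : GraphPair) : Bool := decide (WLEquiv k x.2.1 x.2.2)

end Vale.Agent.P310
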