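import Vale.Agent.TM.Ex

/-! Bit-string expressions with read access to an input word. -/

namespace Vale.Agent.P310

open Turing Function Vale.Agent.TM

/-- Bit-string expressions. Numbers are lengths of strings. -/
inductive Ey
  | lit (l : List Bool)
  | var (i : ℕ)
  | app (a b : Ey)
  | sub (a b : Ey)
  | rep (a b : Ey)
  | each (a b : Ey)
  | bit (a : Ey)

def Ey.eval (u : List Bool) : Ey → ℕ → (ℕ → ℕ) → List Bool
  | .lit l, _, _ => l
  | .var i, _, v => List.replicate (v i) true
  | .app a b, d, v => a.eval u d v ++ b.eval u d v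
  | .sub a b, d, v => List.replicate ((a.eval u d v).length - (b.eval u d v).length) true
  | .rep a b, d, v => (List.range (a.eval u d v).length).flatMap fun _ => b.eval u d v
  | .each a b, d, v =>
      (List.range (a.eval u d v).length).flatMap fun y => b.eval u (d + 1) (update v d y)
  | .bit a, d, v => if u[(a.eval u d v).length]? = some true then [true] else []

def mv1 (a b : ℕ) : Cmd := .loop (2 * a + 1) (.test (2 * a + 1)
  (.seq (.pop (2 * a + 1)) (.push (2 * b + 1) true))
  (.seq (.pop (2 * a + 1)) (.push (2 * b + 1) false)))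

def mv2 (a b c : ℕ) : Cmd := .loop (2 * a + 1) (.test (2 * a + 1)
  (.seq (.pop (2 * a + 1)) (.seq (.push (2 * b + 1) true) (.push (2 * c + 1) true)))
  (.seq (.pop (2 * a + 1)) (.seq (.push (2 * b + 1) false) (.push (2 * c + 1) false))))

lemma mv1_exec (v : ℕ → ℕ) {a b : ℕ} (hab : a ≠ b) : ∀ (l : List Bool) (w : ℕ → List Bool),
    w a = l → Exec (mv1 a b) (mk v w) (mk v (update (update w a []) b (l.reverse ++ w b)))
      (l.length + 1)
  | [], w, h => (Exec.loop0 (by rw [mk_odd]; exact h)).cast rfl rfl rfl (by
      rw [← h, update_eq_self, h]; simp) le_rfl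
  | x :: l, w, h => by
    have h3 := (popW v w a).seq (pushW _ _ b x)
    have ih := (mv1_exec v hab l (update (update w a (w a).tail) b
      (x :: update w a (w a).tail b)) (by simp [update_of_ne hab, h])).cast
      (w₁' := update (update w a []) b ((x :: l).reverse ++ w b)) rfl rfl rfl (by
        funext j
        by_cases h0 : j = a <;> by_cases h2 : j = b <;> simp [h0, h2, hab, hab.symm]) le_rfl
    cases x with
    | true =>
      exact (Exec.loop1 (by rw [mk_odd, h]; simp) (Exec.testT (by rw [mk_odd, h]; simp) h3) ih).mono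
        (by simp)
    | false =>
      exact (Exec.loop1 (by rw [mk_odd, h]; simp) (Exec.testF (by rw [mk_odd, h]; simp) h3) ih).mono
        (by simp)

lemma mv2_exec (v : ℕ → ℕ) {a b c : ℕ} (hab : a ≠ b) (hac : a ≠ c) (hbc : b ≠ c) :
    ∀ (l : List Bool) (w : ℕ → List Bool), w a = l → Exec (mv2 a b c) (mk v w)
      (mk v (update (update (update w a []) b (l.reverse ++ w b)) c (l.reverse ++ w c)))
      (l.length + 1)
  | [], w, h => (Exec.loop0 (by rw [mk_odd]; exact h)).cast rfl rfl rfl (by
      rw [← h, update_eq_self, h]; simp) le_rfl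
  | x :: l, w, h => by
    have h3 := (popW v w a).seq ((pushW _ _ b x).seq (pushW _ _ c x))
    have ih := (mv2_exec v hab hac hbc l (update (update (update w a (w a).tail) b
      (x :: update w a (w a).tail b)) c (x :: update (update w a (w a).tail) b
      (x :: update w a (w a).tail b) c)) (by simp [update_of_ne hab, update_of_ne hac, h])).cast
      (w₁' := update (update (update w a []) b ((x :: l).reverse ++ w b)) c
        ((x :: l).reverse ++ w c)) rfl rfl rfl (by
        funext j
        by_cases h0 : j = a <;> by_cases h2 : j = b <;> by_cases h3 : j = c <;>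
          simp [h0, h2, h3, hab, hab.symm, hac, hac.symm, hbc, hbc.symm]) le_rfl
    cases x with
    | true =>
      exact (Exec.loop1 (by rw [mk_odd, h]; simp) (Exec.testT (by rw [mk_odd, h]; simp) h3) ih).mono
        (by simp)
    | false =>
      exact (Exec.loop1 (by rw [mk_odd, h]; simp) (Exec.testF (by rw [mk_odd, h]; simp) h3) ih).mono
        (by simp)

def Ey.cmp : Ey → ℕ → ℕ → ℕ → Cmd
  | .lit l, _, _, t => pushList (2 * t + 1) l
  | .var i, _, c, t => .seq
      (.loop (2 * i) (.seq (.pop (2 * i)) (.seq (.push (2 * c + 1) true) (.push (2 * t + 1) true))))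
      (.loop (2 * c + 1) (.seq (.pop (2 * c + 1)) (.push (2 * i) true)))
  | .app a b, d, c, t => .seq (a.cmp d c t) (b.cmp d c t)
  | .sub a b, d, c, t => .seq (.seq (a.cmp d (c + 1) c) (b.cmp d (c + 2) (c + 1))) (.seq
      (.loop (2 * (c + 1) + 1) (.seq (.pop (2 * (c + 1) + 1)) (.pop (2 * c + 1))))
      (.loop (2 * c + 1) (.seq (.pop (2 * c + 1)) (.push (2 * t + 1) true))))
  | .rep a b, d, c, t => .seq (a.cmp d (c + 1) c)
      (.loop (2 * c + 1) (.seq (.pop (2 * c + 1)) (b.cmp d (c + 1) t)))
  | .each a b, d, c, t => .seq (a.cmp d (c + 1) c) (.seq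
      (.loop (2 * c + 1) (.seq (.pop (2 * c + 1))
        (.seq (b.cmp (d + 1) (c + 1) t) (.push (2 * d) true))))
      (.loop (2 * d) (.pop (2 * d))))
  | .bit a, d, c, t => .seq (a.cmp d (c + 1) c) (.seq (mv1 0 (c + 1)) (.seq (mv2 (c + 1) 0 (c + 2))
      (.seq (.loop (2 * c + 1) (.seq (.pop (2 * c + 1)) (.pop (2 * (c + 2) + 1))))
      (.seq (.test (2 * (c + 2) + 1) (.push (2 * t + 1) true) .skip)
        (.loop (2 * (c + 2) + 1) (.pop (2 * (c + 2) + 1)))))))

/-- Correctness statement of the compiler with bound `P`. -/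
def Good (e : Ey) (P : ℕ → ℕ) : Prop :=
  ∀ (u : List Bool) (B d c t : ℕ) (v : ℕ → ℕ) (w : ℕ → List Bool), u.length ≤ B → w 0 = u →
    0 < t → (∀ i, v i ≤ B) → (∀ i, d ≤ i → v i = 0) →
    (∀ j, c ≤ j → w j = []) → t < c → (e.eval u d v).length ≤ P B ∧
    Exec (e.cmp d c t) (mk v w) (mk v (update w t ((e.eval u d v).reverse ++ w t))) (P B)

lemma good_var (i : ℕ) : Good (.var i) (fun B => 2 * B + 2) := by
  intro u B d c t v w _ _ _ hB _ hw ht
  beta_reduce
  have hi := hB i
  have hc := hw c le_rfl
  have htc : t ≠ c := by omega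
  refine ⟨by simp [Ey.eval]; omega, ?_⟩
  have h1 := loop_exec (k := 2 * i) (T := 0)
    (p := .seq (.pop (2 * i)) (.seq (.push (2 * c + 1) true) (.push (2 * t + 1) true))) (v i)
    (fun y => mk (update v i (v i - y))
      (update (update w c (List.replicate y true)) t (List.replicate y true ++ w t)))
    (fun y hy => by simp; omega) (by simp) (fun y hy => by
      refine ((popV _ _ _).seq ((pushW _ _ _ _).seq (pushW _ _ _ _))).cast rfl rfl ?_ ?_ le_rfl
      · simp [Nat.sub_add_eq]
      · funext j
        by_cases h1 : j = t <;> by_cases h2 : j = c <;>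
          simp [update_apply, h1, h2, htc, htc.symm, List.replicate_succ])
  have h2 := loop_exec (k := 2 * c + 1) (T := 0)
    (p := .seq (.pop (2 * c + 1)) (.push (2 * i) true)) (v i)
    (fun y => mk (update v i y)
      (update (update w c (List.replicate (v i - y) true)) t (List.replicate (v i) true ++ w t)))
    (fun y hy => by simp [update_apply, htc.symm]; omega) (by simp [update_apply, htc.symm])
    (fun y hy => by
      refine ((popW _ _ _).seq (pushV _ _ _)).cast rfl rfl ?_ ?_ le_rfl
      · simp
      · funext j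
        by_cases h1 : j = t <;> by_cases h2 : j = c <;>
          simp [update_apply, h1, h2, htc, htc.symm, Nat.sub_add_eq])
  simp only [Nat.sub_self, Nat.sub_zero] at h1 h2
  refine (h1.seq h2).cast (by simp) ?_ (by simp) ?_ (by omega)
  · funext j
    by_cases h1 : j = t <;> by_cases h2 : j = c <;> simp [h1, h2, htc, htc.symm, hc]
  · funext j
    by_cases h1 : j = t <;> by_cases h2 : j = c <;>
      simp [update_apply, h1, h2, htc, htc.symm, hc, Ey.eval]

lemma good_app {a b : Ey} {P Q : ℕ → ℕ} (ha : Good a P) (hb : Good b Q) :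
    Good (.app a b) (fun B => P B + Q B) := by
  intro u B d c t v w hu h0 ht0 hB hv hw ht
  beta_reduce
  obtain ⟨l1, e1⟩ := ha u B d c t v w hu h0 ht0 hB hv hw ht
  obtain ⟨l2, e2⟩ := hb u B d c t v (update w t ((a.eval u d v).reverse ++ w t)) hu
    (by rw [update_of_ne (by omega), h0]) ht0 hB hv
    (fun j hj => by rw [update_of_ne (by omega)]; exact hw j hj) ht
  refine ⟨by simp [Ey.eval]; omega, ?_⟩
  exact (e1.seq e2).cast rfl rfl rfl (by simp [Ey.eval]) le_rfl

lemma good_sub {a b : Ey} {P Q : ℕ → ℕ} (ha : Good a P) (hb : Good b Q) :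
    Good (.sub a b) (fun B => 2 * P B + 2 * Q B + 2) := by
  intro u B d c t v w hu h0 ht0 hB hv hw ht
  beta_reduce
  have hc := hw c le_rfl
  have hc1 := hw (c + 1) (by omega)
  have htc : t ≠ c := by omega
  have htc1 : t ≠ c + 1 := by omega
  obtain ⟨l1, e1⟩ := ha u B d (c + 1) c v w hu h0 (by omega) hB hv (fun j hj => hw j (by omega)) (by omega)
  obtain ⟨l2, e2⟩ := hb u B d (c + 2) (c + 1) v (update w c ((a.eval u d v).reverse ++ w c)) hu
    (by rw [update_of_ne (by omega), h0]) (by omega) hB hv
    (fun j hj => by rw [update_of_ne (by omega)]; exact hw j (by omega)) (by omega)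
  refine ⟨by simp [Ey.eval]; omega, ?_⟩
  generalize hx : (a.eval u d v).reverse = x at e1 e2
  generalize hz : (b.eval u d v).reverse = z at e2
  have hx' : (a.eval u d v).length = x.length := by rw [← hx]; simp
  have hz' : (b.eval u d v).length = z.length := by rw [← hz]; simp
  have h1 := loop_exec (k := 2 * (c + 1) + 1) (T := 0)
    (p := .seq (.pop (2 * (c + 1) + 1)) (.pop (2 * c + 1))) z.length
    (fun y => mk v (update (update w c (x.drop y)) (c + 1) (z.drop y)))
    (fun y hy => by simp; omega) (by simp) (fun y hy => by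
      refine ((popW _ _ _).seq (popW _ _ _)).cast rfl rfl rfl ?_ le_rfl
      funext j
      by_cases h1 : j = c + 1 <;> by_cases h2 : j = c <;> simp [update_apply, h1, h2])
  have h2 := loop_exec (k := 2 * c + 1) (T := 0)
    (p := .seq (.pop (2 * c + 1)) (.push (2 * t + 1) true)) (x.length - z.length)
    (fun y => mk v (update (update w c (x.drop (z.length + y))) t (List.replicate y true ++ w t)))
    (fun y hy => by simp [update_apply, htc.symm]; omega)
    (by simp [update_apply, htc.symm]; omega)
    (fun y hy => by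
      refine ((popW _ _ _).seq (pushW _ _ _ _)).cast rfl rfl rfl ?_ le_rfl
      funext j
      by_cases h1 : j = t <;> by_cases h2 : j = c <;>
        simp [update_apply, h1, h2, htc, htc.symm, List.replicate_succ, Nat.add_assoc])
  have h1' := h1.cast (v₁ := v) (v₁' := v)
    (w₁ := update (update w c (x ++ w c)) (c + 1) (z ++ update w c (x ++ w c) (c + 1)))
    (w₁' := update (update w c (x.drop (z.length + 0))) t (List.replicate 0 true ++ w t))
    rfl (by simp [hc, hc1]) rfl (by
      funext j
      by_cases h1 : j = t <;> by_cases h2 : j = c <;> by_cases h3 : j = c + 1 <;>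
        simp [update_apply, h1, h2, h3, htc, htc.symm, htc1, htc1.symm, hc1]) le_rfl
  refine ((e1.seq e2).seq (h1'.seq h2)).cast rfl rfl rfl ?_ (by omega)
  funext j
  have : x.length ≤ z.length + (x.length - z.length) := by omega
  by_cases h1 : j = t <;> by_cases h2 : j = c <;>
    simp [update_apply, h1, h2, htc, htc.symm, Ey.eval, hx', hz', hc, this]

lemma good_rep {a b : Ey} {P Q : ℕ → ℕ} (ha : Good a P) (hb : Good b Q) :
    Good (.rep a b) (fun B => P B + (P B * (Q B + 1) + 1)) := by
  intro u B d c t v w hu h0 ht0 hB hv hw ht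
  beta_reduce
  have hc := hw c le_rfl
  have htc : t ≠ c := by omega
  obtain ⟨l1, e1⟩ := ha u B d (c + 1) c v w hu h0 (by omega) hB hv (fun j hj => hw j (by omega)) (by omega)
  have hb' := fun w' (h0' : w' 0 = u) (hw' : ∀ j, c + 1 ≤ j → w' j = []) =>
    hb u B d (c + 1) t v w' hu h0' ht0 hB hv hw' (by omega)
  have l2 := (hb' w h0 (fun j hj => hw j (by omega))).1
  have l3 := length_flatMap_le (a.eval u d v).length (Q B) (fun _ => b.eval u d v) (fun _ _ => l2)
  have l4 : (a.eval u d v).length * (Q B + 1) ≤ P B * (Q B + 1) := Nat.mul_le_mul_right _ l1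
  refine ⟨by simp only [Ey.eval]; nlinarith, ?_⟩
  generalize hx : (a.eval u d v).reverse = x at e1
  have hx' : (a.eval u d v).length = x.length := by rw [← hx]; simp
  have h1 := loop_exec (k := 2 * c + 1) (T := Q B)
    (p := .seq (.pop (2 * c + 1)) (b.cmp d (c + 1) t)) x.length
    (fun y => mk v (update (update w c (x.drop y)) t
      (((List.range y).flatMap fun _ => b.eval u d v).reverse ++ w t)))
    (fun y hy => by simp [update_apply, htc.symm]; omega) (by simp [update_apply, htc.symm])
    (fun y hy => by
      refine ((popW _ _ _).seq (hb' _ ?_ ?_).2).cast rfl rfl rfl ?_ (by omega)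
      · rw [update_of_ne (by omega), update_of_ne (by omega), update_of_ne (by omega), h0]
      · intro j hj
        rw [update_of_ne (by omega), update_of_ne (by omega), update_of_ne (by omega)]
        exact hw j (by omega)
      · funext j
        by_cases h1 : j = t <;> by_cases h2 : j = c <;>
          simp [update_apply, h1, h2, htc, htc.symm, List.range_succ])
  have h1' := h1.cast (v₁ := v) (v₁' := v) (w₁ := update w c (x ++ w c))
    (w₁' := update w t (((Ey.rep a b).eval u d v).reverse ++ w t)) rfl (by
      funext j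
      by_cases h1 : j = t <;> by_cases h2 : j = c <;>
        simp [update_apply, h1, h2, htc, htc.symm, hc]) rfl (by
      funext j
      by_cases h1 : j = t <;> by_cases h2 : j = c <;>
        simp [update_apply, h1, h2, htc, htc.symm, hc, Ey.eval, hx']) le_rfl
  rw [← hx'] at h1'
  exact (e1.seq h1').mono (by omega)

lemma good_each {a b : Ey} {P Q : ℕ → ℕ} (ha : Good a P) (hb : Good b Q) :
    Good (.each a b) (fun B => P B + ((P B * (Q (B + P B) + 1) + 1) + (P B + 1))) := by
  intro u B d c t v w hu h0 ht0 hB hv hw ht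
  beta_reduce
  have hc := hw c le_rfl
  have hd := hv d le_rfl
  have htc : t ≠ c := by omega
  obtain ⟨l1, e1⟩ := ha u B d (c + 1) c v w hu h0 (by omega) hB hv (fun j hj => hw j (by omega)) (by omega)
  have hb' := fun y (hy : y < (a.eval u d v).length) w' (h0' : w' 0 = u)
      (hw' : ∀ j, c + 1 ≤ j → w' j = []) =>
    hb u (B + P B) (d + 1) (c + 1) t (update v d y) w' (by omega) h0' ht0 (fun i => by
      have := hB i
      rw [update_apply]; split_ifs <;> omega) (fun i hi => by
      rw [update_of_ne (by omega)]; exact hv i (by omega)) hw' (by omega)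
  have l3 := length_flatMap_le (a.eval u d v).length (Q (B + P B))
    (fun y => b.eval u (d + 1) (update v d y))
    (fun y hy => (hb' y hy w h0 (fun j hj => hw j (by omega))).1)
  have l4 : (a.eval u d v).length * (Q (B + P B) + 1) ≤ P B * (Q (B + P B) + 1) :=
    Nat.mul_le_mul_right _ l1
  refine ⟨by simp only [Ey.eval]; nlinarith, ?_⟩
  generalize hx : (a.eval u d v).reverse = x at e1
  have hx' : (a.eval u d v).length = x.length := by rw [← hx]; simp
  have h1 := loop_exec (k := 2 * c + 1) (T := Q (B + P B))
    (p := .seq (.pop (2 * c + 1)) (.seq (b.cmp (d + 1) (c + 1) t) (.push (2 * d) true))) x.length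
    (fun y => mk (update v d y) (update (update w c (x.drop y)) t
      (((List.range y).flatMap fun y => b.eval u (d + 1) (update v d y)).reverse ++ w t)))
    (fun y hy => by simp [update_apply, htc.symm]; omega) (by simp [update_apply, htc.symm])
    (fun y hy => by
      refine ((popW _ _ _).seq ((hb' y (by omega) _ ?_ ?_).2.seq (pushV _ _ _))).cast
        rfl rfl (by simp) ?_ (by omega)
      · rw [update_of_ne (by omega), update_of_ne (by omega), update_of_ne (by omega), h0]
      · intro j hj
        rw [update_of_ne (by omega), update_of_ne (by omega), update_of_ne (by omega)]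
        exact hw j (by omega)
      · funext j
        by_cases h1 : j = t <;> by_cases h2 : j = c <;>
          simp [update_apply, h1, h2, htc, htc.symm, List.range_succ])
  have h2 := loop_exec (k := 2 * d) (T := 0) (p := .pop (2 * d)) x.length
    (fun y => mk (update v d (x.length - y))
      (update w t (((Ey.each a b).eval u d v).reverse ++ w t)))
    (fun y hy => by simp; omega) (by simp)
    (fun y hy => (popV _ _ _).cast rfl rfl (by simp [Nat.sub_add_eq]) rfl le_rfl)
  have h1' := h1.cast (v₁ := v) (v₁' := update v d (x.length - 0)) (w₁ := update w c (x ++ w c))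
    (w₁' := update w t (((Ey.each a b).eval u d v).reverse ++ w t)) (by simp [← hd]) (by
      funext j
      by_cases h1 : j = t <;> by_cases h2 : j = c <;>
        simp [update_apply, h1, h2, htc, htc.symm, hc]) rfl (by
      funext j
      by_cases h1 : j = t <;> by_cases h2 : j = c <;>
        simp [update_apply, h1, h2, htc, htc.symm, hc, Ey.eval, hx']) le_rfl
  refine (e1.seq (h1'.seq h2)).cast rfl rfl (by simp [← hd]) rfl ?_
  rw [← hx']
  omega

lemma good_bit {a : Ey} {P : ℕ → ℕ} (ha : Good a P) :
    Good (.bit a) (fun B => 2 * P B + 3 * B + 4) := by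
  intro u B d c t v w hu h0 ht0 hB hv hw ht
  beta_reduce
  have hc := hw c le_rfl
  have hc1 := hw (c + 1) (by omega)
  have hc2 := hw (c + 2) (by omega)
  have htc : t ≠ c := by omega
  obtain ⟨l1, e1⟩ := ha u B d (c + 1) c v w hu h0 (by omega) hB hv (fun j hj => hw j (by omega))
    (by omega)
  refine ⟨by simp only [Ey.eval]; split_ifs <;> simp, ?_⟩
  generalize hx : (a.eval u d v).reverse = x at e1
  have hx' : (a.eval u d v).length = x.length := by rw [← hx]; simp
  have e2 := mv1_exec v (show 0 ≠ c + 1 by omega) u (update w c (x ++ w c))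
    (by rw [update_of_ne (by omega), h0])
  have e3 := (mv2_exec v (show c + 1 ≠ 0 by omega) (show c + 1 ≠ c + 2 by omega)
    (show 0 ≠ c + 2 by omega) u.reverse (update (update (update w c (x ++ w c)) 0 []) (c + 1)
      (u.reverse ++ update w c (x ++ w c) (c + 1))) (by simp [hc1])).cast
    (w₁' := update (update w c (x.drop 0)) (c + 2) (u.drop 0)) rfl rfl rfl (by
      funext j
      have : c ≠ 0 := by omega
      by_cases h1 : j = 0 <;> by_cases h2 : j = c <;> by_cases h3 : j = c + 1 <;>
        by_cases h4 : j = c + 2 <;> simp [update_apply, h1, h2, h3, h4, hc, hc1, hc2, h0, this,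
          this.symm]) le_rfl
  have e4 := loop_exec (k := 2 * c + 1) (T := 0)
    (p := .seq (.pop (2 * c + 1)) (.pop (2 * (c + 2) + 1))) x.length
    (fun y => mk v (update (update w c (x.drop y)) (c + 2) (u.drop y)))
    (fun y hy => by simp [update_apply]; omega) (by simp [update_apply]) (fun y hy => by
      refine ((popW _ _ _).seq (popW _ _ _)).cast rfl rfl rfl ?_ le_rfl
      funext j
      by_cases h1 : j = c + 2 <;> by_cases h2 : j = c <;> simp [update_apply, h1, h2])
  have ht2 : t ≠ c + 2 := by omega
  have e5 : Exec (.test (2 * (c + 2) + 1) (.push (2 * t + 1) true) .skip)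
      (mk v (update (update w c (x.drop x.length)) (c + 2) (u.drop x.length)))
      (mk v (update (update w t (((Ey.bit a).eval u d v).reverse ++ w t)) (c + 2)
        ((u.drop x.length).drop 0))) 0 := by
    simp only [Ey.eval, hx']
    split_ifs with hb
    · refine Exec.testT (by rw [mk_odd]; simpa using hb) ((pushW _ _ _ _).cast rfl rfl rfl ?_ le_rfl)
      funext j
      by_cases h1 : j = c + 2 <;> by_cases h2 : j = c <;> by_cases h3 : j = t <;>
        simp [update_apply, h1, h2, h3, hc, htc, htc.symm, ht2, ht2.symm]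
    · refine Exec.testF (by rw [mk_odd]; simpa using hb) ((Exec.skip _).cast rfl rfl rfl ?_ le_rfl)
      funext j
      by_cases h1 : j = c + 2 <;> by_cases h2 : j = c <;> by_cases h3 : j = t <;>
        simp [update_apply, h1, h2, h3, hc, htc, htc.symm, ht2, ht2.symm]
  have e6 := loop_exec (k := 2 * (c + 2) + 1) (T := 0) (p := .pop (2 * (c + 2) + 1))
    (u.drop x.length).length
    (fun y => mk v (update (update w t (((Ey.bit a).eval u d v).reverse ++ w t)) (c + 2)
        ((u.drop x.length).drop y)))
    (fun y hy => by rw [mk_odd, update_self]; simp at hy ⊢; omega)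
    (by rw [mk_odd, update_self, List.drop_length])
    (fun y hy => (popW _ _ _).cast rfl rfl rfl (by simp [Nat.add_assoc]) le_rfl)
  refine (e1.seq (e2.seq (e3.seq (e4.seq (e5.seq e6))))).cast rfl rfl rfl ?_ ?_
  · rw [List.drop_length]
    funext j
    by_cases h1 : j = c + 2 <;> simp [update_apply, h1, hc2, ht2.symm]
  · simp only [List.length_reverse, List.length_drop]
    omega

theorem good_poly (e : Ey) : ∃ P : Polynomial ℕ, Good e (fun B => P.eval B) := by
  induction e with
  | lit l =>
    refine ⟨Polynomial.C l.length, fun u B d c t v w _ _ _ _ _ _ _ => ⟨by simp [Ey.eval], ?_⟩⟩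
    exact (pushList_exec v t l w).mono (by omega)
  | var i => exact ⟨2 * Polynomial.X + 2, by simpa using good_var i⟩
  | app a b ha hb =>
    obtain ⟨P, hP⟩ := ha
    obtain ⟨Q, hQ⟩ := hb
    exact ⟨P + Q, by simpa using good_app hP hQ⟩
  | sub a b ha hb =>
    obtain ⟨P, hP⟩ := ha
    obtain ⟨Q, hQ⟩ := hb
    exact ⟨2 * P + 2 * Q + 2, by simpa using good_sub hP hQ⟩
  | rep a b ha hb =>
    obtain ⟨P, hP⟩ := ha
    obtain ⟨Q, hQ⟩ := hb
    exact ⟨P + (P * (Q + 1) + 1), by simpa using good_rep hP hQ⟩
  | each a b ha hb =>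
    obtain ⟨P, hP⟩ := ha
    obtain ⟨Q, hQ⟩ := hb
    exact ⟨P + ((P * (Q.comp (Polynomial.X + P) + 1) + 1) + (P + 1)), by
      simpa [Polynomial.eval_comp] using good_each hP hQ⟩
  | bit a ha =>
    obtain ⟨P, hP⟩ := ha
    exact ⟨2 * P + 3 * Polynomial.X + 4, by simpa using good_bit hP⟩

/-- Count the input length into variable `0`, evaluate, clean up, and move the result. -/
def top (e : Ey) : Cmd := .seq (mv2 0 1 2) (.seq (mv1 1 0) (.seq
  (.loop (2 * 2 + 1) (.seq (.pop (2 * 2 + 1)) (.push (2 * 0) true))) (.seq (e.cmp 1 2 1)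
  (.seq (.loop (2 * 0) (.pop (2 * 0))) (.seq (.loop (2 * 0 + 1) (.pop (2 * 0 + 1))) (mv1 1 2))))))

def env1 (n : ℕ) : ℕ → ℕ := update (fun _ => 0) 0 n

lemma top_exec (e : Ey) : ∃ P : Polynomial ℕ, ∀ u : List Bool,
    (e.eval u 1 (env1 u.length)).length ≤ P.eval u.length ∧
    Exec (top e) (update (fun _ => []) 1 u) (update (fun _ => []) 5 (e.eval u 1 (env1 u.length)))
      (P.eval u.length) := by
  obtain ⟨P, hP⟩ := good_poly e
  refine ⟨2 * P + 5 * Polynomial.X + 6, fun u => ?_⟩
  obtain ⟨l1, e4⟩ := hP u u.length 1 2 1 (env1 u.length) (update (fun _ => []) 0 u) le_rfl rfl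
    (by omega) (fun i => by simp only [env1, update_apply]; split_ifs <;> omega)
    (fun i hi => update_of_ne (by omega) _ _) (fun j hj => update_of_ne (by omega) _ _) (by omega)
  generalize e.eval u 1 (env1 u.length) = out at l1 e4 ⊢
  beta_reduce at l1 e4
  simp only [Polynomial.eval_add, Polynomial.eval_mul, Polynomial.eval_ofNat, Polynomial.eval_X]
  refine ⟨by omega, ?_⟩
  have e1 := mv2_exec (fun _ => 0) (show 0 ≠ 1 by omega) (show 0 ≠ 2 by omega)
    (show 1 ≠ 2 by omega) u (update (fun _ => []) 0 u) rfl
  have e2 := (mv1_exec (fun _ => 0) (show 1 ≠ 0 by omega) u.reverse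
    (update (update (update (update (fun _ => []) 0 u) 0 []) 1
      (u.reverse ++ update (fun _ => []) 0 u 1)) 2 (u.reverse ++ update (fun _ => []) 0 u 2))
    (by simp)).cast (v₁' := env1 0)
      (w₁' := update (update (fun _ => []) 0 u) 2 (u.reverse.drop 0)) rfl rfl (by simp [env1]) (by
      funext j
      by_cases h1 : j = 0 <;> by_cases h2 : j = 1 <;> by_cases h3 : j = 2 <;>
        simp [update_apply, h1, h2, h3]) le_rfl
  have e3 := (loop_exec (k := 2 * 2 + 1) (T := 0)
    (p := .seq (.pop (2 * 2 + 1)) (.push (2 * 0) true)) u.length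
    (fun y => mk (env1 y) (update (update (fun _ => []) 0 u) 2 (u.reverse.drop y)))
    (fun y hy => by rw [mk_odd]; simp; omega) (by rw [mk_odd]; simp) (fun y hy =>
      ((popW _ _ _).seq (pushV _ _ _)).cast rfl rfl (by simp [env1]) (by simp) le_rfl)).cast
    (w₁' := update (fun _ => []) 0 u) rfl rfl rfl (by
      funext j
      by_cases h3 : j = 2 <;> simp [h3]) le_rfl
  have e5 := loop_exec (k := 2 * 0) (T := 0) (p := .pop (2 * 0)) u.length
    (fun y => mk (env1 (u.length - y))
      (update (update (fun _ => []) 0 u) 1 (out.reverse ++ update (fun _ => []) 0 u 1)))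
    (fun y hy => by rw [mk_even]; simp [env1]; omega) (by rw [mk_even]; simp [env1])
    (fun y hy => (popV _ _ _).cast rfl rfl (by simp [env1, Nat.sub_add_eq]) rfl le_rfl)
  have e6 := (loop_exec (k := 2 * 0 + 1) (T := 0) (p := .pop (2 * 0 + 1)) u.length
    (fun y => mk (env1 (u.length - u.length))
      (update (update (fun _ => []) 1 out.reverse) 0 (u.drop y)))
    (fun y hy => by rw [mk_odd]; simp; omega) (by rw [mk_odd]; simp)
    (fun y hy => (popW _ _ _).cast rfl rfl rfl (by simp) le_rfl)).cast
    (w₁ := update (update (fun _ => []) 0 u) 1 (out.reverse ++ update (fun _ => []) 0 u 1))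
    (w₁' := update (fun _ => []) 1 out.reverse) (v₁' := fun _ => 0) rfl (by
      funext j
      by_cases h1 : j = 0 <;> by_cases h2 : j = 1 <;> simp [update_apply, h1, h2])
    (by simp [env1]) (by
      funext j
      by_cases h1 : j = 0 <;> simp [h1]) le_rfl
  have e7 := (mv1_exec (fun _ => 0) (show 1 ≠ 2 by omega) out.reverse
    (update (fun _ => []) 1 out.reverse) rfl).cast (w₁' := update (fun _ => []) 2 out) rfl rfl rfl
    (by simp) le_rfl
  have h4 := e1.seq (e2.seq (e3.seq (e4.seq (e5.seq (e6.seq e7)))))
  rw [mk_zero, mk_zero] at h4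
  refine h4.mono ?_
  simp only [List.length_reverse]
  omega

end Vale.Agent.P310
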