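import Vale.Agent.P310.Main

/-! The lower bound. -/

namespace Vale.Agent.P310

open Function Finset Classical Turing

lemma exists_prime_window (c n : ℕ) (hc : 2 ≤ c) (hn : c ^ 186 ≤ n) :
    ∃ p, p.Prime ∧ c ≤ p ∧ p ^ 93 ≤ n ∧ n < p ^ 186 := by
  have h0 : (186 : ℕ) ≠ 0 := by decide
  have hx1 : c ≤ Nat.nthRoot 186 n := (Nat.le_nthRoot_iff h0).2 hn
  have hx2 : Nat.nthRoot 186 n ^ 186 ≤ n := Nat.pow_nthRoot_le_iff.2 (Or.inl h0)
  have hx3 : n < (Nat.nthRoot 186 n + 1) ^ 186 := Nat.lt_pow_nthRoot_add_one h0 n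
  generalize Nat.nthRoot 186 n = x at hx1 hx2 hx3
  have hx : 2 ≤ x := hc.trans hx1
  obtain ⟨p, hp, h1, h2⟩ := Nat.exists_prime_lt_and_le_two_mul x (Nat.ne_of_gt (Nat.lt_of_succ_lt hx))
  refine ⟨p, hp, hx1.trans h1.le, le_trans ?_ hx2, hx3.trans_le (Nat.pow_le_pow_left h1 _)⟩
  calc p ^ 93 ≤ (x ^ 2) ^ 93 :=
        Nat.pow_le_pow_left (h2.trans (by rw [sq]; exact Nat.mul_le_mul_right x hx)) _
    _ = x ^ 186 := by rw [← pow_mul]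

lemma time_lt {t1 t2 D p q : ℕ} (hp : 2 ≤ p) (hD : D ≤ p) (hq : 2 ≤ q) (h1 : t1 ≤ p ^ (q - 2))
    (h2 : t2 < p ^ (q - 2)) : (t1 + t2) * D < p ^ q :=
  calc (t1 + t2) * D ≤ (t1 + t2) * p := Nat.mul_le_mul_left _ hD
    _ < (p ^ (q - 2) * p) * p := Nat.mul_lt_mul_of_pos_right (by nlinarith) (by omega)
    _ = p ^ q := by rw [← pow_succ, ← pow_succ]; congr 1; omega

theorem core : ∃ a : ℕ, ∀ k q : ℕ, a ≤ q → 24 * q ≤ k →
    ∀ A : TM2Computable encodePair Computability.encodeBool (wlAnswer (k + 1)),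
      ∃ n0, ∀ n ≥ n0, ∃ (G H : SimpleGraph (Fin n)) (p : ℕ), n < p ^ 186 ∧
        p ^ (q - 2) ≤ (A.outputsFun ⟨n, G, H⟩).steps := by
  obtain ⟨c, R, P, hP⟩ := (outN_c 12).machine
  obtain ⟨a, ha⟩ := poly_le_pow P
  refine ⟨32 * a + 2, fun k q hq hk A => ?_⟩
  obtain ⟨Q, K, Γ, f1, f2, f3, M, D, hM⟩ := exists_am (TM.machine c R 1 5) A.tm
    (fun _ => A.inputAlphabet.symm) id (A.outputAlphabet.symm true)
  letI := Fintype.ofFinite Q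
  letI := Fintype.ofFinite K
  letI := Fintype.ofFinite Γ
  obtain ⟨p0, hp0⟩ := reduction M.box k q (by omega) hk
  refine ⟨(p0 + D + 2) ^ 186, fun n hn => ?_⟩
  obtain ⟨p, hp, h1, hn1, hn2⟩ := exists_prime_window _ n (Nat.le_add_left _ _) hn
  clear hn
  obtain ⟨u, G, H, hu, he, hW⟩ := hp0 p n hp (by omega) hn1 hn2
  refine ⟨G, H, p, hn2, not_lt.1 fun hlt => ?_⟩
  obtain ⟨⟨⟨t1, e1⟩, ht1⟩⟩ := hP u
  have e2 := (A.outputsFun ⟨n, G, H⟩).evals_in_steps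
  generalize (A.outputsFun ⟨n, G, H⟩).steps = t2 at hlt e2
  rw [he] at e2
  obtain ⟨h3, h4⟩ := hM u (outN 12 u) (A.outputAlphabet.symm (wlAnswer (k + 1) ⟨n, G, H⟩)) t1 t2
    (by erw [List.map_id]; exact e1) e2
  by_cases hE : WLEquiv (k + 1) G H
  · obtain ⟨t, ht, hacc⟩ := h3 (by simp [wlAnswer, hE])
    obtain ⟨Kn, hK⟩ := hW.1 hE
    refine not_acc_of_box_model M u _ hK t (ht.trans_lt ?_) hacc
    have h2p := hp.two_le
    have a1 : t1 ≤ p ^ (q - 2) := by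
      refine le_trans (show t1 ≤ P.eval u.length from ht1) ((ha _ ?_).trans ?_)
      · rw [hu]; exact h2p.trans (Nat.le_self_pow (by omega) p)
      · rw [hu, ← pow_mul]; exact Nat.pow_le_pow_right hp.pos (by omega)
    exact time_lt h2p (by omega) (by omega) a1 hlt
  · exact hE (hW.2 ⟨_, box_model_of_not_acc M u _ (h4 (by simp [wlAnswer, hE]))⟩)

theorem main : ∃ c : ℝ, 0 < c ∧ ∃ k₀ : ℕ, ∀ k ≥ k₀,
    ∀ A : TM2Computable encodePair Computability.encodeBool (wlAnswer k),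
      ∃ n₀ : ℕ, ∀ n ≥ n₀, ∃ G H : SimpleGraph (Fin n),
        (n : ℝ) ^ (c * k) ≤ (A.outputsFun ⟨n, G, H⟩).steps := by
  obtain ⟨a, ha⟩ := core
  refine ⟨1 / (48 * 186), by positivity, 24 * a + 200, fun k hk A => ?_⟩
  obtain ⟨k, rfl⟩ : ∃ k', k = k' + 1 := ⟨k - 1, by omega⟩
  obtain ⟨n0, hn0⟩ := ha k (k / 24) (by omega) (by omega) A
  refine ⟨n0 + 1, fun n hn => ?_⟩
  obtain ⟨G, H, p, h1, h2⟩ := hn0 n (by omega)
  refine ⟨G, H, le_trans ?_ (Nat.cast_le.2 h2)⟩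
  have h3 : (1 : ℝ) ≤ n := by exact_mod_cast (by omega : 1 ≤ n)
  have h4 : ((k + 1 : ℕ) : ℝ) ≤ 48 * ((k / 24 - 2 : ℕ) : ℝ) := by
    exact_mod_cast (by omega : k + 1 ≤ 48 * (k / 24 - 2))
  calc (n : ℝ) ^ (1 / (48 * 186) * ((k + 1 : ℕ) : ℝ))
      ≤ (n : ℝ) ^ (((k / 24 - 2 : ℕ) : ℝ) / 186) :=
        Real.rpow_le_rpow_of_exponent_le h3 (by linarith)
    _ ≤ ((p : ℝ) ^ (186 : ℕ)) ^ (((k / 24 - 2 : ℕ) : ℝ) / 186) :=
        Real.rpow_le_rpow (by positivity) (by exact_mod_cast h1.le) (by positivity)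
    _ = _ := by
      rw [← Real.rpow_natCast, ← Real.rpow_mul (by positivity), Nat.cast_pow, ← Real.rpow_natCast]
      congr 1
      push_cast
      ring

end Vale.Agent.P310
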