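import Vale.Agent.P310.Csp

/-! From WL equivalence back to local consistency; invariance under relabelling. -/

namespace Vale.Agent.P310

open Classical Function

section general

variable {V W : Type} [Fintype V] [Fintype W] {G : SimpleGraph V} {H : SimpleGraph W} {k : ℕ}

lemma color_le {y : Fin k → V} {z : Fin k → W} {r s : ℕ} (hrs : r ≤ s)
    (h : color G k s y = color H k s z) : color G k r y = color H k r z := by
  induction s, hrs using Nat.le_induction with
  | base => exact h
  | succ s _ ih => exact ih (congrArg Prod.fst h)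

lemma exists_forall_of_antitone {Z : Type} [Finite Z] (Q : ℕ → Z → Prop)
    (hQ : ∀ r s z, r ≤ s → Q s z → Q r z) (h : ∀ r, ∃ z, Q r z) : ∃ z, ∀ r, Q r z := by
  by_contra hc
  push Not at hc
  choose f hf using hc
  obtain ⟨B, hB⟩ := (Set.finite_range f).bddAbove
  obtain ⟨z, hz⟩ := h B
  exact hf z (hQ _ _ _ (hB ⟨z, rfl⟩) hz)

/-- The two tuples have the same colour in all rounds. -/
def Same (G : SimpleGraph V) (H : SimpleGraph W) (y : Fin k → V) (z : Fin k → W) : Prop :=
  ∀ r, color G k r y = color H k r z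

lemma WLEquiv.exists_same (h : WLEquiv k G H) (y : Fin k → V) : ∃ z, Same G H y z := by
  refine exists_forall_of_antitone (fun r z => color G k r y = color H k r z)
    (fun r s z hrs => color_le hrs) fun r => ?_
  have h1 : color G k r y ∈ (Finset.univ : Finset (Fin k → V)).val.map (color G k r) :=
    Multiset.mem_map_of_mem _ (Finset.mem_univ_val _)
  rw [h r] at h1
  obtain ⟨z, _, hz⟩ := Multiset.mem_map.1 h1
  exact ⟨z, hz.symm⟩

lemma Same.update {y : Fin k → V} {z : Fin k → W} (h : Same G H y z) (i : Fin k) (v : V) :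
    ∃ w, Same G H (update y i v) (update z i w) := by
  refine exists_forall_of_antitone
    (fun r w => color G k r (Function.update y i v) = color H k r (Function.update z i w))
    (fun r s z hrs => color_le hrs) fun r => ?_
  have h0 := congrArg Prod.snd (h (r + 1))
  simp only [color] at h0
  have h1 : (fun i => color G k r (Function.update y i v)) ∈ (Finset.univ : Finset V).val.map
      fun v i => color G k r (Function.update y i v) :=
    Multiset.mem_map_of_mem _ (Finset.mem_univ_val _)
  rw [h0] at h1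
  obtain ⟨w, _, hw⟩ := Multiset.mem_map.1 h1
  exact ⟨w, (congrFun hw i).symm⟩

lemma Same.eq_iff {y : Fin k → V} {z : Fin k → W} (h : Same G H y z) (i j : Fin k) :
    y i = y j ↔ z i = z j :=
  iff_of_eq (congrArg Prod.fst (congrFun (congrFun (h 0) i) j))

lemma Same.adj_iff {y : Fin k → V} {z : Fin k → W} (h : Same G H y z) (i j : Fin k) :
    G.Adj (y i) (y j) ↔ H.Adj (z i) (z j) :=
  iff_of_eq (congrArg Prod.snd (congrFun (congrFun (h 0) i) j))

lemma Same.deg {y : Fin k → V} {z : Fin k → W} (h : Same G H y z) (hk : 2 ≤ k) (j : Fin k) :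
    (Finset.univ.filter (G.Adj (y j))).card = (Finset.univ.filter (H.Adj (z j))).card := by
  obtain ⟨j', hj'⟩ : ∃ j' : Fin k, j ≠ j' := by
    by_cases h0 : j.1 = 0
    · exact ⟨⟨1, by omega⟩, fun h => by simp [Fin.ext_iff, h0] at h⟩
    · exact ⟨⟨0, by omega⟩, fun h => h0 (by simpa [Fin.ext_iff] using h)⟩
  have h0 : ((Finset.univ : Finset V).val.map fun v i => color G k 0 (Function.update y i v)) =
      (Finset.univ : Finset W).val.map fun v i => color H k 0 (Function.update z i v) :=
    congrArg Prod.snd (h 1)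
  have h1 := congrArg (Multiset.countP fun c : Fin k → Color k 0 => (c j' j j').2) h0
  rw [Multiset.countP_map, Multiset.countP_map] at h1
  simp only [color, update_of_ne hj', update_self] at h1
  exact h1

lemma color_comap {V' : Type} [Fintype V'] (φ : V' ≃ V) : ∀ (r : ℕ) (y : Fin k → V'),
    color (G.comap φ) k r y = color G k r (φ ∘ y)
  | 0, y => by
    funext i j
    simp [color]
  | r + 1, y => by
    simp only [color]
    rw [color_comap φ r y]
    congr 1
    conv_rhs => rw [← Multiset.map_univ_val_equiv φ, Multiset.map_map]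
    apply Multiset.map_congr rfl
    intro v _
    funext i
    rw [color_comap φ r, comp_update]
    rfl

lemma map_color_comap {V' : Type} [Fintype V'] (φ : V' ≃ V) (r : ℕ) :
    (Finset.univ : Finset (Fin k → V')).val.map (color (G.comap φ) k r) =
      (Finset.univ : Finset (Fin k → V)).val.map (color G k r) := by
  conv_rhs => rw [← Multiset.map_univ_val_equiv (Equiv.arrowCongr (Equiv.refl (Fin k)) φ),
    Multiset.map_map]
  apply Multiset.map_congr
  · congr
  intro y _
  exact color_comap φ r y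

lemma wl_comap {V' W' : Type} [Fintype V'] [Fintype W'] (φ : V' ≃ V) (ψ : W' ≃ W) :
    WLEquiv k (G.comap φ) (H.comap ψ) ↔ WLEquiv k G H := by
  simp only [WLEquiv, map_color_comap]

end general

variable {F Var : Type} [Field F] [Fintype F] {M : ℕ} (C : Csp F (Fin M) Var)

lemma col_lt (b : Bool) (u : Fin M × (Fin 5 → F)) : col C b u < 2 * M := by
  have := u.1.2
  unfold col
  split_ifs <;> omega

lemma deg_inl (b : Bool) {N Mk : ℕ} (hN : Fintype.card (Fin M × (Fin 5 → F)) ≤ N)
    (hMk : (2 * M + 1) * N ≤ Mk) (u : Fin M × (Fin 5 → F)) :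
    (col C b u + 2) * N ≤ (Finset.univ.filter ((graph C b N Mk).Adj (.inl u))).card ∧
    (Finset.univ.filter ((graph C b N Mk).Adj (.inl u))).card < (col C b u + 3) * N := by
  have h1 : (col C b u + 2) * N ≤ Mk :=
    (Nat.mul_le_mul_right _ (by have := col_lt C b u; omega)).trans hMk
  have h2 : (Finset.univ.filter fun j : Fin Mk => j.1 < (col C b u + 2) * N).card
      = (col C b u + 2) * N := by
    rw [Fin.card_filter_val_lt]
    exact min_eq_right h1
  have h3 : (Finset.univ.filter fun v => u ≠ v ∧ dis C u v).card < N := by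
    refine lt_of_lt_of_le (Finset.card_lt_card ⟨Finset.subset_univ _, fun h => ?_⟩) hN
    simpa using h (Finset.mem_univ u)
  have h4 : (Finset.univ.filter ((graph C b N Mk).Adj (.inl u))).card =
      (Finset.univ.filter fun v => u ≠ v ∧ dis C u v).card +
      (Finset.univ.filter fun j : Fin Mk => j.1 < (col C b u + 2) * N).card := by
    simp only [Finset.card_filter, Fintype.sum_sum_type]
    congr 1
    · exact Finset.sum_congr rfl fun v _ => by congr
    · exact Finset.sum_congr rfl fun v _ => by congr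
  rw [h4, h2]
  constructor
  · omega
  · nlinarith

lemma deg_inr (b : Bool) {N Mk : ℕ} (hN : Fintype.card (Fin M × (Fin 5 → F)) ≤ N) (j : Fin Mk) :
    (Finset.univ.filter ((graph C b N Mk).Adj (.inr j))).card ≤ N := by
  have h4 : (Finset.univ.filter ((graph C b N Mk).Adj (.inr j))).card =
      (Finset.univ.filter fun v => j.1 < (col C b v + 2) * N).card := by
    simp only [Finset.card_filter, Fintype.sum_sum_type]
    have : ∀ j', ¬ (graph C b N Mk).Adj (.inr j) (.inr j') := fun _ h => h
    simp only [this, if_false, Finset.sum_const_zero, add_zero]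
    exact Finset.sum_congr rfl fun v _ => by congr
  rw [h4]
  exact (Finset.card_le_univ _).trans hN

lemma same_block {k N Mk : ℕ} (hN : Fintype.card (Fin M × (Fin 5 → F)) ≤ N)
    (hMk : (2 * M + 1) * N ≤ Mk) (hk : 2 ≤ k) {y z : Fin k → Vx F M Mk}
    (h : Same (graph C false N Mk) (graph C true N Mk) y z) (j : Fin k) (κ : Fin M)
    (hy : y j = .inl (κ, 0)) : ∃ a, z j = .inl (κ, a) ∧ ok C true (κ, a) := by
  have hd := h.deg hk j
  rw [hy] at hd
  obtain ⟨h1, h2⟩ := deg_inl C false hN hMk (κ, 0)
  have hc : col C false (κ, 0) = 2 * κ.1 + 1 := by simp [col, ok, dis]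
  rw [hc, hd] at h1 h2
  rcases hz : z j with u | a
  · rw [hz] at h1 h2
    obtain ⟨h3, h4⟩ := deg_inl C true hN hMk u
    have h5 : 2 * κ.1 + 1 + 2 < col C true u + 3 := lt_of_mul_lt_mul_right (h1.trans_lt h4) (by omega)
    have h6 : col C true u + 2 < 2 * κ.1 + 1 + 3 := lt_of_mul_lt_mul_right (h3.trans_lt h2) (by omega)
    unfold col at h5 h6
    split_ifs at h5 h6 with hok
    · have : u.1 = κ := Fin.ext (by omega)
      obtain ⟨κ', a⟩ := u
      subst this
      exact ⟨a, rfl, hok⟩
    · omega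
  · rw [hz] at h1 h2
    have h3 := deg_inr C true hN a
    have h4 : 0 < N := by
      rcases Nat.eq_zero_or_pos N with h0 | h0
      · simp [h0] at h2
      · exact h0
    nlinarith

theorem cons_of_wl {k N Mk : ℕ} (hN : Fintype.card (Fin M × (Fin 5 → F)) ≤ N)
    (hMk : (2 * M + 1) * N ≤ Mk) (hk : 2 ≤ k) (hM : 0 < M)
    (h : WLEquiv k (graph C false N Mk) (graph C true N Mk)) : C.Cons k := by
  refine ⟨fun S x => ∃ y z : Fin k → Vx F M Mk, Same (graph C false N Mk) (graph C true N Mk) y z ∧
    ∀ κ ∈ S, ∃ j, y j = .inl (κ, 0) ∧ z j = .inl (κ, fun τ => x (C.var κ τ)), ?_, ?_, ?_, ?_⟩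
  · obtain ⟨z, hz⟩ := h.exists_same (fun _ => .inl (⟨0, hM⟩, 0))
    exact ⟨0, _, z, hz, by simp⟩
  · rintro S x κ ⟨y, z, h1, h2⟩ hκ
    obtain ⟨j, h3, h4⟩ := h2 κ hκ
    obtain ⟨a, h5, h6⟩ := same_block C hN hMk hk h1 j κ h3
    rw [h4] at h5
    simp only [Sum.inl.injEq, Prod.mk.injEq, true_and] at h5
    subst h5
    exact h6.1
  · rintro S S' x hS ⟨y, z, h1, h2⟩
    exact ⟨y, z, h1, fun κ hκ => h2 κ (hS hκ)⟩
  · rintro S x κ hS ⟨y, z, h1, h2⟩
    choose f hf using fun κ' : S => h2 κ'.1 κ'.2
    obtain ⟨j0, hj0⟩ : ∃ j0, ∀ κ', f κ' ≠ j0 := by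
      by_contra hc
      push Not at hc
      have := Fintype.card_le_of_surjective f hc
      simp at this
      omega
    obtain ⟨w, hw⟩ := h1.update j0 (.inl (κ, 0))
    obtain ⟨a, h5, h6⟩ := same_block C hN hMk hk hw j0 κ (by simp)
    rw [update_self] at h5
    subst h5
    have hsc : ∀ τ τ', C.var κ τ = C.var κ τ' → a τ = a τ' := by
      intro τ τ' hv
      by_contra hne
      exact h6.2 ⟨τ, τ', hv, hne⟩
    let x' : Var → F := fun v => if hv : ∃ τ, C.var κ τ = v then a hv.choose else x v
    have hx1 : ∀ τ, x' (C.var κ τ) = a τ := by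
      intro τ
      have hv : ∃ τ', C.var κ τ' = C.var κ τ := ⟨τ, rfl⟩
      simp only [x', dif_pos hv]
      exact hsc _ _ hv.choose_spec
    have hag : C.Agree S x' x := by
      intro κ' hκ' τ'
      by_cases hv : ∃ τ, C.var κ τ = C.var κ' τ'
      · obtain ⟨τ, hτ⟩ := hv
        rw [← hτ, hx1, hτ]
        obtain ⟨h7, h8⟩ := hf ⟨κ', hκ'⟩
        have hne := hj0 ⟨κ', hκ'⟩
        have e1 := hw.eq_iff j0 (f ⟨κ', hκ'⟩)
        have e2 := hw.adj_iff j0 (f ⟨κ', hκ'⟩)
        simp only [update_self, update_of_ne hne, h7, h8] at e1 e2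
        have e3 : ¬ (graph C false N Mk).Adj (.inl (κ, 0)) (.inl (κ', 0)) := by
          rintro ⟨_, _, _, _, h⟩
          exact h rfl
        rw [e2] at e3
        by_contra hc
        apply e3
        refine ⟨fun he => ?_, τ, τ', hτ, hc⟩
        simp only [Prod.mk.injEq] at he
        obtain ⟨rfl, rfl⟩ := he
        exact hc (congrArg x hτ)
      · simp only [x', dif_neg hv]
    refine ⟨x', ⟨_, _, hw, fun κ' hκ' => ?_⟩, hag⟩
    rcases Finset.mem_insert.1 hκ' with rfl | hκ'
    · exact ⟨j0, by simp, by simp [hx1]⟩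
    · obtain ⟨h7, h8⟩ := hf ⟨κ', hκ'⟩
      have hne := hj0 ⟨κ', hκ'⟩
      refine ⟨f ⟨κ', hκ'⟩, by rw [update_of_ne hne, h7], ?_⟩
      rw [update_of_ne hne, h8]
      congr 2
      funext τ
      exact (hag κ' hκ' τ).symm

end Vale.Agent.P310
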