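import Vale.Agent.P310.Prog
import Vale.Agent.P310.Wl
import Vale.Agent.P310.Box

/-! The output of the reduction is the pair of graphs of the coded constraint system. -/

namespace Vale.Agent.P310

open Function Finset Classical

noncomputable def cspN (u : List Bool) (p : ℕ) : Csp (ZMod p) (Fin (nM u)) ℕ where
  var m s := varN u m s
  coef m s := coefN u m s
  rhs m := rhsN u m

lemma pw_eq (p : ℕ) (s : Fin 5) : pw p s = p ^ s.1 := by
  fin_cases s <;> simp [pw] <;> ring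

lemma pw_five (p : ℕ) : pw p 5 = p ^ 5 := by simp [pw]; ring

lemma adjBits_eq {n : ℕ} (G : SimpleGraph (Fin n)) (A : ℕ → ℕ → Prop)
    (h : ∀ v w : Fin n, G.Adj v w ↔ A v w) :
    adjBits G = (List.range n).flatMap fun v => (List.range n).flatMap fun w => [decide (A v w)] := by
  rw [← List.map_coe_finRange_eq_range, List.flatMap_map]
  unfold adjBits
  congr 1
  funext v
  rw [List.flatMap_map, List.map_eq_flatMap]
  congr 1
  funext w
  simp only [h]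

theorem graph_link (E : ℕ) (u : List Bool) (p : ℕ) [hp : Fact p.Prime] (h : pP u = p)
    (hM : 0 < nM u) : ∃ G H : SimpleGraph (Fin (nV E u)), encodePair ⟨_, G, H⟩ = outN E u ∧
      ∀ k, 2 ≤ k → (WLEquiv k G H → (cspN u p).Cons k) ∧
        ((cspN u p).Cons (k + 1) → WLEquiv k G H) := by
  have h5 : 0 < p ^ 5 := pow_pos hp.out.pos 5
  have hn0 : n0 u = nM u * p ^ 5 := by rw [n0, h, pw_five]
  have hbl : ∀ v, bl u v = v / p ^ 5 := fun v => by rw [bl, h, pw_five]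
  have haN : ∀ v (s : Fin 5), aN u v s = v % p ^ 5 / p ^ s.1 % p := fun v s => by
    rw [aN, h, pw_five, pw_eq]
  let ψ : Fin (n0 u) → Fin (nM u) × (Fin 5 → ZMod p) := fun v =>
    (⟨bl u v, by rw [hbl, Nat.div_lt_iff_lt_mul h5, ← hn0]; exact v.2⟩, fun s => aN u v s)
  have hψ : Injective ψ := by
    intro v w hvw
    simp only [ψ, Prod.mk.injEq, Fin.mk.injEq, hbl, haN, ZMod.natCast_mod] at hvw
    have := dig_inj (q := 5) (Nat.mod_lt v h5) (Nat.mod_lt w h5) hvw.2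
    exact Fin.ext (by rw [← Nat.div_add_mod v (p ^ 5), hvw.1, this, Nat.div_add_mod])
  have hcard : Fintype.card (Fin (nM u) × (Fin 5 → ZMod p)) = n0 u := by simp [hn0]
  have hψ' : Bijective ψ := (Fintype.bijective_iff_injective_and_card ψ).2 ⟨hψ, by simp [hn0]⟩
  let φ : Fin (nV E u) ≃ Vx (ZMod p) (nM u) ((2 * nM u + 1) * n0 u + padN u E 0) :=
    finSumFinEquiv.symm.trans (Equiv.sumCongr (Equiv.ofBijective ψ hψ') (Equiv.refl _))
  have hcast : ∀ v w (s s' : Fin 5), (aN u v s : ZMod p) = aN u w s' ↔ aN u v s = aN u w s' := by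
    intro v w s s'
    rw [ZMod.natCast_eq_natCast_iff', haN, haN, Nat.mod_mod, Nat.mod_mod]
  have hdis : ∀ v w, dis (cspN u p) (ψ v) (ψ w) ↔ disN u v w := by
    intro v w
    simp only [dis, disN, cspN, ψ, ne_eq, hcast]
    exact ⟨fun ⟨s, s', h⟩ => ⟨s, s.2, s', s'.2, h⟩, fun ⟨s, h1, s', h2, h⟩ => ⟨⟨s, h1⟩, ⟨s', h2⟩, h⟩⟩
  have hcol : ∀ b v, col (cspN u p) b (ψ v) = colN b u v := by
    intro b v
    have : ok (cspN u p) b (ψ v) ↔ okN b u v := by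
      simp only [ok, okN, hdis, h, ← ZMod.natCast_eq_natCast_iff', sum_range]
      cases b <;> simp [cspN, ψ]
    simp only [col, colN, this]
    rfl
  have hadj : ∀ b (v w : Fin (nV E u)),
      ((graph (cspN u p) b (n0 u) _).comap φ).Adj v w ↔ adjN b u v w := by
    intro b v w
    have e1 : ∀ v, φ (finSumFinEquiv v) = Sum.map ψ id v := fun v =>
      congrArg (Sum.map ψ id) (finSumFinEquiv.symm_apply_apply v)
    obtain ⟨v, rfl⟩ := finSumFinEquiv.surjective v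
    obtain ⟨w, rfl⟩ := finSumFinEquiv.surjective w
    change adj _ _ _ _ (φ _) (φ _) ↔ _
    rw [e1, e1]
    rcases v with v | v <;> rcases w with w | w <;>
      simp [adj, adjN, hdis, hcol, hψ.eq_iff, Fin.ext_iff]
  refine ⟨(graph (cspN u p) false (n0 u) _).comap φ, (graph (cspN u p) true (n0 u) _).comap φ, ?_,
    fun k hk => ?_⟩
  · simp only [encodePair, outN, matN]
    rw [adjBits_eq _ _ (hadj false), adjBits_eq _ _ (hadj true)]
  · rw [wl_comap]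
    exact ⟨cons_of_wl _ hcard.le (Nat.le_add_right _ _) hk hM, wl_of_cons _⟩

variable {S0 R0 G : Type} [AddCommGroup G] {p k r m q nb nr L : ℕ} [hp : Fact p.Prime]

def sc (nb : ℕ) (cS : S0 → ℕ) : S0 ⊕ ℕ → ℕ := Sum.elim cS fun x => nb + x

structure Codes (u : List Bool) (𝒯 : Tab S0 R0 G q) (D : Setup (ZMod p) G k r m) (L nb : ℕ)
    (cS : S0 → ℕ) (eR : R0 ≃ Fin nr) : Prop where
  hp : pP u = p
  hk : pK u = k
  hL : pL u = L
  hR : pR u = nr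
  hB : pB u = nb
  hq : pQ u = q
  hA : pA u = cS 𝒯.acc
  e0 : T4 u 0 7 0 0 = cS (𝒯.emit (some false))
  e1 : T4 u 0 7 1 0 = cS (𝒯.emit (some true))
  e2 : T4 u 0 7 2 0 = cS (𝒯.emit none)
  h1 : ∀ ρ (τ : Fin 5), T4 u 1 (eR ρ) τ 0 = sc nb cS ((𝒯.horn []).psym (.inl ρ) τ)
  h2 : ∀ ρ (τ : Fin 5) (i : Fin k),
    T4 u 2 (eR ρ) τ i = (D.enc ((𝒯.horn []).psh (.inl ρ) τ) i).val
  h3 : ∀ ℓ : Fin (q + 1), T4 u 3 ℓ 0 0 = cS (𝒯.tin ℓ)
  h4 : ∀ (ℓ : Fin (q + 1)) (i : Fin k), T4 u 4 ℓ i 0 = (D.enc (𝒯.tsh ℓ) i).val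
  h5 : ∀ π < L, ∀ (i : Fin k) (h : ZMod p), T4 u 5 π i h.val = (D.chk π i h).val

variable {u : List Bool} {𝒯 : Tab S0 R0 G q} {D : Setup (ZMod p) G k r m} {cS : S0 → ℕ}
  {eR : R0 ≃ Fin nr}

def eρ (eR : R0 ≃ Fin nr) (n q : ℕ) : R0 ⊕ Fin n × Fin q ≃ Fin (nr + n * q) :=
  (Equiv.sumCongr eR finProdFinEquiv).trans finSumFinEquiv

lemma Codes.xl (h : Codes u 𝒯 D L nb cS eR) (x : Fin (u.length + 1)) (ℓ : Fin (q + 1)) :
    ¬ (eρ eR _ _ (.inr (x, ℓ))).1 < pR u ∧ xx u (eρ eR _ _ (.inr (x, ℓ))) = x ∧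
      ll u (eρ eR _ _ (.inr (x, ℓ))) = ℓ := by
  simp [xx, ll, eρ, h.hR, h.hq, Nat.add_mul_div_left, Nat.div_eq_of_lt ℓ.2, Nat.mod_eq_of_lt ℓ.2]

lemma Codes.psym (h : Codes u 𝒯 D L nb cS eR) (ρ) (τ : Fin 5) :
    psymN u (eρ eR _ _ ρ) τ = sc nb cS ((𝒯.horn u).psym ρ τ) := by
  rcases ρ with ρ | ⟨x, ℓ⟩
  · have : (eρ eR (u.length + 1) (q + 1) (.inl ρ)).1 = eR ρ := by simp [eρ]
    rw [psymN, this, if_pos (by rw [h.hR]; exact (eR ρ).2), h.h1]
    rfl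
  · obtain ⟨a1, a2, a3⟩ := h.xl x ℓ
    rw [psymN, if_neg a1, a2, a3, h.hB, h.hq, h.h3]
    fin_cases τ
    iterate 4 simp [Horn.psym, Tab.horn, sc]
    simp only [Horn.psym, Tab.horn, Sum.elim_inr]
    by_cases hl : ℓ.1 < q
    · simp [hl, sc]
    · by_cases hx : x.1 < u.length
      · rcases hb : u[x.1] with _ | _ <;> simp [hl, sc, hx, bitN, hb, h.e0, h.e1]
      · simp [hl, sc, hx, h.e2]

lemma Codes.psh (h : Codes u 𝒯 D L nb cS eR) (ρ) (τ : Fin 5) (i : Fin k) :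
    pshN u (eρ eR _ _ ρ) τ i = (D.enc ((𝒯.horn u).psh ρ τ) i).val := by
  rcases ρ with ρ | ⟨x, ℓ⟩
  · have : (eρ eR (u.length + 1) (q + 1) (.inl ρ)).1 = eR ρ := by simp [eρ]
    rw [pshN, this, if_pos (by rw [h.hR]; exact (eR ρ).2), h.h2]
    rfl
  · obtain ⟨a1, a2, a3⟩ := h.xl x ℓ
    rw [pshN, if_neg a1, a3, h.h4]
    fin_cases τ <;> simp [Horn.psh, Tab.horn]

def vcode {Rl : Type} (s : S0 ⊕ ℕ → ℕ) (e : Rl → ℕ) : Var (ZMod p) (S0 ⊕ ℕ) Rl k → ℕ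
  | .X σ i h => Nat.pair 0 (Nat.pair (s σ) (Nat.pair i h.val))
  | .Y ρ τ π i h => Nat.pair 1 (Nat.pair (e ρ) (Nat.pair τ (Nat.pair π (Nat.pair i h.val))))
  | .lam ρ τ π => Nat.pair 2 (Nat.pair (e ρ) (Nat.pair τ π))

lemma vcode_inj {Rl : Type} {s : S0 ⊕ ℕ → ℕ} {e : Rl → ℕ} (hs : Injective s) (he : Injective e) :
    Injective (vcode (p := p) (k := k) s e) := by
  intro a b h
  cases a <;> cases b <;>
    simp_all [vcode, Nat.pair_eq_pair, hs.eq_iff, he.eq_iff, (ZMod.val_injective p).eq_iff,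
      Fin.ext_iff]

lemma Codes.yv (h : Codes u 𝒯 D L nb cS eR) (ρ) (τ : Fin 5) (π : ℕ) (i : Fin k) (x : ZMod p) :
    yvN u (eρ eR _ _ ρ) τ π i x.val =
      vcode (sc nb cS) (fun ρ => eρ eR _ _ ρ) (yv D (𝒯.horn u) ρ τ π i x) := by
  unfold yvN P310.yv
  split_ifs
  · rw [h.psym, h.psh, h.hp, vcode]
    congr 3
    generalize D.enc ((𝒯.horn u).psh ρ τ) i = s
    have := (ZMod.val_lt s).le
    rw [← ZMod.val_natCast, Nat.cast_sub (by omega)]
    simp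
  · rfl

def cls {Rl F : Type} (y : Rl × Fin 5 × Fin (L + 1) × Fin k × F) : Con F Rl k L :=
  if h : y.2.2.1.1 < L then .step y.1 y.2.1 ⟨_, h⟩ y.2.2.2.1 y.2.2.2.2
  else if y.2.1 = 0 then .jun y.1 y.2.2.2.1 y.2.2.2.2 else .gr y.2.2.2.1

lemma cls_surj {Rl F : Type} [Nonempty Rl] [Zero F] : Surjective (cls (L := L) (k := k) (Rl := Rl) (F := F)) := by
  rintro (⟨ρ, τ, π, i, h⟩ | ⟨ρ, i, h⟩ | i)
  · exact ⟨(ρ, τ, π.castSucc, i, h), by simp [cls]⟩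
  · exact ⟨(ρ, 0, Fin.last L, i, h), by simp [cls]⟩
  · exact ⟨(Classical.arbitrary Rl, 1, Fin.last L, i, 0), by simp [cls]⟩

lemma Codes.cls (h : Codes u 𝒯 D L nb cS eR) (hS : Injective (sc nb cS)) (ρ) (τ : Fin 5)
    (π : Fin (L + 1)) (i : Fin k) (x : ZMod p) :
    (∀ s : Fin 5, varC u (eρ eR _ _ ρ) τ π i x.val s = vcode (sc nb cS) (fun ρ => eρ eR _ _ ρ)
      ((hcsp D (𝒯.horn u) L).var (cls (ρ, τ, π, i, x)) s)) ∧
    (∀ s : Fin 5, (coefC u (eρ eR _ _ ρ) τ π i x.val s : ZMod p) =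
      (hcsp D (𝒯.horn u) L).coef (cls (ρ, τ, π, i, x)) s) ∧
    (rhsC u (eρ eR _ _ ρ) τ π i : ZMod p) = (hcsp D (𝒯.horn u) L).rhs (cls (ρ, τ, π, i, x)) := by
  have hm1 : ((p - 1 : ℕ) : ZMod p) = -1 := by
    rw [Nat.cast_sub hp.out.one_le]; simp
  have hacc : psymN u (eρ eR _ _ ρ) 4 = pA u ↔ (𝒯.horn u).out ρ = (𝒯.horn u).acc := by
    rw [h.hA, show psymN u (eρ eR _ _ ρ) 4 = _ from h.psym ρ 4]
    exact hS.eq_iff (b := .inl 𝒯.acc)
  unfold varC coefC rhsC P310.cls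
  simp only [h.hL, h.hp, h.hB, hacc]
  by_cases h1 : π.1 < L
  · simp only [h1, if_true, dif_pos, hcsp]
    refine ⟨fun s => ?_, fun s => ?_, by simp⟩
    · fin_cases s <;> simp [h.yv, vcode]
    · fin_cases s <;> simp [hm1, h.h5 _ h1]
  · by_cases h2 : τ = 0
    · subst h2
      simp only [h1, if_false, dif_neg, not_false_eq_true, hcsp, Fin.val_zero, if_true]
      refine ⟨fun s => h.yv _ _ _ _ _, fun s => ?_, ?_⟩
      · fin_cases s <;> simp [hm1, Horn.eps]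
      · simp only [Horn.gam, true_and]
        split_ifs <;> simp_all
    · have h3 : τ.1 ≠ 0 := fun h => h2 (Fin.ext h)
      simp only [h1, if_false, dif_neg, not_false_eq_true, hcsp, h2, h3]
      refine ⟨fun s => by simp [vcode, Tab.horn, sc], fun s => ?_, by simp⟩
      fin_cases s <;> simp

theorem Codes.cons_iff (h : Codes u 𝒯 D L nb cS eR) (hS : Injective (sc nb cS)) (hk : 0 < k)
    (K : ℕ) : (cspN u p).Cons K ↔ (hcsp D (𝒯.horn u) L).Cons K := by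
  have hp0 := hp.out.pos
  have hnR : nR u = nr + (u.length + 1) * (q + 1) := by rw [nR, h.hR, h.hq]
  have hnM : nM u = nR u * 5 * (L + 1) * k * p := by rw [nM, h.hL, h.hk, h.hp]
  let Rel : ℕ → (R0 ⊕ Fin (u.length + 1) × Fin (q + 1)) × Fin 5 × Fin (L + 1) × Fin k × ZMod p →
      Prop := fun n y => cR u n = eρ eR _ _ y.1 ∧ cT u n = y.2.1 ∧ cP u n = y.2.2.1 ∧
    cI u n = y.2.2.2.1 ∧ cH u n = y.2.2.2.2.val
  have key : ∀ (n : Fin (nM u)) y, Rel n y →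
      (∀ s, (cspN u p).var n s = vcode (sc nb cS) (fun ρ => eρ eR _ _ ρ)
        ((hcsp D (𝒯.horn u) L).var (P310.cls y) s)) ∧
      (cspN u p).coef n = (hcsp D (𝒯.horn u) L).coef (P310.cls y) ∧
      (cspN u p).rhs n = (hcsp D (𝒯.horn u) L).rhs (P310.cls y) := by
    rintro n ⟨ρ, τ, π, i, x⟩ ⟨a1, a2, a3, a4, a5⟩
    obtain ⟨b1, b2, b3⟩ := h.cls hS ρ τ π i x
    simp only [cspN, varN, coefN, rhsN, a1, a2, a3, a4, a5]
    exact ⟨b1, funext b2, b3⟩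
  constructor
  · have hex : ∀ κ, ∃ n : Fin (nM u), ∃ y, Rel n y ∧ P310.cls y = κ := by
      intro κ
      haveI : Nonempty (R0 ⊕ Fin (u.length + 1) × Fin (q + 1)) := ⟨.inr (0, 0)⟩
      obtain ⟨⟨ρ, τ, π, i, x⟩, rfl⟩ := cls_surj κ
      have c1 : (eρ eR _ _ ρ).1 < nR u := by rw [hnR]; exact (eρ eR _ _ ρ).2
      have st : ∀ a A b B : ℕ, a < A → b < B → a * B + b < A * B := fun a A b B h1 h2 => by nlinarith
      have dv : ∀ a b B : ℕ, b < B → (a * B + b) / B = a ∧ (a * B + b) % B = b := fun a b B h2 => by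
        constructor
        · rw [mul_comm, Nat.mul_add_div (by omega), Nat.div_eq_of_lt h2, add_zero]
        · rw [Nat.mul_add_mod_self_right, Nat.mod_eq_of_lt h2]
      refine ⟨⟨((((eρ eR _ _ ρ).1 * 5 + τ) * (L + 1) + π) * k + i) * p + x.val, ?_⟩,
        (ρ, τ, π, i, x), ?_, rfl⟩
      · rw [hnM]
        exact st _ _ _ _ (st _ _ _ _ (st _ _ _ _ (st _ _ _ _ c1 τ.2) π.2) i.2) (ZMod.val_lt x)
      · simp only [Rel, cR, cT, cP, cI, cH, h.hp, h.hk, h.hL, dv _ _ _ (ZMod.val_lt x), dv _ _ _ i.2,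
          dv _ _ _ π.2, dv _ _ _ τ.2, and_self]
    choose f y hy1 hy2 using hex
    refine Csp.Cons.map f (fun x => x ∘ vcode (sc nb cS) (fun ρ => eρ eR _ _ ρ)) (fun x κ τ => ?_)
      (fun κ => ?_) (fun κ => ?_)
    · rw [(key _ _ (hy1 κ)).1, hy2]; rfl
    · rw [(key _ _ (hy1 κ)).2.1, hy2]
    · rw [(key _ _ (hy1 κ)).2.2, hy2]
  · have hex : ∀ n : Fin (nM u), ∃ y, Rel n y := by
      intro n
      have c1 : cR u n < nr + (u.length + 1) * (q + 1) := by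
        have := n.2
        rw [← hnR, cR, h.hp, h.hk, h.hL, Nat.div_lt_iff_lt_mul (by omega),
          Nat.div_lt_iff_lt_mul (by omega), Nat.div_lt_iff_lt_mul hk, Nat.div_lt_iff_lt_mul hp0,
          ← hnM]
        exact n.2
      refine ⟨((eρ eR _ _).symm ⟨_, c1⟩, ⟨cT u n, Nat.mod_lt _ (by omega)⟩,
        ⟨cP u n, by rw [cP, h.hL]; exact Nat.mod_lt _ (by omega)⟩,
        ⟨cI u n, by rw [cI, h.hk]; exact Nat.mod_lt _ hk⟩, cH u n), by simp, rfl, rfl, rfl, ?_⟩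
      simp [cH, h.hp]
    choose y hy using hex
    haveI : Nonempty (Var (ZMod p) (S0 ⊕ ℕ) (R0 ⊕ Fin (u.length + 1) × Fin (q + 1)) k) :=
      ⟨.lam (.inr (0, 0)) 0 0⟩
    have hinj := vcode_inj (p := p) (k := k) hS
      (Fin.val_injective.comp (eρ eR (u.length + 1) (q + 1)).injective)
    refine Csp.Cons.map (fun n => P310.cls (y n))
      (fun x => x ∘ invFun (vcode (sc nb cS) (fun ρ => eρ eR _ _ ρ))) (fun x κ τ => ?_)
      (fun κ => (key _ _ (hy κ)).2.1) (fun κ => (key _ _ (hy κ)).2.2)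
    rw [(key _ _ (hy κ)).1]
    exact congrArg x (leftInverse_invFun hinj _)

end Vale.Agent.P310
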