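import Vale.Agent.P310.Box

/-! Elementary stack machines and their simulation by Horn systems on a box. -/

namespace Vale.Agent.P310

open Classical Function

inductive Op (Γ : Type)
  | nop
  | pop
  | push (γ : Γ)

def Op.app {Γ : Type} : Op Γ → List Γ → List Γ
  | .nop, l => l
  | .pop, l => l.tail
  | .push γ, l => γ :: l

/-- A machine that reads the top of one stack and then modifies that stack. -/
structure AM (Q K Γ : Type) where
  rd : Q → K
  nx : Q → Option Γ → Q
  op : Q → Option Γ → Op Γ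
  acc : Q → Option Γ → Prop
  q0 : Q
  kin : K
  sym : Bool → Γ

variable {Q K Γ : Type} (M : AM Q K Γ)

def AM.top (c : Q × (K → List Γ)) : Option Γ := (c.2 (M.rd c.1)).head?

noncomputable def AM.step (c : Q × (K → List Γ)) : Q × (K → List Γ) :=
  (M.nx c.1 (M.top c), update c.2 (M.rd c.1) ((M.op c.1 (M.top c)).app (c.2 (M.rd c.1))))

noncomputable def AM.init (u : List Bool) : Q × (K → List Γ) :=
  (M.q0, update (fun _ => []) M.kin (u.map M.sym))

noncomputable def AM.run (u : List Bool) (t : ℕ) : Q × (K → List Γ) := M.step^[t] (M.init u)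

def AM.AccAt (u : List Bool) (t : ℕ) : Prop := M.acc (M.run u t).1 (M.top (M.run u t))

lemma AM.run_succ (u : List Bool) (t : ℕ) : M.run u (t + 1) = M.step (M.run u t) :=
  iterate_succ_apply' _ _ _

inductive Sb (Q K Γ : Type)
  | start
  | acc
  | junk
  | row
  | em (o : Option Bool)
  | st (q : Q)
  | cl (k : K) (γ : Option Γ)
  | rc (k : K) (γ : Option Γ)
  | lc (k : K) (γ : Option Γ)
  | nc (k : K) (γ : Option Γ)
  | o0 (q : Q) (γ : Option Γ)
  | op (q : Q) (γ : Option Γ)
  deriving Fintype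

inductive Rb (Q K Γ : Type)
  | r1
  | r2
  | r3
  | r4 (k : K)
  | r5 (o : Option Bool)
  | r6
  | r7 (q : Q) (γ : Option Γ)
  | r8 (q : Q) (γ : Option Γ)
  | r9 (q : Q) (γ : Option Γ)
  | r10 (q : Q) (γ : Option Γ)
  | r11 (q : Q) (γ : Option Γ)
  | r12 (k : K) (γ : Option Γ)
  | r13 (k : K) (γ : Option Γ)
  | r14 (q : Q) (γ : Option Γ) (k : K) (γ' : Option Γ)
  | r15 (k : K) (γ : Option Γ)
  | r16 (q : Q) (γ : Option Γ)
  deriving Fintype

noncomputable def AM.src (q : Q) (γ : Option Γ) (k : K) (γ' : Option Γ) : Sb Q K Γ :=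
  if k = M.rd q then (match M.op q γ with
    | .nop => .cl k γ'
    | .pop => .lc k γ'
    | .push _ => .rc k γ') else .cl k γ'

noncomputable def AM.rule : Rb Q K Γ → Kind × Sb Q K Γ × Sb Q K Γ × Sb Q K Γ
  | .r1 => (.loc, .start, .start, .st M.q0)
  | .r2 => (.loc, .start, .start, .row)
  | .r3 => (.right, .row, .row, .row)
  | .r4 k => (.loc, .row, .row, if k = M.kin then .junk else .cl k none)
  | .r5 o => (.loc, .em o, .em o, .cl M.kin (o.map M.sym))
  | .r6 => (.right, .em none, .em none, .em none)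
  | .r7 q γ => (.loc, .st q, .cl (M.rd q) γ, .o0 q γ)
  | .r8 q γ => (.loc, .o0 q γ, .o0 q γ, .op q γ)
  | .r9 q γ => (.right, .op q γ, .op q γ, .op q γ)
  | .r10 q γ => (.next, .o0 q γ, .o0 q γ, .st (M.nx q γ))
  | .r11 q γ => (.next, .o0 q γ, .o0 q γ, match M.op q γ with
      | .push γ' => .cl (M.rd q) (some γ')
      | _ => .junk)
  | .r12 k γ => (.right, .cl k γ, .cl k γ, .rc k γ)
  | .r13 k γ => (.left, .cl k γ, .cl k γ, .lc k γ)
  | .r14 q γ k γ' => (.loc, .op q γ, M.src q γ k γ', .nc k γ')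
  | .r15 k γ => (.next, .nc k γ, .nc k γ, .cl k γ)
  | .r16 q γ => (.loc, .o0 q γ, .o0 q γ, if M.acc q γ then .acc else .junk)

noncomputable def AM.box : Box (Sb Q K Γ) (Rb Q K Γ) where
  start := .start
  acc := .acc
  emit := .em
  kind ρ := (M.rule ρ).1
  in1 ρ := (M.rule ρ).2.1
  in2 ρ := (M.rule ρ).2.2.1
  out ρ := (M.rule ρ).2.2.2
  start_ne := by simp
  emit_ne := by simp

def AM.truth (u : List Bool) : Sb Q K Γ → ℕ → ℕ → Prop
  | .start, t, x => t = 0 ∧ x = 0
  | .acc, _, _ => False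
  | .junk, _, _ => True
  | .row, t, _ => t = 0
  | .em o, t, x => t = 0 ∧ u[x]? = o
  | .st q, t, x => x = 0 ∧ (M.run u t).1 = q
  | .cl k γ, t, x => ((M.run u t).2 k)[x]? = γ
  | .rc k γ, t, x => ∃ y, x = y + 1 ∧ ((M.run u t).2 k)[y]? = γ
  | .lc k γ, t, x => ((M.run u t).2 k)[x + 1]? = γ
  | .nc k γ, t, x => ((M.run u (t + 1)).2 k)[x]? = γ
  | .o0 q γ, t, x => x = 0 ∧ (M.run u t).1 = q ∧ M.top (M.run u t) = γ
  | .op q γ, t, _ => (M.run u t).1 = q ∧ M.top (M.run u t) = γ

theorem box_model_of_not_acc (u : List Bool) (T : ℕ) (h : ∀ t, ¬ M.AccAt u t) :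
    M.box.Model u T (M.truth u) := by
  refine ⟨⟨rfl, rfl⟩, fun x _ _ => ⟨rfl, rfl⟩, fun ρ t x t' x' _ _ _ _ h1 h2 h3 => ?_⟩
  cases ρ <;> simp only [AM.box, AM.rule, Kind.Step, AM.truth, forall_const] at h1 h2 h3 ⊢
  case r1 => obtain ⟨rfl, rfl⟩ := h1; obtain ⟨rfl, rfl⟩ := h2; exact ⟨by simp, rfl, rfl⟩
  case r2 => exact ⟨by simp, h1.1.trans h2.1⟩
  case r3 => exact ⟨by simp, h1.1.trans h2⟩
  case r4 k =>
    split_ifs with hk
    · exact ⟨by simp, trivial⟩
    · obtain ⟨rfl, rfl⟩ := h1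
      subst h2
      simp [AM.truth, AM.run, AM.init, update_of_ne hk]
  case r5 o =>
    obtain ⟨rfl, rfl⟩ := h1
    obtain ⟨rfl, rfl⟩ := h2
    simp [AM.run, AM.init]
  case r6 =>
    obtain ⟨rfl, rfl⟩ := h1
    refine ⟨by simp, h2.1, ?_⟩
    have := h2.2
    simp only [List.getElem?_eq_none_iff] at this ⊢
    omega
  case r7 q γ =>
    obtain ⟨rfl, rfl⟩ := h1
    obtain ⟨rfl, rfl⟩ := h2
    exact ⟨by simp, rfl, rfl, by rw [← h3, AM.top, List.head?_eq_getElem?]⟩
  case r8 q γ => obtain ⟨rfl, rfl⟩ := h1; exact ⟨by simp, h2.2⟩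
  case r9 q γ => obtain ⟨rfl, rfl⟩ := h1; exact ⟨by simp, h2⟩
  case r10 q γ =>
    obtain ⟨rfl, rfl⟩ := h1
    obtain ⟨rfl, rfl, rfl⟩ := h2
    exact ⟨by simp, rfl, by rw [M.run_succ]; rfl⟩
  case r11 q γ =>
    obtain ⟨rfl, rfl⟩ := h1
    obtain ⟨rfl, rfl, rfl⟩ := h2
    rcases ho : M.op (M.run u t).1 (M.top (M.run u t)) with _ | _ | γ'
    · exact ⟨by simp, trivial⟩
    · exact ⟨by simp, trivial⟩
    · simp [AM.truth, M.run_succ, AM.step, ho, Op.app]
  case r12 k γ => obtain ⟨rfl, rfl⟩ := h1; exact ⟨by simp, x, rfl, h2⟩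
  case r13 k γ => obtain ⟨rfl, rfl⟩ := h1; exact ⟨by simp, h2⟩
  case r14 q γ k γ' =>
    obtain ⟨rfl, rfl⟩ := h1
    obtain ⟨rfl, rfl⟩ := h2
    refine ⟨by simp, ?_⟩
    rw [M.run_succ]
    unfold AM.src at h3
    split_ifs at h3 with hk
    · subst hk
      rcases ho : M.op (M.run u t').1 (M.top (M.run u t')) with _ | _ | γ'' <;>
        simp only [ho, AM.truth] at h3 <;> simp only [AM.step, ho, Op.app, update_self]
      · exact h3
      · rw [List.getElem?_tail]; exact h3
      · obtain ⟨y, rfl, h3⟩ := h3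
        simpa using h3
    · simpa only [AM.step, update_of_ne hk] using h3
  case r15 k γ => obtain ⟨rfl, rfl⟩ := h1; exact ⟨by simp, h2⟩
  case r16 q γ =>
    obtain ⟨rfl, rfl, rfl⟩ := h2
    rw [if_neg (show ¬ M.acc (M.run u t).1 (M.top (M.run u t)) from h t)]
    exact ⟨by simp, trivial⟩

theorem not_acc_of_box_model (u : List Bool) (T : ℕ) {Kn} (h : M.box.Model u T Kn) (t : ℕ)
    (ht : t < T) : ¬ M.AccAt u t := by
  obtain ⟨h1, h2, h3⟩ := h
  have hrow : ∀ x < T, Kn .row 0 x := by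
    intro x
    induction x with
    | zero => intro hx; exact (h3 .r2 0 0 0 0 hx hx hx hx ⟨rfl, rfl⟩ h1 fun _ => h1).2
    | succ x ih =>
      intro hx
      exact (h3 .r3 0 x 0 (x + 1) (by omega) (by omega) (by omega) hx ⟨rfl, rfl⟩ (ih (by omega))
        fun _ => ih (by omega)).2
  have hem : ∀ x < T, Kn (.em u[x]?) 0 x := by
    intro x
    induction x with
    | zero => intro hx; exact h2 0 hx (by omega)
    | succ x ih =>
      intro hx
      by_cases hu : x + 1 ≤ u.length
      · exact h2 _ hx hu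
      · have := ih (by omega)
        rw [List.getElem?_eq_none (by omega)] at this ⊢
        exact (h3 .r6 0 x 0 (x + 1) (by omega) (by omega) (by omega) hx ⟨rfl, rfl⟩ this
          fun _ => this).2
  have ho0 : ∀ t < T, Kn (.st (M.run u t).1) t 0 →
      (∀ k x, t + x < T → Kn (.cl k ((M.run u t).2 k)[x]?) t x) →
      Kn (.o0 (M.run u t).1 (M.top (M.run u t))) t 0 := by
    intro t ht a b
    refine (h3 (.r7 _ _) t 0 t 0 ht (by omega) ht (by omega) ⟨rfl, rfl⟩ a fun _ => ?_).2
    have := b (M.rd (M.run u t).1) 0 ht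
    rwa [← List.head?_eq_getElem?] at this
  have key : ∀ t < T, Kn (.st (M.run u t).1) t 0 ∧
      ∀ k x, t + x < T → Kn (.cl k ((M.run u t).2 k)[x]?) t x := by
    intro t
    induction t with
    | zero =>
      intro h0
      refine ⟨(h3 .r1 0 0 0 0 h0 h0 h0 h0 ⟨rfl, rfl⟩ h1 fun _ => h1).2, fun k x hx => ?_⟩
      rw [zero_add] at hx
      by_cases hk : k = M.kin
      · subst hk
        have := (h3 (.r5 _) 0 x 0 x h0 hx h0 hx ⟨rfl, rfl⟩ (hem x hx) fun _ => hem x hx).2
        simpa [AM.run, AM.init, AM.box, AM.rule] using this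
      · have := (h3 (.r4 k) 0 x 0 x h0 hx h0 hx ⟨rfl, rfl⟩ (hrow x hx) fun _ => hrow x hx).2
        simpa [AM.run, AM.init, AM.box, AM.rule, hk] using this
    | succ t ih =>
      intro h0
      obtain ⟨a, b⟩ := ih (by omega)
      have c := ho0 t (by omega) a b
      have hop : ∀ x < T, Kn (.op (M.run u t).1 (M.top (M.run u t))) t x := by
        intro x
        induction x with
        | zero =>
          intro hx
          exact (h3 (.r8 _ _) t 0 t 0 (by omega) hx (by omega) hx ⟨rfl, rfl⟩ c fun _ => c).2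
        | succ x ih =>
          intro hx
          exact (h3 (.r9 _ _) t x t (x + 1) (by omega) (by omega) (by omega) hx ⟨rfl, rfl⟩
            (ih (by omega)) fun _ => ih (by omega)).2
      refine ⟨?_, fun k x hx => ?_⟩
      · rw [M.run_succ]
        exact (h3 (.r10 _ _) t 0 (t + 1) 0 (by omega) (by omega) h0 (by omega) ⟨rfl, rfl⟩ c
          fun _ => c).2
      have fin : ∀ γ, Kn (M.src (M.run u t).1 (M.top (M.run u t)) k γ) t x →
          Kn (.cl k γ) (t + 1) x := by
        intro γ hγ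
        have d := (h3 (.r14 _ _ k γ) t x t x (by omega) (by omega) (by omega) (by omega) ⟨rfl, rfl⟩
          (hop x (by omega)) fun _ => hγ).2
        exact (h3 (.r15 k γ) t x (t + 1) x (by omega) (by omega) h0 (by omega) ⟨rfl, rfl⟩ d
          fun _ => d).2
      rw [M.run_succ]
      by_cases hk : k = M.rd (M.run u t).1
      · subst hk
        rcases ho : M.op (M.run u t).1 (M.top (M.run u t)) with _ | _ | γ'' <;>
          simp only [AM.src, ho, if_true] at fin <;> simp only [AM.step, ho, Op.app, update_self]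
        · exact fin _ (b _ x (by omega))
        · rw [List.getElem?_tail]
          have d := b (M.rd (M.run u t).1) (x + 1) (by omega)
          exact fin _ (h3 (.r13 _ _) t (x + 1) t x (by omega) (by omega) (by omega) (by omega)
            ⟨rfl, rfl⟩ d fun _ => d).2
        · rcases x with _ | x
          · have := (h3 (.r11 _ _) t 0 (t + 1) 0 (by omega) (by omega) h0 (by omega) ⟨rfl, rfl⟩ c
              fun _ => c).2
            simpa [AM.box, AM.rule, ho] using this
          · have d := b (M.rd (M.run u t).1) x (by omega)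
            exact fin _ (h3 (.r12 _ _) t x t (x + 1) (by omega) (by omega) (by omega) (by omega)
              ⟨rfl, rfl⟩ d fun _ => d).2
      · simp only [AM.src, if_neg hk] at fin
        simp only [AM.step, update_of_ne hk]
        exact fin _ (b _ x (by omega))
  intro hacc
  have c := ho0 t ht (key t ht).1 (key t ht).2
  have := (h3 (.r16 _ _) t 0 t 0 ht (by omega) ht (by omega) ⟨rfl, rfl⟩ c fun _ => c).1
  exact this (if_pos hacc)

end Vale.Agent.P310
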