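import Vale.Agent.P310.Sound

/-! Soundness, part two: the invariants and the strategy. -/

namespace Vale.Agent.P310

open Classical Function Finset

variable {F G Sy Rl : Type} [Field F] [AddCommGroup G] {k r m L : ℕ}
variable (D : Setup F G k r m) (H : Horn Sy Rl G)

def Full (pm : Con F Rl k L → Option F) (S : Finset (Con F Rl k L)) (w : G) : Prop :=
  ∀ i, ∃ κ ∈ S, κ.row = i ∧ pm κ = some (D.enc w i)

noncomputable def pW (e : Rl × Fin 5) : Con F Rl k L → Option F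
  | .step ρ τ _ _ h => if (ρ, τ) = e then some h else none
  | _ => none

noncomputable def pH (σ : Sy) : Con F Rl k L → Option F
  | .step ρ τ _ i h => if H.psym ρ τ = σ then some (h - D.enc (H.psh ρ τ) i) else none
  | _ => none

noncomputable def pJ (ρ' : Rl) : Con F Rl k L → Option F
  | .step ρ _ _ _ h => if ρ = ρ' then some h else none
  | .jun ρ _ h => if ρ = ρ' then some h else none
  | _ => none

variable {D H}

lemma Full.mono {pm : Con F Rl k L → Option F} {S S' w} (h : Full D pm S w) (hS : S ⊆ S') :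
    Full D pm S' w := fun i => by
  obtain ⟨κ, h1, h2⟩ := h i
  exact ⟨κ, hS h1, h2⟩

lemma card_ge {S : Finset (Con F Rl k L)} (P Q : Fin k → Con F Rl k L → Prop) (I : Finset (Fin k))
    (hP : ∀ i, ∃ κ ∈ S, κ.row = i ∧ P i κ) (hQ : ∀ i ∈ I, ∃ κ ∈ S, κ.row = i ∧ Q i κ)
    (hI : ∀ i ∈ I, ∀ κ, P i κ → ¬ Q i κ) : k + I.card ≤ S.card := by
  choose f hf1 hf2 hf3 using hP
  choose f' hf1' hf2' hf3' using fun i : I => hQ i.1 i.2
  have hinj : Injective (Sum.elim (fun i => ⟨f i, hf1 i⟩) (fun i : I => ⟨f' i, hf1' i⟩) :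
      Fin k ⊕ I → S) := by
    rintro (i | i) (j | j) h <;> simp only [Sum.elim_inl, Sum.elim_inr, Subtype.mk.injEq] at h
    · rw [← hf2 i, ← hf2 j, h]
    · have : i = j.1 := by rw [← hf2 i, ← hf2' j, h]
      subst this
      exact absurd (h ▸ hf3' j) (hI _ j.2 _ (hf3 _))
    · have : j = i.1 := by rw [← hf2 j, ← hf2' i, h]
      subst this
      exact absurd (h ▸ hf3' i) (hI _ i.2 _ (hf3 _))
    · congr 1
      exact Subtype.ext (by rw [← hf2' i, ← hf2' j, h])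
  simpa using Fintype.card_le_of_injective _ hinj

lemma full_unique {A : Type} (pm : A → Con F Rl k L → Option F) (hk : r + 3 ≤ k)
    (hd : ∀ a a' κ x x', pm a κ = some x → pm a' κ = some x' → a = a')
    {S : Finset (Con F Rl k L)} (hS : S.card ≤ k + 2) {a a' w w'} (h : Full D (pm a) S w)
    (h' : Full D (pm a') S w') : a = a' ∧ w = w' := by
  have h1 : a = a' := by
    by_contra hne
    have := card_ge _ _ univ h (fun i _ => h' i) (fun i _ κ e1 e2 => hne (hd _ _ _ _ _ e1 e2))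
    simp at this
    omega
  subst h1
  refine ⟨rfl, by_contra fun hne => ?_⟩
  have h2 := D.agree (w - w') (sub_ne_zero.2 hne)
  have h3 := card_ge _ _ (univ.filter fun i => ¬ D.enc (w - w') i = 0) h (fun i _ => h' i)
    (fun i hi κ e1 e2 => by
      rw [e1, Option.some.injEq] at e2
      simp [e2] at hi)
  have h4 := card_filter_add_card_filter_not (s := univ) (fun i => D.enc (w - w') i = 0)
  simp only [card_univ, Fintype.card_fin] at h4
  omega

lemma row_card {pm : Con F Rl k L → Option F} {S S' : Finset (Con F Rl k L)} {w} (hS : S ⊆ S')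
    (hS' : S'.card ≤ k + 2) (h : Full D pm S' w) (i0 : Fin k) :
    (S.filter fun κ => κ.row = i0).card ≤ 3 := by
  choose f hf1 hf2 _ using h
  have h1 : ((univ.erase i0).image f).card = k - 1 := by
    rw [card_image_of_injective _ (fun i j h => by rw [← hf2 i, ← hf2 j, h])]
    simp
  have h2 : Disjoint ((univ.erase i0).image f) (S.filter fun κ => κ.row = i0) := by
    rw [disjoint_left]
    intro κ h3 h4
    obtain ⟨i, hi, rfl⟩ := mem_image.1 h3
    exact (mem_erase.1 hi).1 ((hf2 i).symm.trans (mem_filter.1 h4).2)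
  have h3 : ((univ.erase i0).image f) ∪ (S.filter fun κ => κ.row = i0) ⊆ S' := by
    refine union_subset (fun κ hκ => ?_) ((filter_subset _ _).trans hS)
    obtain ⟨i, _, rfl⟩ := mem_image.1 hκ
    exact hf1 i
  have h4 := card_le_card h3
  rw [card_union_of_disjoint h2] at h4
  have := i0.2
  omega

lemma full_W_iff {S : Finset (Con F Rl k L)} {ρ τ w} :
    Full D (pW (ρ, τ)) S w ↔ ∀ i, ∃ π, Con.step ρ τ π i (D.enc w i) ∈ S := by
  refine forall_congr' fun i => ⟨?_, ?_⟩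
  · rintro ⟨κ, h1, h2, h3⟩
    cases κ with
    | step ρ' τ' π i' h =>
      simp only [pW] at h3
      split_ifs at h3 with h4
      simp only [Prod.mk.injEq] at h4
      obtain ⟨rfl, rfl⟩ := h4
      obtain rfl : i' = i := h2
      simp only [Option.some.injEq] at h3
      subst h3
      exact ⟨π, h1⟩
    | jun => simp [pW] at h3
    | gr => simp [pW] at h3
  · rintro ⟨π, h⟩
    exact ⟨_, h, rfl, by simp [pW]⟩

lemma Full.toJ {S : Finset (Con F Rl k L)} {ρ τ w} (h : Full D (pW (ρ, τ)) S w) :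
    Full D (pJ ρ) S w := fun i => by
  obtain ⟨π, h⟩ := full_W_iff.1 h i
  exact ⟨_, h, rfl, by simp [pJ]⟩

lemma Full.toH {S : Finset (Con F Rl k L)} {ρ τ w} (h : Full D (pW (ρ, τ)) S w) :
    Full D (pH D H (H.psym ρ τ)) S (w - H.psh ρ τ) := fun i => by
  obtain ⟨π, h⟩ := full_W_iff.1 h i
  exact ⟨_, h, rfl, by simp [pH]⟩

lemma uniqW (hk : r + 3 ≤ k) {S : Finset (Con F Rl k L)} (hS : S.card ≤ k + 2) {a a' w w'}
    (h : Full D (pW a) S w) (h' : Full D (pW a') S w') : a = a' ∧ w = w' := by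
  refine full_unique pW hk (fun a a' κ x x' h1 h2 => ?_) hS h h'
  cases κ <;> simp only [pW] at h1 h2 <;> grind

lemma uniqH (hk : r + 3 ≤ k) {S : Finset (Con F Rl k L)} (hS : S.card ≤ k + 2) {a a' w w'}
    (h : Full D (pH D H a) S w) (h' : Full D (pH D H a') S w') : a = a' ∧ w = w' := by
  refine full_unique (pH D H) hk (fun a a' κ x x' h1 h2 => ?_) hS h h'
  cases κ <;> simp only [pH] at h1 h2 <;> grind

lemma uniqJ (hk : r + 3 ≤ k) {S : Finset (Con F Rl k L)} (hS : S.card ≤ k + 2) {a a' w w'}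
    (h : Full D (pJ a) S w) (h' : Full D (pJ a') S w') : a = a' ∧ w = w' := by
  refine full_unique pJ hk (fun a a' κ x x' h1 h2 => ?_) hS h h'
  cases κ <;> simp only [pJ] at h1 h2 <;> grind

lemma arc {𝒦 : Sy → G → Prop} (hM : H.Model 𝒦) (ρ : Rl) (w : G) (τ0 : Fin 5) (v : F)
    (hv : 𝒦 (H.psym ρ τ0) (w - H.psh ρ τ0) → v = 0) :
    ∃ c : Fin 5 → F, ∑ τ, H.eps F ρ τ * c τ = H.gam F ρ ∧ c τ0 = v ∧
      ∀ τ, 𝒦 (H.psym ρ τ) (w - H.psh ρ τ) → c τ = 0 := by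
  have gen : ∀ τ1, τ1 ≠ τ0 → ¬ 𝒦 (H.psym ρ τ1) (w - H.psh ρ τ1) → H.eps F ρ τ1 ≠ 0 →
      ∃ c : Fin 5 → F, ∑ τ, H.eps F ρ τ * c τ = H.gam F ρ ∧ c τ0 = v ∧
      ∀ τ, 𝒦 (H.psym ρ τ) (w - H.psh ρ τ) → c τ = 0 := by
    intro τ1 h1 h2 h3
    refine ⟨Pi.single τ0 v + Pi.single τ1 ((H.gam F ρ - H.eps F ρ τ0 * v) / H.eps F ρ τ1), ?_, ?_,
      fun τ hτ => ?_⟩
    · simp only [Pi.add_apply, mul_add, sum_add_distrib, Pi.single_apply, mul_ite, mul_zero,
        sum_ite_eq', mem_univ, if_true]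
      field_simp
      ring
    · simp [h1.symm]
    · have h4 : τ ≠ τ1 := fun h => h2 (h ▸ hτ)
      by_cases h5 : τ = τ0
      · subst h5; simp [h4, hv hτ]
      · simp [h4, h5]
  by_cases h1 : 𝒦 (H.in1 ρ) (w - H.sh1 ρ)
  · by_cases h2 : 𝒦 (H.in2 ρ) (w - H.sh2 ρ)
    · obtain ⟨h3, h4⟩ := hM.2 ρ w h1 h2
      have : v = 0 := hv (by fin_cases τ0 <;> simpa [Horn.psym, Horn.psh])
      exact ⟨0, by simp [Horn.gam, h3], this.symm, fun _ _ => rfl⟩
    · by_cases h3 : τ0 = 2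
      · exact gen 3 (by rw [h3]; decide) h2 (by simp [Horn.eps])
      · exact gen 2 (Ne.symm h3) h2 (by simp [Horn.eps])
  · by_cases h3 : τ0 = 0
    · exact gen 1 (by rw [h3]; decide) h1 (by simp [Horn.eps])
    · exact gen 0 (Ne.symm h3) h1 (by simp [Horn.eps])

variable (D H) in
def IH (𝒦 : Sy → G → Prop) (S : Finset (Con F Rl k L)) (st : St F Sy Rl k) : Prop :=
  ∀ σ w, Full D (pH D H σ) S w → 𝒦 σ w → sX D st σ w = 0

variable (D H) in
def IJ (𝒦 : Sy → G → Prop) (S : Finset (Con F Rl k L)) (st : St F Sy Rl k) : Prop :=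
  ∀ ρ w, Full D (pJ ρ) S w → ∀ τ, 𝒦 (H.psym ρ τ) (w - H.psh ρ τ) → sV D st ρ τ w = 0

variable (D H) in
def IW (S : Finset (Con F Rl k L)) (st : St F Sy Rl k) : Prop :=
  ∀ ρ τ w, Full D (pW (ρ, τ)) S w → sV D st ρ τ w = sX D st (H.psym ρ τ) (w - H.psh ρ τ)

lemma Csp.Agree.trans {Cn Vr : Type} {C : Csp F Cn Vr} {S x y z} (h : C.Agree S x y)
    (h' : C.Agree S y z) : C.Agree S x z := fun κ hκ τ => (h κ hκ τ).trans (h' κ hκ τ)

lemma fixH {𝒦 : Sy → G → Prop} (hst : ∀ w, 𝒦 H.start w → w = 0) (hm : 0 < m) (hk : r + 3 ≤ k)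
    {S S' : Finset (Con F Rl k L)} (hS : S ⊆ S') (hS' : S'.card ≤ k + 2) {st : St F Sy Rl k}
    (hb : Base D H L S' st) (h : IH D H 𝒦 S st) :
    ∃ st', Base D H L S' st' ∧ (hcsp D H L).Agree S (st'.asg D H L) (st.asg D H L) ∧
      st'.V = st.V ∧ IH D H 𝒦 S' st' := by
  by_cases hc : IH D H 𝒦 S' st
  · exact ⟨st, hb, fun _ _ _ => rfl, rfl, hc⟩
  simp only [IH, not_forall] at hc
  obtain ⟨σ, w, h1, h2, h3⟩ := hc
  have h4 : ¬ Full D (pH D H σ) S w := fun h4 => h3 (h σ w h4 h2)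
  simp only [Full, not_forall, not_exists, not_and] at h4
  obtain ⟨i0, h4⟩ := h4
  obtain ⟨st', a1, a2, a3, _, _, a6⟩ := setH hm hb hS σ w i0 0 (row_card hS hS' h1 i0)
    (fun ρ τ π x hκ hσ _ he => h4 _ hκ rfl (by simp [pH, hσ, he]))
    (fun hσ => absurd (by
      subst hσ
      obtain rfl := hst w h2
      simp [sX, hb.gr]) h3)
  refine ⟨st', a1, a2, a3, fun σ' w' b1 _ => ?_⟩
  obtain ⟨rfl, rfl⟩ := uniqH hk hS' b1 h1
  exact a6

lemma fixJ {𝒦 : Sy → G → Prop} (hM : H.Model 𝒦) (hm : 0 < m) (hk : r + 3 ≤ k)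
    {S S' : Finset (Con F Rl k L)} (hS : S ⊆ S') (hS' : S'.card ≤ k + 2) {st : St F Sy Rl k}
    (hb : Base D H L S' st) (h : IJ D H 𝒦 S st) :
    ∃ st', Base D H L S' st' ∧ (hcsp D H L).Agree S (st'.asg D H L) (st.asg D H L) ∧
      st'.X = st.X ∧ IJ D H 𝒦 S' st' := by
  by_cases hc : IJ D H 𝒦 S' st
  · exact ⟨st, hb, fun _ _ _ => rfl, rfl, hc⟩
  simp only [IJ, not_forall] at hc
  obtain ⟨ρ, w, h1, τ, h2, h3⟩ := hc
  have h4 : ¬ Full D (pJ ρ) S w := fun h4 => h3 (h ρ w h4 τ h2)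
  simp only [Full, not_forall, not_exists, not_and] at h4
  obtain ⟨i0, h4⟩ := h4
  obtain ⟨c, c1, _, c3⟩ := arc (F := F) hM ρ w 0 0 (fun _ => rfl)
  obtain ⟨st', a1, a2, a3, _, _, a6⟩ := setJ hm hb hS ρ w i0 c c1 (row_card hS hS' h1 i0)
    (fun τ π hκ => absurd (by simp [pJ]) (h4 _ hκ rfl))
    (fun hκ => absurd (by simp [pJ]) (h4 _ hκ rfl))
  refine ⟨st', a1, a2, a3, fun ρ' w' b1 τ' b2 => ?_⟩
  obtain ⟨rfl, rfl⟩ := uniqJ hk hS' b1 h1
  rw [a6, c3 τ' b2]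

lemma fixW {𝒦 : Sy → G → Prop} (hM : H.Model 𝒦) (hm : 0 < m) (hk : r + 3 ≤ k)
    {S S' : Finset (Con F Rl k L)} (hS : S ⊆ S') (hS1 : S.card ≤ k + 1) (hS' : S'.card ≤ k + 2)
    {st : St F Sy Rl k} (hb : Base D H L S' st) (h1 : IH D H 𝒦 S' st) (h2 : IJ D H 𝒦 S' st) :
    ∃ st', Base D H L S' st' ∧ (hcsp D H L).Agree S (st'.asg D H L) (st.asg D H L) ∧
      IH D H 𝒦 S' st' ∧ IJ D H 𝒦 S' st' ∧ IW D H S' st' := by
  by_cases hc : IW D H S' st
  · exact ⟨st, hb, fun _ _ _ => rfl, h1, h2, hc⟩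
  simp only [IW, not_forall] at hc
  obtain ⟨ρ, τ, w, h3, h4⟩ := hc
  have h5 : ¬ 𝒦 (H.psym ρ τ) (w - H.psh ρ τ) := fun h5 =>
    h4 (by rw [h2 ρ w h3.toJ τ h5, h1 _ _ h3.toH h5])
  by_cases h6 : ∃ i0, (∀ τ π, Con.step ρ τ π i0 (D.enc w i0) ∈ S → π.1 < st.g ρ τ * m) ∧
      Con.jun ρ i0 (D.enc w i0) ∉ S
  · obtain ⟨i0, h6, h7⟩ := h6
    obtain ⟨c, c1, c2, c3⟩ := arc hM ρ w τ (sX D st (H.psym ρ τ) (w - H.psh ρ τ))
      (fun h => absurd h h5)
    obtain ⟨st', a1, a2, a3, _, _, a6⟩ := setJ hm hb hS ρ w i0 c c1 (row_card hS hS' h3 i0) h6 h7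
    refine ⟨st', a1, a2, fun σ w' b1 b2 => ?_, fun ρ' w' b1 τ' b2 => ?_, fun ρ' τ' w' b1 => ?_⟩
    · simpa only [sX, a3] using h1 σ w' b1 b2
    · obtain ⟨rfl, rfl⟩ := uniqJ hk hS' b1 h3.toJ
      rw [a6, c3 τ' b2]
    · obtain ⟨e, rfl⟩ := uniqW hk hS' b1 h3
      simp only [Prod.mk.injEq] at e
      obtain ⟨rfl, rfl⟩ := e
      rw [a6, c2]
      simp only [sX, a3]
  · push Not at h6
    let near : Con F Rl k L → Prop := fun κ => ∃ ρ τ π i h, κ = .step ρ τ π i h ∧ π.1 < st.g ρ τ * m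
    let I := univ.filter fun i => ∃ κ ∈ S, κ.row = i ∧ near κ
    have hI : k + I.card ≤ S.card := by
      refine card_ge (fun _ κ => ¬ near κ) (fun _ κ => near κ) I (fun i => ?_)
        (fun i hi => (mem_filter.1 hi).2) (fun _ _ _ h => h)
      by_cases h7 : ∀ τ π, Con.step ρ τ π i (D.enc w i) ∈ S → π.1 < st.g ρ τ * m
      · exact ⟨_, h6 i h7, rfl, by simp [near]⟩
      · push Not at h7
        obtain ⟨τ', π, h8, h9⟩ := h7
        refine ⟨_, h8, rfl, ?_⟩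
        rintro ⟨ρ', τ'', π', i', h', e, h10⟩
        simp only [Con.step.injEq] at e
        obtain ⟨rfl, rfl, rfl, _, _⟩ := e
        omega
    let I2 := univ.filter fun i => H.psym ρ τ = H.start ∧ D.enc (w - H.psh ρ τ) i = 0
    have hI2 : I2.card ≤ r := by
      by_cases h7 : H.psym ρ τ = H.start
      · have h8 : w - H.psh ρ τ ≠ 0 := fun h8 => h5 (by rw [h7, h8]; exact hM.1)
        have := D.agree _ h8
        simp only [I2, h7, true_and]
        omega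
      · simp [I2, h7]
    obtain ⟨i0, _, hi0⟩ : ∃ i0 ∈ univ, i0 ∉ I ∪ I2 := by
      refine exists_mem_notMem_of_card_lt_card ?_
      have := card_union_le I I2
      simp only [card_univ, Fintype.card_fin]
      omega
    rw [mem_union, not_or] at hi0
    obtain ⟨st', a1, a2, a3, _, a5, a6⟩ := setH hm hb hS (H.psym ρ τ) (w - H.psh ρ τ) i0
      (sV D st ρ τ w) (row_card hS hS' h3 i0)
      (fun ρ' τ' π x hκ _ hπ => absurd (mem_filter.2 ⟨mem_univ _, _, hκ, rfl, _, _, _, _, _, rfl, hπ⟩)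
        hi0.1)
      (fun hσ h0 => hi0.2 (mem_filter.2 ⟨mem_univ _, hσ, h0⟩))
    refine ⟨st', a1, a2, fun σ w' b1 b2 => ?_, fun ρ' w' b1 τ' b2 => ?_, fun ρ' τ' w' b1 => ?_⟩
    · obtain ⟨rfl, rfl⟩ := uniqH hk hS' b1 h3.toH
      exact absurd b2 h5
    · simpa only [sV, a3] using h2 ρ' w' b1 τ' b2
    · obtain ⟨e, rfl⟩ := uniqW hk hS' b1 h3
      simp only [Prod.mk.injEq] at e
      obtain ⟨rfl, rfl⟩ := e
      rw [a6]
      simp only [sV, a3]

variable [DecidableEq (Con F Rl k L)]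

theorem cons_of_model {𝒦 : Sy → G → Prop} (hM : H.Model 𝒦) (hst : ∀ w, 𝒦 H.start w → w = 0)
    (hm : 0 < m) (hk : r + 3 ≤ k) (hL : (k + 3) * m ≤ L) : (hcsp D H L).Cons (k + 2) := by
  refine ⟨fun S x => ∃ st, Base D H L S st ∧ IH D H 𝒦 S st ∧ IJ D H 𝒦 S st ∧ IW D H S st ∧
    x = st.asg D H L, ?_, ?_, ?_, ?_⟩
  · have hn : ∀ pm w, ¬ Full D pm (∅ : Finset (Con F Rl k L)) w := fun pm w h => by
      simpa using h ⟨0, by omega⟩
    refine ⟨_, ⟨fun _ _ => 0, fun _ _ _ => 0,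
      fun ρ τ i _ => if τ = 0 then (if i.1 = 0 then H.gam F ρ else 0) else 0, fun _ _ _ => 0⟩,
      ⟨fun _ _ => by nlinarith, by simp, fun ρ τ => ?_, fun ρ i h => ?_, fun _ => rfl⟩,
      fun _ _ h => absurd h (hn _ _), fun _ _ h => absurd h (hn _ _),
      fun _ _ _ h => absurd h (hn _ _), rfl⟩
    · simpa using D.const fun i => if τ = 0 then (if i.1 = 0 then H.gam F ρ else 0) else 0
    · simp [Horn.eps]
  · rintro S _ κ ⟨st, hb, _, _, _, rfl⟩ hκ
    exact hb.sat hm hκ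
  · rintro S S' _ hS ⟨st, hb, h1, h2, h3, rfl⟩
    exact ⟨st, hb.mono hS, fun σ w h => h1 σ w (h.mono hS), fun ρ w h => h2 ρ w (h.mono hS),
      fun ρ τ w h => h3 ρ τ w (h.mono hS), rfl⟩
  · rintro S _ κ hS ⟨st, hb, h1, h2, h3, rfl⟩
    have hsub : S ⊆ insert κ S := subset_insert _ _
    have hS' : (insert κ S).card ≤ k + 2 := (card_insert_le _ _).trans hS
    obtain ⟨st1, b1, ag1, e1, e2⟩ : ∃ st', Base D H L (insert κ S) st' ∧
        (hcsp D H L).Agree S (st'.asg D H L) (st.asg D H L) ∧ st'.X = st.X ∧ st'.V = st.V := by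
      by_cases hc : ∃ ρ τ π i h, κ = .step ρ τ π i h ∧ st.g ρ τ * m ≤ π.1 ∧ π.1 < (st.g ρ τ + 1) * m
      · obtain ⟨ρ, τ, π, i, h, rfl, c1, c2⟩ := hc
        obtain ⟨st', a1, a2, a3, a4, a5⟩ := relocate hm hb hL (by omega) ρ τ
          (fun w hw => h3 ρ τ w (full_W_iff.2 hw))
        refine ⟨st', ⟨a1.g_lt, fun ρ' τ' π' i' h' hκ => ?_, a1.jump, a1.jun, a1.gr⟩, a2, a3, a4⟩
        rcases mem_insert.1 hκ with e | hκ
        · simp only [Con.step.injEq] at e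
          obtain ⟨rfl, rfl, rfl, _, _⟩ := e
          rcases lt_or_gt_of_ne a5 with a6 | a6
          · exact Or.inr ((Nat.mul_le_mul_right _ a6).trans c1)
          · exact Or.inl (c2.trans_le (Nat.mul_le_mul_right _ a6))
        · exact a1.clean _ _ _ _ _ hκ
      · refine ⟨st, ⟨hb.g_lt, fun ρ' τ' π' i' h' hκ => ?_, hb.jump, hb.jun, hb.gr⟩,
          fun _ _ _ => rfl, rfl, rfl⟩
        rcases mem_insert.1 hκ with e | hκ
        · by_contra hcc
          exact hc ⟨_, _, _, _, _, e.symm, by omega, by omega⟩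
        · exact hb.clean _ _ _ _ _ hκ
    have h1' : IH D H 𝒦 S st1 := fun σ w a b => by simpa only [sX, e1] using h1 σ w a b
    have h2' : IJ D H 𝒦 S st1 := fun ρ w a τ b => by simpa only [sV, e2] using h2 ρ w a τ b
    have h3' : IW D H S st1 := fun ρ τ w a => by simpa only [sV, sX, e1, e2] using h3 ρ τ w a
    by_cases hW : ∃ ρ τ w, Full D (pW (ρ, τ)) S w
    · obtain ⟨ρ, τ, w, hW⟩ := hW
      have hW' := hW.mono hsub
      refine ⟨_, ⟨st1, b1, fun σ w' a b => ?_, fun ρ' w' a τ' b => ?_, fun ρ' τ' w' a => ?_, rfl⟩, ag1⟩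
      · obtain ⟨rfl, rfl⟩ := uniqH hk hS' a hW'.toH
        exact h1' _ _ hW.toH b
      · obtain ⟨rfl, rfl⟩ := uniqJ hk hS' a hW'.toJ
        exact h2' _ _ hW.toJ τ' b
      · obtain ⟨e, rfl⟩ := uniqW hk hS' a hW'
        simp only [Prod.mk.injEq] at e
        obtain ⟨rfl, rfl⟩ := e
        exact h3' _ _ _ hW
    · obtain ⟨st2, b2, ag2, e3, i2⟩ := fixH hst hm hk hsub hS' b1 h1'
      have h2'' : IJ D H 𝒦 S st2 := fun ρ w a τ b => by simpa only [sV, e3] using h2' ρ w a τ b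
      obtain ⟨st3, b3, ag3, e4, i3⟩ := fixJ hM hm hk hsub hS' b2 h2''
      have i2' : IH D H 𝒦 (insert κ S) st3 := fun σ w a b => by
        simpa only [sX, e4] using i2 σ w a b
      obtain ⟨st4, b4, ag4, i4, i5, i6⟩ := fixW hM hm hk hsub (by omega) hS' b3 i2' i3
      exact ⟨_, ⟨st4, b4, i4, i5, i6, rfl⟩, ag4.trans (ag3.trans (ag2.trans ag1))⟩

end Vale.Agent.P310
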