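import Vale.Agent.P310.Machine

/-! Elementary stack machines simulating a composition of two `TM2` machines. -/

namespace Vale.Agent.P310

open Classical Function Turing

section restrict

variable {Q K Γ : Type}

theorem AM.exists_finite (M : AM Q K Γ) (Qs : Set Q) (hQ : Qs.Finite) (h0 : M.q0 ∈ Qs)
    (h1 : ∀ q ∈ Qs, ∀ γ, M.nx q γ ∈ Qs) (h2 : ∀ q γ, M.op q γ = M.op q none) :
    ∃ (Q' Γ' : Type) (_ : Finite Q') (_ : Finite Γ') (M' : AM Q' K Γ'),
      ∀ u t, M'.AccAt u t ↔ M.AccAt u t := by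
  let Γs : Set Γ := (⋃ q ∈ Qs, {γ | M.op q none = .push γ}) ∪ Set.range M.sym
  have hΓ : Γs.Finite := (hQ.biUnion fun q _ => Set.Subsingleton.finite fun a ha b hb => by
    have := (Eq.symm ha).trans hb
    simpa using this).union (Set.finite_range _)
  have hop : ∀ q : Qs, ∃ o : Op Γs, ∀ l : List Γs,
      (o.app l).map Subtype.val = (M.op q none).app (l.map Subtype.val) := by
    intro q
    rcases ho : M.op q none with _ | _ | γ
    · exact ⟨.nop, fun l => rfl⟩
    · exact ⟨.pop, fun l => by simp [Op.app]⟩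
    · exact ⟨.push ⟨γ, Or.inl (Set.mem_biUnion q.2 ho)⟩, fun l => rfl⟩
  choose o ho using hop
  let M' : AM Qs K Γs :=
    { rd := fun q => M.rd q
      nx := fun q γ => ⟨M.nx q (γ.map Subtype.val), h1 _ q.2 _⟩
      op := fun q _ => o q
      acc := fun q γ => M.acc q (γ.map Subtype.val)
      q0 := ⟨M.q0, h0⟩
      kin := M.kin
      sym := fun b => ⟨M.sym b, Or.inr ⟨b, rfl⟩⟩ }
  let φ : Qs × (K → List Γs) → Q × (K → List Γ) := fun c => (c.1, fun k => (c.2 k).map Subtype.val)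
  have htop : ∀ c, M.top (φ c) = (M'.top c).map Subtype.val := by
    intro c
    simp only [AM.top, φ, M', List.head?_map]
  have hstep : ∀ c, M.step (φ c) = φ (M'.step c) := by
    intro c
    simp only [AM.step, htop]
    refine Prod.ext rfl ?_
    funext k
    by_cases hk : k = M.rd c.1
    · subst hk
      simp only [φ, M', update_self, ho, h2 c.1 (Option.map _ _)]
    · simp only [φ, M', update_of_ne hk]
  have hrun : ∀ u t, M.run u t = φ (M'.run u t) := by
    intro u t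
    induction t with
    | zero =>
      refine Prod.ext rfl ?_
      funext k
      by_cases hk : k = M.kin
      · subst hk; simp [AM.run, AM.init, φ, M']
      · simp [AM.run, AM.init, φ, M', update_of_ne hk]
    | succ t ih => rw [AM.run_succ, AM.run_succ, ih, hstep]
  exact ⟨Qs, Γs, hQ, hΓ, M', fun u t => by simp only [AM.AccAt, hrun, htop]; rfl⟩

end restrict

section micro

variable {K' Λ σ Q K Γ : Type} {Γ' : K' → Type}

def rdS (k0 : K') : TM2.Stmt Γ' Λ σ → K'
  | .push k _ _ => k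
  | .peek k _ _ => k
  | .pop k _ _ => k
  | _ => k0

def dep : TM2.Stmt Γ' Λ σ → ℕ
  | .push _ _ q => dep q + 1
  | .peek _ _ q => dep q + 1
  | .pop _ _ q => dep q + 1
  | .load _ q => dep q + 1
  | .branch _ q₁ q₂ => dep q₁ + dep q₂ + 1
  | .goto _ => 1
  | .halt => 1

def micOp (ge : ∀ k, Γ' k → Γ) : TM2.Stmt Γ' Λ σ → σ → Op Γ
  | .push k f _, v => .push (ge k (f v))
  | .pop _ _ _, _ => .pop
  | _, _ => .nop

def micNx (m : Λ → TM2.Stmt Γ' Λ σ) (gd : ∀ k, Γ → Option (Γ' k)) :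
    TM2.Stmt Γ' Λ σ → σ → Option Γ → Option (TM2.Stmt Γ' Λ σ × σ)
  | .push _ _ q, v, _ => some (q, v)
  | .peek k f q, v, γ => some (q, f v (γ.bind (gd k)))
  | .pop k f q, v, γ => some (q, f v (γ.bind (gd k)))
  | .load a q, v, _ => some (q, a v)
  | .branch f q₁ q₂, v, _ => some (cond (f v) q₁ q₂, v)
  | .goto f, v, _ => some (m (f v), v)
  | .halt, _, _ => none

lemma micNx_mem (m : Λ → TM2.Stmt Γ' Λ σ) (gd : ∀ k, Γ → Option (Γ' k)) {s v γ s'}
    (h : ∃ l, s ∈ TM2.stmts₁ (m l)) (h' : micNx m gd s v γ = some s') :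
    ∃ l, s'.1 ∈ TM2.stmts₁ (m l) := by
  obtain ⟨l, hl⟩ := h
  have key := TM2.stmts₁_trans hl
  cases s <;> simp only [micNx, Option.some.injEq, reduceCtorEq] at h' <;> subst h'
  case goto => exact ⟨_, TM2.stmts₁_self⟩
  case branch f q₁ q₂ =>
    refine ⟨l, key ?_⟩
    cases f v <;> simp [TM2.stmts₁, TM2.stmts₁_self]
  all_goals exact ⟨l, key (by simp [TM2.stmts₁, TM2.stmts₁_self])⟩

structure Emb (N : AM Q K Γ) (m : Λ → TM2.Stmt Γ' Λ σ) where
  ge : ∀ k, Γ' k → Γ
  gd : ∀ k, Γ → Option (Γ' k)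
  κ : K' → K
  k0 : K'
  ι : TM2.Stmt Γ' Λ σ × σ → Q
  hq : Q
  gde : ∀ k a, gd k (ge k a) = some a
  inj : Injective κ
  rd : ∀ s v, N.rd (ι (s, v)) = κ (rdS k0 s)
  op : ∀ s v γ, N.op (ι (s, v)) γ = micOp ge s v
  nx : ∀ s v γ, N.nx (ι (s, v)) γ = ((micNx m gd s v γ).map ι).getD hq

variable {N : AM Q K Γ} {m : Λ → TM2.Stmt Γ' Λ σ} (E : Emb N m)

def Emb.Rel (S : ∀ k, List (Γ' k)) (S' : K → List Γ) : Prop := ∀ k, S' (E.κ k) = (S k).map (E.ge k)

def Emb.cq (c : TM2.Cfg Γ' Λ σ) : Q := (c.l.map fun l => E.ι (m l, c.var)).getD E.hq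

def Emb.Reach (q : Q) (S' : K → List Γ) (c : TM2.Cfg Γ' Λ σ) (t : ℕ) : Prop :=
  ∃ j ≤ t, ∃ S'', N.step^[j] (q, S') = (E.cq c, S'') ∧ E.Rel c.stk S'' ∧
    ∀ k, k ∉ Set.range E.κ → S'' k = S' k

lemma Emb.Reach.step {q S' c t q1 S1} (h0 : N.step (q, S') = (q1, S1))
    (h1 : ∀ k, k ∉ Set.range E.κ → S1 k = S' k) (h : E.Reach q1 S1 c t) :
    E.Reach q S' c (t + 1) := by
  obtain ⟨j, hj, S'', a, b, c⟩ := h
  exact ⟨j + 1, by omega, S'', by rw [iterate_succ_apply, h0, a], b,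
    fun k hk => (c k hk).trans (h1 k hk)⟩

lemma Emb.Reach.mono {q S' c t t'} (h : E.Reach q S' c t) (ht : t ≤ t') : E.Reach q S' c t' := by
  obtain ⟨j, hj, h⟩ := h
  exact ⟨j, by omega, h⟩

variable [DecidableEq K']

lemma Emb.rel_update {S S'} (h : E.Rel S S') (k : K') (l : List (Γ' k)) :
    E.Rel (update S k l) (update S' (E.κ k) (l.map (E.ge k))) := by
  intro k'
  by_cases hk : k' = k
  · subst hk; simp
  · rw [update_of_ne hk, update_of_ne (E.inj.ne hk), h]

lemma Emb.top_eq {S S'} (h : E.Rel S S') (k : K') :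
    (S' (E.κ k)).head?.bind (E.gd k) = (S k).head? := by
  rw [h k]
  cases S k <;> simp [E.gde]

lemma Emb.sim_aux (s : TM2.Stmt Γ' Λ σ) : ∀ v S S', E.Rel S S' →
    E.Reach (E.ι (s, v)) S' (TM2.stepAux s v S) (dep s) := by
  have fr : ∀ (S' : K → List Γ) k l k', k' ∉ Set.range E.κ → update S' (E.κ k) l k' = S' k' :=
    fun S' k l k' hk => update_of_ne (fun h => hk ⟨k, h.symm⟩) _ _
  induction s with
  | push k f q ih =>
    intro v S S' h
    refine Emb.Reach.step E ?_ (fr S' k _) (ih _ _ _ (E.rel_update h k _))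
    simp [AM.step, E.rd, E.op, E.nx, micNx, micOp, rdS, Op.app, h k]
  | peek k f q ih =>
    intro v S S' h
    refine Emb.Reach.step E ?_ (fun _ _ => rfl) (ih _ _ _ h)
    simp [AM.step, AM.top, E.rd, E.op, E.nx, micNx, micOp, rdS, Op.app, E.top_eq h]
  | pop k f q ih =>
    intro v S S' h
    refine Emb.Reach.step E ?_ (fr S' k _) (ih _ _ _ (E.rel_update h k _))
    simp only [AM.step, AM.top, E.rd, E.op, E.nx, micNx, micOp, rdS, Op.app, E.top_eq h]
    simp [h k]
  | load a q ih =>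
    intro v S S' h
    refine Emb.Reach.step E ?_ (fun _ _ => rfl) (ih _ _ _ h)
    simp [AM.step, E.rd, E.op, E.nx, micNx, micOp, Op.app]
  | branch f q₁ q₂ ih1 ih2 =>
    intro v S S' h
    cases hf : f v
    · refine Emb.Reach.step E ?_ (fun _ _ => rfl) (((ih2 v _ _ h).mono E (Nat.le_add_left _ _)).mono E
        le_rfl |> fun x => by simpa only [TM2.stepAux, hf, cond] using x)
      simp [AM.step, E.rd, E.op, E.nx, micNx, micOp, Op.app, hf]
    · refine Emb.Reach.step E ?_ (fun _ _ => rfl) (((ih1 v _ _ h).mono E (Nat.le_add_right _ _)).mono E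
        le_rfl |> fun x => by simpa only [TM2.stepAux, hf, cond] using x)
      simp [AM.step, E.rd, E.op, E.nx, micNx, micOp, Op.app, hf]
  | goto f =>
    intro v S S' h
    exact ⟨1, le_rfl, S', by
      simp [AM.step, E.rd, E.op, E.nx, micNx, micOp, Op.app, Emb.cq, TM2.stepAux], h, fun _ _ => rfl⟩
  | halt =>
    intro v S S' h
    exact ⟨1, le_rfl, S', by
      simp [AM.step, E.rd, E.op, E.nx, micNx, micOp, Op.app, Emb.cq, TM2.stepAux], h, fun _ _ => rfl⟩

lemma iter_none (n : ℕ) : (flip bind (TM2.step m))^[n] none = none := iterate_fixed rfl n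

lemma Emb.sim_run {D : ℕ} (hD : ∀ l, dep (m l) ≤ D) : ∀ (n : ℕ) (c c' : TM2.Cfg Γ' Λ σ) S',
    (flip bind (TM2.step m))^[n] (some c) = some c' → E.Rel c.stk S' →
    E.Reach (E.cq c) S' c' (n * D)
  | 0, c, c', S', h, h' => by
    obtain rfl : c = c' := by simpa using h
    exact ⟨0, by omega, S', rfl, h', fun _ _ => rfl⟩
  | n + 1, ⟨l, v, S⟩, c', S', h, h' => by
    rw [iterate_succ_apply] at h
    rcases l with _ | l
    · have := iter_none (m := m) n
      exact absurd (this.symm.trans h) (by simp)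
    · obtain ⟨j, hj, S1, a1, a2, a3⟩ := E.sim_aux (m l) v S S' h'
      obtain ⟨j', hj', S2, b1, b2, b3⟩ := Emb.sim_run hD n _ c' S1 h a2
      refine ⟨j' + j, by have := hD l; nlinarith, S2, ?_, b2, fun k hk => (b3 k hk).trans (a3 k hk)⟩
      rw [iterate_add_apply]
      exact (congrArg _ a1).trans b1

end micro

lemma initList_stk (A : FinTM2) (s : List (A.Γ A.k₀)) :
    (initList A s).stk = update (fun _ => []) A.k₀ s := by
  funext k
  by_cases hk : k = A.k₀
  · subst hk; simp [initList]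
  · simp [initList, hk]

lemma haltList_stk (A : FinTM2) (s : List (A.Γ A.k₁)) :
    (haltList A s).stk = update (fun _ => []) A.k₁ s := by
  funext k
  by_cases hk : k = A.k₁
  · subst hk; simp [haltList]
  · simp [haltList, hk]

noncomputable def gdS {K : Type} {Γ : K → Type} (k : K) (x : Σ k, Γ k) : Option (Γ k) :=
  if h : x.1 = k then some (h ▸ x.2) else none

abbrev StR (R : FinTM2) := TM2.Stmt R.Γ R.Λ R.σ × R.σ

variable (R A : FinTM2) (eR : ∀ k, R.Γ k ≃ A.Γ A.k₀) (sy : Bool → R.Γ R.k₀) (y : A.Γ A.k₁)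

noncomputable def comp2 : AM (StR R ⊕ StR A ⊕ Unit) (R.K ⊕ A.K) (Σ k, A.Γ k) where
  rd
    | .inl s => if rdS R.k₀ s.1 = R.k₁ then .inr A.k₀ else .inl (rdS R.k₀ s.1)
    | .inr (.inl s) => .inr (rdS A.k₀ s.1)
    | .inr (.inr _) => .inr A.k₁
  nx
    | .inl s, γ => ((micNx R.m (fun k x => (gdS A.k₀ x).map (eR k).symm) s.1 s.2 γ).map
        Sum.inl).getD (.inr (.inl (A.m A.main, A.initialState)))
    | .inr (.inl s), γ => ((micNx A.m gdS s.1 s.2 γ).map fun s => .inr (.inl s)).getD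
        (.inr (.inr ()))
    | .inr (.inr _), _ => .inr (.inr ())
  op
    | .inl s, _ => micOp (fun k a => ⟨A.k₀, eR k a⟩) s.1 s.2
    | .inr (.inl s), _ => micOp (fun k a => ⟨k, a⟩) s.1 s.2
    | .inr (.inr _), _ => .nop
  acc q γ := q = .inr (.inr ()) ∧ γ = some ⟨A.k₁, y⟩
  q0 := .inl (R.m R.main, R.initialState)
  kin := if R.k₀ = R.k₁ then .inr A.k₀ else .inl R.k₀
  sym b := ⟨A.k₀, eR _ (sy b)⟩

lemma comp2_finite : ∃ (Q' Γ' : Type) (_ : Finite Q') (_ : Finite Γ') (M' : AM Q' (R.K ⊕ A.K) Γ'),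
    ∀ u t, M'.AccAt u t ↔ (comp2 R A eR sy y).AccAt u t := by
  letI := R.ΛFin
  letI := A.ΛFin
  letI := R.σFin
  letI := A.σFin
  have fin : ∀ (B : FinTM2) [Finite B.Λ] [Finite B.σ],
      {s : StR B | ∃ l, s.1 ∈ TM2.stmts₁ (B.m l)}.Finite := by
    intro B _ _
    refine ((Set.finite_iUnion fun l => Finset.finite_toSet (TM2.stmts₁ (B.m l))).prod
      (Set.finite_univ (α := B.σ))).subset fun s hs => ⟨by simpa using hs, trivial⟩
  let Qs : Set (StR R ⊕ StR A ⊕ Unit) :=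
    Sum.inl '' {s : StR R | ∃ l, s.1 ∈ TM2.stmts₁ (R.m l)} ∪
    (fun s => .inr (.inl s)) '' {s : StR A | ∃ l, s.1 ∈ TM2.stmts₁ (A.m l)} ∪ {.inr (.inr ())}
  have m1 : ∀ s : StR R, (∃ l, s.1 ∈ TM2.stmts₁ (R.m l)) → .inl s ∈ Qs := fun s hs =>
    Or.inl (Or.inl ⟨s, hs, rfl⟩)
  have m2 : ∀ s : StR A, (∃ l, s.1 ∈ TM2.stmts₁ (A.m l)) → .inr (.inl s) ∈ Qs := fun s hs =>
    Or.inl (Or.inr ⟨s, hs, rfl⟩)
  refine (comp2 R A eR sy y).exists_finite Qs
    ((((fin R).image _).union ((fin A).image _)).union (Set.finite_singleton _))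
    (m1 _ ⟨_, TM2.stmts₁_self⟩) ?_ (by rintro (s | s | s) γ <;> rfl)
  rintro q ((⟨s, hs, rfl⟩ | ⟨s, hs, rfl⟩) | rfl) γ
  · simp only [comp2]
    rcases h : micNx R.m (fun k x => (gdS A.k₀ x).map (eR k).symm) s.1 s.2 γ with _ | s'
    · exact m2 _ ⟨_, TM2.stmts₁_self⟩
    · exact m1 _ (micNx_mem _ _ hs h)
  · simp only [comp2]
    rcases h : micNx A.m gdS s.1 s.2 γ with _ | s'
    · exact Or.inr rfl
    · exact m2 _ (micNx_mem _ _ hs h)
  · exact Or.inr rfl

noncomputable def emb1 : Emb (comp2 R A eR sy y) R.m where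
  ge := fun k a => ⟨A.k₀, eR k a⟩
  gd := fun k x => (gdS A.k₀ x).map (eR k).symm
  κ := fun k => if k = R.k₁ then .inr A.k₀ else .inl k
  k0 := R.k₀
  ι := Sum.inl
  hq := .inr (.inl (A.m A.main, A.initialState))
  gde := fun k a => by simp [gdS]
  inj := fun a b h => by
    dsimp only at h
    split_ifs at h with h1 h2 h2 <;> simp_all
  rd := fun _ _ => rfl
  op := fun _ _ _ => rfl
  nx := fun _ _ _ => rfl

noncomputable def emb2 : Emb (comp2 R A eR sy y) A.m where
  ge := fun k a => ⟨k, a⟩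
  gd := gdS
  κ := Sum.inr
  k0 := A.k₀
  ι := fun s => .inr (.inl s)
  hq := .inr (.inr ())
  gde := fun k a => by simp [gdS]
  inj := Sum.inr_injective
  rd := fun _ _ => rfl
  op := fun _ _ _ => rfl
  nx := fun _ _ _ => rfl

lemma comp2_run {D : ℕ} (hR : ∀ l, dep (R.m l) ≤ D) (hA : ∀ l, dep (A.m l) ≤ D) (u : List Bool)
    (w : List (R.Γ R.k₁)) (z : A.Γ A.k₁) (t1 t2 : ℕ)
    (h1 : (flip bind R.step)^[t1] (some (initList R (u.map sy))) = some (haltList R w))
    (h2 : (flip bind A.step)^[t2] (some (initList A (w.map (eR _)))) = some (haltList A [z])) :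
    ∃ j ≤ (t1 + t2) * D, ∃ S, (comp2 R A eR sy y).run u j = (.inr (.inr ()), S) ∧
      S (.inr A.k₁) = [⟨A.k₁, z⟩] := by
  obtain ⟨j1, a0, S1, a1, a2, a3⟩ := (emb1 R A eR sy y).sim_run hR
    t1 _ _ ((comp2 R A eR sy y).init u).2 h1 (by
      rw [initList_stk]
      have := (emb1 R A eR sy y).rel_update (S := fun _ => []) (S' := fun _ => []) (fun _ => rfl)
        R.k₀ (u.map sy)
      rw [List.map_map] at this
      exact this)
  obtain ⟨j2, b0, S2, b1, b2, _⟩ := (emb2 R A eR sy y).sim_run hA t2 _ _ S1 h2 (by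
      rw [initList_stk]
      intro k
      by_cases hk : k = A.k₀
      · subst hk
        have := a2 R.k₁
        rw [haltList_stk] at this
        simpa [emb1, emb2, Function.comp_def] using this
      · rw [update_of_ne hk, a3]
        · simp only [AM.init, comp2, emb2]
          exact @update_of_ne _ _ (fun a b => propDecidable (a = b)) _ _
            (by split_ifs <;> simp [hk]) _ _
        · rintro ⟨k', hk'⟩
          simp only [emb1, emb2] at hk'
          split_ifs at hk' <;> simp_all)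
  refine ⟨j2 + j1, by nlinarith, S2, ?_, ?_⟩
  · rw [AM.run, iterate_add_apply]
    exact (congrArg _ a1).trans b1
  · have := b2 A.k₁
    rw [haltList_stk] at this
    simpa [emb2] using this

theorem exists_am : ∃ (Q K Γ : Type) (_ : Finite Q) (_ : Finite K) (_ : Finite Γ) (M : AM Q K Γ)
      (D : ℕ), ∀ (u : List Bool) (w : List (R.Γ R.k₁)) (z : A.Γ A.k₁) (t1 t2 : ℕ),
      (flip bind R.step)^[t1] (some (initList R (u.map sy))) = some (haltList R w) →
      (flip bind A.step)^[t2] (some (initList A (w.map (eR _)))) = some (haltList A [z]) →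
      (z = y → ∃ t ≤ (t1 + t2) * D, M.AccAt u t) ∧ (z ≠ y → ∀ t, ¬ M.AccAt u t) := by
  letI := R.ΛFin
  letI := A.ΛFin
  letI := R.kFin
  letI := A.kFin
  obtain ⟨Q', Γ', f1, f2, M, hM⟩ := comp2_finite R A eR sy y
  let D := Finset.univ.sup (fun l => dep (R.m l)) + Finset.univ.sup (fun l => dep (A.m l))
  refine ⟨Q', _, Γ', f1, inferInstance, f2, M, D, fun u w z t1 t2 h1 h2 => ?_⟩
  simp only [hM]
  obtain ⟨j, hj, S, hfin, hS⟩ := comp2_run R A eR sy y (D := D) (fun l =>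
    (Finset.le_sup (f := fun l => dep (R.m l)) (Finset.mem_univ l)).trans (Nat.le_add_right _ _))
    (fun l =>
    (Finset.le_sup (f := fun l => dep (A.m l)) (Finset.mem_univ l)).trans (Nat.le_add_left _ _))
    u w z t1 t2 h1 h2
  have htop : ∀ c, c = (.inr (.inr ()), S) → (comp2 R A eR sy y).top c = some ⟨A.k₁, z⟩ := by
    rintro _ rfl
    simp [AM.top, comp2, hS]
  refine ⟨fun hz => ⟨j, hj, ?_⟩, fun hz t ht => ?_⟩
  · rw [AM.AccAt, htop _ hfin, hfin, hz]
    exact ⟨rfl, rfl⟩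
  · have hfix : ∀ c : _ × _, c.1 = .inr (.inr ()) → (comp2 R A eR sy y).step c = c := by
      rintro ⟨_, S⟩ rfl
      simp [AM.step, comp2, Op.app]
    have h3 : (comp2 R A eR sy y).run u t = (.inr (.inr ()), S) := by
      rcases le_total t j with h | h
      · obtain ⟨d, hd⟩ := Nat.exists_eq_add_of_le' h
        rw [← hfin, hd, AM.run, AM.run, iterate_add_apply]
        exact (iterate_fixed (hfix _ ht.1) d).symm
      · obtain ⟨d, rfl⟩ := Nat.exists_eq_add_of_le' h
        rw [AM.run, iterate_add_apply]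
        exact (congrArg _ hfin).trans (iterate_fixed (hfix _ rfl) d)
    have := ht.2
    rw [htop _ h3] at this
    simp only [Option.some.injEq, Sigma.mk.injEq, heq_eq_eq, true_and] at this
    exact hz this

end Vale.Agent.P310
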