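import Vale.Agent.P310.Link
import Vale.Agent.P310.Code
import Vale.Agent.P310.Strategy
import Vale.Agent.P310.Tm

/-! The diagonal argument. -/

namespace Vale.Agent.P310

open Function Finset Classical Turing

lemma exists_word (W : ℕ) (F : ℕ → ℕ) :
    ∃ u : List Bool, u.length = W * W ∧ ∀ m < W, tab u m = min (F m) W := by
  refine ⟨List.ofFn fun n : Fin (W * W) => decide (n.1 % W < F (n.1 / W)), by simp, fun m hm => ?_⟩
  have hW : Wd (List.ofFn fun n : Fin (W * W) => decide (n.1 % W < F (n.1 / W))) = W := by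
    simp [Wd]
  rw [tab, hW, ← sum_lt_ind W (min (F m) W) (fun y => y < min (F m) W) (min_le_right _ _)
    fun _ => Iff.rfl]
  refine sum_congr rfl fun y hy => ?_
  rw [mem_range] at hy
  have h1 : m * W + y < W * W := by nlinarith
  have h2 : (m * W + y) / W = m := by
    rw [mul_comm, Nat.mul_add_div (by omega), Nat.div_eq_of_lt hy, add_zero]
  simp [bitN, List.getElem?_ofFn, h1, h2, Nat.mod_eq_of_lt hy, hy]

lemma exists_T4 (B : ℕ) (F : ℕ → ℕ → ℕ → ℕ → ℕ) : ∃ u : List Bool, u.length = B ^ 8 * B ^ 8 ∧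
    ∀ a b c d, a < B → b < B → c < B → d < B → F a b c d ≤ B ^ 8 → T4 u a b c d = F a b c d := by
  obtain ⟨u, h1, h2⟩ := exists_word (B ^ 8) fun m =>
    F m.unpair.1 m.unpair.2.unpair.1 m.unpair.2.unpair.2.unpair.1 m.unpair.2.unpair.2.unpair.2
  refine ⟨u, h1, fun a b c d ha hb hc hd hF => ?_⟩
  have key : ∀ x y C, x < C → y < C → Nat.pair x y < C ^ 2 := fun x y C hx hy =>
    (Nat.pair_lt_max_add_one_sq x y).trans_le (Nat.pow_le_pow_left (by omega) 2)
  have h3 := key c d B hc hd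
  have h4 := key b _ _ (hb.trans_le (Nat.le_self_pow (by omega) B)) h3
  rw [← pow_mul] at h4
  have h5 := key a _ _ (ha.trans_le (Nat.le_self_pow (by omega) B)) h4
  rw [← pow_mul] at h5
  rw [T4, h2 _ h5]
  simpa using hF

lemma padN_eq (u : List Bool) (x : ℕ) : ∀ E j, (∀ i < j + E, T4 u 6 i 0 0 = x / Wd u ^ i % Wd u) →
    padN u E j = x / Wd u ^ j % Wd u ^ E
  | 0, j, _ => by simp [padN, Nat.mod_one]
  | E + 1, j, h => by
    rw [padN, padN_eq u x E (j + 1) (fun i hi => h i (by omega)), h j (by omega), pow_succ' _ E,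
      Nat.mod_mul, Nat.div_div_eq_div_mul, pow_succ]

lemma exists_codes {S0 R0 G : Type} [AddCommGroup G] {p k r m q nb nr L B : ℕ} [hp : Fact p.Prime]
    (𝒯 : Tab S0 R0 G q) (D : Setup (ZMod p) G k r m) (cS : S0 → ℕ) (eR : R0 ≃ Fin nr)
    (hS : ∀ s, cS s < nb) (hB : nr + nb + L + k + p + q + 12 ≤ B) (x : ℕ) (hx : x < (B ^ 8) ^ 12) :
    ∃ u : List Bool, u.length = B ^ 8 * B ^ 8 ∧ Codes u 𝒯 D L nb cS eR ∧ padN u 12 0 = x := by
  let F : ℕ → ℕ → ℕ → ℕ → ℕ := fun a b c d => match a with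
    | 0 => match b with
      | 0 => p
      | 1 => k
      | 2 => L
      | 3 => nr
      | 4 => nb
      | 5 => q
      | 6 => cS 𝒯.acc
      | _ => cS (𝒯.emit (if c = 0 then some false else if c = 1 then some true else none))
    | 1 => if h : b < nr ∧ c < 5 then
        sc nb cS ((𝒯.horn []).psym (.inl (eR.symm ⟨b, h.1⟩)) ⟨c, h.2⟩) else 0
    | 2 => if h : b < nr ∧ c < 5 ∧ d < k then
        (D.enc ((𝒯.horn []).psh (.inl (eR.symm ⟨b, h.1⟩)) ⟨c, h.2.1⟩) ⟨d, h.2.2⟩).val else 0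
    | 3 => if h : b < q + 1 then cS (𝒯.tin ⟨b, h⟩) else 0
    | 4 => if h : b < q + 1 ∧ c < k then (D.enc (𝒯.tsh ⟨b, h.1⟩) ⟨c, h.2⟩).val else 0
    | 5 => if h : c < k then (D.chk b ⟨c, h⟩ d).val else 0
    | _ => x / (B ^ 8) ^ b % B ^ 8
  obtain ⟨u, h1, h2⟩ := exists_T4 B F
  have hp0 := hp.out.pos
  have hBB : B ≤ B ^ 8 := Nat.le_self_pow (by omega) B
  have h3 : ∀ a b c d v, a < B → b < B → c < B → d < B → F a b c d = v → v ≤ B →
      T4 u a b c d = v := fun a b c d v ha hb hc hd e hv => by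
    rw [h2 a b c d ha hb hc hd (by omega), e]
  have hS' : ∀ s, cS s ≤ B := fun s => by have := hS s; omega
  have hv : ∀ z : ZMod p, z.val ≤ B := fun z => by have := ZMod.val_lt z; omega
  refine ⟨u, h1, ⟨?_, ?_, ?_, ?_, ?_, ?_, ?_, ?_, ?_, ?_, fun ρ τ => ?_, fun ρ τ i => ?_,
    fun ℓ => ?_, fun ℓ i => ?_, fun π hπ i h => ?_⟩, ?_⟩
  iterate 6 exact h3 _ _ _ _ _ (by omega) (by omega) (by omega) (by omega) rfl (by omega)
  iterate 4 exact h3 _ _ _ _ _ (by omega) (by omega) (by omega) (by omega) rfl (hS' _)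
  · refine h3 _ _ _ _ _ (by omega) (by omega) (by omega) (by omega) (by simp [F]) ?_
    have : ∀ o, sc nb cS (up o) ≤ B := by
      rintro (_ | s)
      · simp [sc, up]; omega
      · exact hS' s
    fin_cases τ
    iterate 4 exact this _
    exact hS' _
  · exact h3 _ _ _ _ _ (by omega) (by omega) (by omega) (by omega) (by simp [F]) (hv _)
  · exact h3 _ _ _ _ _ (by omega) (by omega) (by omega) (by omega)
      (by simp only [F]; rw [dif_pos ℓ.2]) (hS' _)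
  · exact h3 _ _ _ _ _ (by omega) (by omega) (by omega) (by omega)
      (by simp only [F]; rw [dif_pos ⟨ℓ.2, i.2⟩]) (hv _)
  · have := ZMod.val_lt h
    exact h3 _ _ _ _ _ (by omega) (by omega) (by omega) (by omega) (by simp [F]) (hv _)
  · have hW : Wd u = B ^ 8 := by rw [Wd, h1, Nat.sqrt_eq]
    rw [padN_eq u x 12 0 fun i hi => by
      rw [hW]
      exact h2 _ _ _ _ (by omega) (by omega) (by omega) (by omega)
        (Nat.mod_lt _ (by omega)).le, hW]
    simpa using Nat.mod_eq_of_lt hx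

def Setup.transport {F G G' : Type} [Field F] [AddCommGroup G] [AddCommGroup G'] {k r m : ℕ}
    (D : Setup F G k r m) (Φ : G' ≃+ G) : Setup F G' k r m where
  enc := D.enc.comp Φ.toAddMonoidHom
  Fn := D.Fn
  chk := D.chk
  agree w hw := D.agree (Φ w) (by simpa using hw)
  shift := D.shift
  const := D.const
  bump := D.bump
  chk_mem := D.chk_mem
  chk_sum π w := D.chk_sum π (Φ w)
  span g Pos d hd hP hw := D.span g Pos d hd hP fun w h => by
    simpa using hw (Φ.symm w) (by simpa using h)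

lemma exists_setup_tor (p q k : ℕ) [hp : Fact p.Prime] (hq : 0 < q) (hk : 24 * q ≤ k)
    (hkp : k ≤ p) : ∃ m, 0 < m ∧ m ≤ k * p + 1 ∧ Nonempty (Setup (ZMod p) (Tor p q) k (q + q) m) := by
  have hα : Injective fun i : Fin k => (i.1 : ZMod p) := fun i j h => Fin.ext (by
    have := (ZMod.natCast_eq_natCast_iff' _ _ _).1 h
    rwa [Nat.mod_eq_of_lt (by omega), Nat.mod_eq_of_lt (by omega)] at this)
  obtain ⟨m, h1, h2, ⟨D⟩⟩ := exists_setup (r := q + q) hα (by omega) (by omega)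
  refine ⟨m, h1, by simpa using h2, ⟨D.transport ?_⟩⟩
  exact (((Polynomial.degreeLTEquiv (ZMod p) (q + q)).trans
    (LinearEquiv.funCongrLeft (ZMod p) (ZMod p) finSumFinEquiv)).trans
    (LinearEquiv.sumArrowLequivProdArrow _ _ (ZMod p) (ZMod p))).symm.toAddEquiv

lemma poly_le_pow (P : Polynomial ℕ) : ∃ a, ∀ x, 2 ≤ x → P.eval x ≤ x ^ a := by
  induction P using Polynomial.induction_on' with
  | add P Q hP hQ =>
    obtain ⟨a, ha⟩ := hP
    obtain ⟨b, hb⟩ := hQ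
    refine ⟨a + b + 1, fun x hx => ?_⟩
    have h1 := (ha x hx).trans (Nat.pow_le_pow_right (by omega) (Nat.le_add_right a b))
    have h2 := (hb x hx).trans (Nat.pow_le_pow_right (by omega) (Nat.le_add_left b a))
    rw [Polynomial.eval_add, pow_succ]
    nlinarith
  | monomial n c =>
    refine ⟨c + n, fun x hx => ?_⟩
    rw [Polynomial.eval_monomial, pow_add]
    exact Nat.mul_le_mul_right _ ((Nat.lt_two_pow_self).le.trans (Nat.pow_le_pow_left hx c))

lemma size_bound {a b q k m p nb nr : ℕ} (hp : 0 < p)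
    (hp0 : a + b * q + 4 * q * q + 14 * q + (k + 3) * (k + 1) + k + 20 ≤ p) (hm : m ≤ k * p + 1)
    (hnb : nb = a + (2 * (q * p) + (2 * (q + 1) + 2 * q)))
    (hnr : nr = b * q + (2 * q + (2 * (q * (p * (2 * q))) + (2 * (q * p) + (2 * q +
      (2 * (q * p) + 1)))))) : nr + nb + (k + 3) * m + k + p + q + 12 ≤ p ^ 2 := by
  have h1 : (k + 3) * m ≤ (k + 3) * (k + 1) * p := by
    rw [mul_assoc]
    exact Nat.mul_le_mul_left _ (by nlinarith)
  have h2 := Nat.mul_le_mul_right p hp0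
  have h3 : ∀ a, a ≤ a * p := fun a => Nat.le_mul_of_pos_right a hp
  have := h3 a
  have := h3 (b * q)
  have := h3 q
  have := h3 k
  nlinarith

lemma need_bound {nr q L k p M : ℕ} (h2p : 2 ≤ p) (hB : nr + L + k + q + 5 ≤ p ^ 2)
    (hM : M = (nr + (p ^ 32 + 1) * (q + 1)) * 5 * (L + 1) * k * p) :
    M * p ^ 5 + (2 * M + 1) * (M * p ^ 5) ≤ p ^ 93 := by
  have h4 : 4 ≤ p ^ 2 := by omega
  have h32 : 1 ≤ p ^ 32 := Nat.one_le_pow _ _ (by omega)
  have a1 : nr + (p ^ 32 + 1) * (q + 1) ≤ p ^ 36 := by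
    calc nr + (p ^ 32 + 1) * (q + 1) ≤ p ^ 32 * p ^ 2 + (2 * p ^ 32) * p ^ 2 :=
          add_le_add ((by omega : nr ≤ 1 * p ^ 2).trans (Nat.mul_le_mul_right _ h32))
            (Nat.mul_le_mul (by omega) (by omega))
      _ = p ^ 32 * p ^ 2 * 3 := by ring
      _ ≤ p ^ 32 * p ^ 2 * p ^ 2 := Nat.mul_le_mul_left _ (by omega)
      _ = p ^ 36 := by ring
  have a2 : M ≤ p ^ 43 := by
    calc M ≤ p ^ 36 * p ^ 2 * p ^ 2 * p ^ 2 * p := by
          rw [hM]
          exact Nat.mul_le_mul_right _ (Nat.mul_le_mul (Nat.mul_le_mul (Nat.mul_le_mul a1 (by omega))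
            (by omega)) (by omega))
      _ = p ^ 43 := by ring
  have h43 : 1 ≤ p ^ 43 := Nat.one_le_pow _ _ (by omega)
  calc M * p ^ 5 + (2 * M + 1) * (M * p ^ 5) = (2 * M + 2) * M * p ^ 5 := by ring
    _ ≤ (4 * p ^ 43) * p ^ 43 * p ^ 5 := Nat.mul_le_mul_right _ (Nat.mul_le_mul (by omega) a2)
    _ ≤ (p ^ 2 * p ^ 43) * p ^ 43 * p ^ 5 :=
        Nat.mul_le_mul_right _ (Nat.mul_le_mul_right _ (Nat.mul_le_mul_right _ h4))
    _ = p ^ 93 := by ring

lemma sc_inj {S : Type} {nb : ℕ} {cS : S → ℕ} (h1 : Injective cS) (h2 : ∀ s, cS s < nb) :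
    Injective (sc nb cS) := by
  rintro (a | a) (b | b) h <;> simp only [sc, Sum.elim_inl, Sum.elim_inr] at h
  · rw [h1 h]
  · have := h2 a; omega
  · have := h2 b; omega
  · rw [Nat.add_left_cancel h]

lemma reduction_tab {S0 R0 G : Type} [AddCommGroup G] {p k r m q nb nr n : ℕ} [hp : Fact p.Prime]
    (𝒯 : Tab S0 R0 G q) (D : Setup (ZMod p) G k r m) (eS : S0 ≃ Fin nb) (eR : R0 ≃ Fin nr)
    (hm : 0 < m) (hk : r + 3 ≤ k) (hB : nr + nb + (k + 3) * m + k + p + q + 12 ≤ p ^ 2)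
    (hn1 : p ^ 93 ≤ n) (hn2 : n < p ^ 186) :
    ∃ (u : List Bool) (G H : SimpleGraph (Fin n)), u.length = p ^ 32 ∧
      encodePair ⟨n, G, H⟩ = outN 12 u ∧
      (WLEquiv (k + 1) G H → ∃ 𝒦, (𝒯.horn u).Model 𝒦) ∧
      ((∃ 𝒦, (𝒯.horn u).Model 𝒦 ∧ ∀ w, 𝒦 (𝒯.horn u).start w → w = 0) → WLEquiv (k + 1) G H) := by
  have hinj : Injective (sc nb fun s => eS s) :=
    sc_inj (Fin.val_injective.comp eS.injective) fun s => (eS s).2
  obtain ⟨M, hM⟩ : ∃ M, M = (nr + (p ^ 32 + 1) * (q + 1)) * 5 * ((k + 3) * m + 1) * k * p :=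
    ⟨_, rfl⟩
  have hN := need_bound hp.out.two_le (by omega) hM
  have hx : n - (M * p ^ 5 + (2 * M + 1) * (M * p ^ 5)) < ((p ^ 2) ^ 8) ^ 12 := by
    rw [← pow_mul, ← pow_mul]
    exact (Nat.sub_le _ _).trans_lt (hn2.trans_le (Nat.pow_le_pow_right hp.out.pos (by decide)))
  obtain ⟨u, hu1, hc, hpad⟩ := exists_codes 𝒯 D (fun s => eS s) eR (fun s => (eS s).2) hB _ hx
  have hu : u.length = p ^ 32 := by rw [hu1, ← pow_mul, ← pow_add]
  have hnM : nM u = M := by rw [nM, nR, hc.hR, hc.hq, hc.hL, hc.hk, hc.hp, hu, hM]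
  have hnV : nV 12 u = n := by
    rw [nV, n0, hnM, hc.hp, pw_five, hpad, ← add_assoc]
    exact Nat.add_sub_cancel' (hN.trans hn1)
  have hk0 : 0 < k := by omega
  have hM0 : 0 < nM u := by
    rw [hnM, hM]
    exact Nat.mul_pos (Nat.mul_pos (Nat.mul_pos (Nat.mul_pos (Nat.add_pos_right _
      (Nat.mul_pos (Nat.succ_pos _) (Nat.succ_pos _))) (by decide)) (Nat.succ_pos _)) hk0)
      hp.out.pos
  clear hx hpad hn1 hn2
  subst hnV
  obtain ⟨G, H, h1, h2⟩ := graph_link 12 u p hc.hp hM0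
  obtain ⟨h3, h4⟩ := h2 (k + 1) (by omega)
  exact ⟨u, G, H, hu, h1, fun h => model_of_cons D _ hk0 ((hc.cons_iff hinj hk0 _).1 (h3 h)),
    fun ⟨𝒦, h5, h6⟩ => h4 ((hc.cons_iff hinj hk0 _).2 (cons_of_model h5 h6 hm hk le_rfl))⟩

/-- The reduction: a box system and a size give a word whose graph pair encodes solvability. -/
lemma reduction {Sb Rb : Type} [Finite Sb] [Finite Rb] (B : Box Sb Rb) (k q : ℕ) (hq : 0 < q)
    (hk : 24 * q ≤ k) : ∃ p0, ∀ p n : ℕ, p.Prime → p0 ≤ p → p ^ 93 ≤ n → n < p ^ 186 →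
      ∃ (u : List Bool) (G H : SimpleGraph (Fin n)), u.length = p ^ 32 ∧
        encodePair ⟨n, G, H⟩ = outN 12 u ∧
        (WLEquiv (k + 1) G H ↔ ∃ K, B.Model u (p ^ q) K) := by
  letI := Fintype.ofFinite Sb
  letI := Fintype.ofFinite Rb
  refine ⟨Fintype.card Sb + Fintype.card Rb * q + 4 * q * q + 14 * q + (k + 3) * (k + 1) + k + 20,
    fun p n hp hp0 hn1 hn2 => ?_⟩
  haveI : Fact p.Prime := ⟨hp⟩
  obtain ⟨m, hm1, hm2, ⟨D⟩⟩ := exists_setup_tor p q k hq hk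
    (le_trans (Nat.le_add_left _ _) (le_trans (Nat.le_add_right _ _) hp0))
  obtain ⟨u, G, H, h1, h2, h3, h4⟩ := reduction_tab (B.tab p q) D (Fintype.equivFin _)
    (Fintype.equivFin _) hm1 (by omega) (size_bound hp.pos hp0 hm2 (by simp) (by simp)) hn1 hn2
  refine ⟨u, G, H, h1, h2, fun h => ?_, fun ⟨K, hK⟩ => h4 (tab_model_of_box B u hK)⟩
  obtain ⟨𝒦, h5⟩ := h3 h
  exact box_model_of_tab B u hq h5

end Vale.Agent.P310
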