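import Vale.Agent.P310.Cmp

/-! The reduction as arithmetic on a table read from the input word. -/

namespace Vale.Agent.P310

open Function Finset Classical

noncomputable section

def Wd (u : List Bool) : ℕ := Nat.sqrt u.length

def bitN (u : List Bool) (x : ℕ) : ℕ := if u[x]? = some true then 1 else 0

def tab (u : List Bool) (m : ℕ) : ℕ := ∑ y ∈ range (Wd u), bitN u (m * Wd u + y)

def T4 (u : List Bool) (a b c d : ℕ) : ℕ := tab u (Nat.pair a (Nat.pair b (Nat.pair c d)))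

def pP (u : List Bool) : ℕ := T4 u 0 0 0 0
def pK (u : List Bool) : ℕ := T4 u 0 1 0 0
def pL (u : List Bool) : ℕ := T4 u 0 2 0 0
def pR (u : List Bool) : ℕ := T4 u 0 3 0 0
def pB (u : List Bool) : ℕ := T4 u 0 4 0 0
def pQ (u : List Bool) : ℕ := T4 u 0 5 0 0
def pA (u : List Bool) : ℕ := T4 u 0 6 0 0

def nR (u : List Bool) : ℕ := pR u + (u.length + 1) * (pQ u + 1)
def xx (u : List Bool) (ρ : ℕ) : ℕ := (ρ - pR u) / (pQ u + 1)
def ll (u : List Bool) (ρ : ℕ) : ℕ := (ρ - pR u) % (pQ u + 1)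

def psymN (u : List Bool) (ρ τ : ℕ) : ℕ :=
  if ρ < pR u then T4 u 1 ρ τ 0 else if τ < 2 then pB u + xx u ρ else
  if τ < 4 then T4 u 3 (ll u ρ) 0 0 else if ll u ρ < pQ u then pB u + (xx u ρ + 1) else
  T4 u 0 7 (if xx u ρ < u.length then bitN u (xx u ρ) else 2) 0

def pshN (u : List Bool) (ρ τ i : ℕ) : ℕ :=
  if ρ < pR u then T4 u 2 ρ τ i else if τ < 4 then T4 u 4 (ll u ρ) i 0 else 0

def yvN (u : List Bool) (ρ τ π i h : ℕ) : ℕ :=
  if π = 0 then Nat.pair 0 (Nat.pair (psymN u ρ τ) (Nat.pair i ((h + pP u - pshN u ρ τ i) % pP u)))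
  else Nat.pair 1 (Nat.pair ρ (Nat.pair τ (Nat.pair π (Nat.pair i h))))

def varC (u : List Bool) (ρ τ π i h s : ℕ) : ℕ :=
  if π < pL u then (if s = 0 then yvN u ρ τ π i h else if s = 2 then yvN u ρ τ (π + 1) i h
    else Nat.pair 2 (Nat.pair ρ (Nat.pair τ π)))
  else if τ = 0 then yvN u ρ s (pL u) i h else Nat.pair 0 (Nat.pair (pB u) (Nat.pair i 0))

def coefC (u : List Bool) (ρ τ π i h s : ℕ) : ℕ :=
  if π < pL u then (if s = 0 then 1 else if s = 1 then T4 u 5 π i h else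
    if s = 2 then pP u - 1 else 0)
  else if τ = 0 then (if s = 4 then (if psymN u ρ 4 = pA u then 0 else 1) else
    if s % 2 = 0 then 1 else pP u - 1)
  else if s = 0 then 1 else 0

def rhsC (u : List Bool) (ρ τ π i : ℕ) : ℕ :=
  if π < pL u then 0 else if τ = 0 ∧ i = 0 ∧ psymN u ρ 4 = pA u then 1 else 0

def cH (u : List Bool) (m : ℕ) : ℕ := m % pP u
def cI (u : List Bool) (m : ℕ) : ℕ := m / pP u % pK u
def cP (u : List Bool) (m : ℕ) : ℕ := m / pP u / pK u % (pL u + 1)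
def cT (u : List Bool) (m : ℕ) : ℕ := m / pP u / pK u / (pL u + 1) % 5
def cR (u : List Bool) (m : ℕ) : ℕ := m / pP u / pK u / (pL u + 1) / 5

def varN (u : List Bool) (m s : ℕ) : ℕ := varC u (cR u m) (cT u m) (cP u m) (cI u m) (cH u m) s
def coefN (u : List Bool) (m s : ℕ) : ℕ := coefC u (cR u m) (cT u m) (cP u m) (cI u m) (cH u m) s
def rhsN (u : List Bool) (m : ℕ) : ℕ := rhsC u (cR u m) (cT u m) (cP u m) (cI u m)

def nM (u : List Bool) : ℕ := nR u * 5 * (pL u + 1) * pK u * pP u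

def pw (p s : ℕ) : ℕ :=
  if s = 0 then 1 else if s = 1 then p else if s = 2 then p * p else if s = 3 then p * p * p
  else if s = 4 then p * p * p * p else p * p * p * p * p

def n0 (u : List Bool) : ℕ := nM u * pw (pP u) 5
def bl (u : List Bool) (v : ℕ) : ℕ := v / pw (pP u) 5
def aN (u : List Bool) (v s : ℕ) : ℕ := v % pw (pP u) 5 / pw (pP u) s % pP u

def padN (u : List Bool) : ℕ → ℕ → ℕ
  | 0, _ => 0
  | E + 1, j => T4 u 6 j 0 0 + Wd u * padN u E (j + 1)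

def nV (E : ℕ) (u : List Bool) : ℕ := n0 u + ((2 * nM u + 1) * n0 u + padN u E 0)

def disN (u : List Bool) (v w : ℕ) : Prop :=
  ∃ s < 5, ∃ s' < 5, varN u (bl u v) s = varN u (bl u w) s' ∧ aN u v s ≠ aN u w s'

def okN (b : Bool) (u : List Bool) (v : ℕ) : Prop :=
  (∑ s ∈ range 5, coefN u (bl u v) s * aN u v s) % pP u =
    (if b then rhsN u (bl u v) else 0) % pP u ∧ ¬ disN u v v

def colN (b : Bool) (u : List Bool) (v : ℕ) : ℕ := 2 * bl u v + if okN b u v then 1 else 0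

def adjN (b : Bool) (u : List Bool) (v w : ℕ) : Prop :=
  if v < n0 u then (if w < n0 u then v ≠ w ∧ disN u v w else w - n0 u < (colN b u v + 2) * n0 u)
  else w < n0 u ∧ v - n0 u < (colN b u w + 2) * n0 u

def matN (E : ℕ) (b : Bool) (u : List Bool) : List Bool :=
  (List.range (nV E u)).flatMap fun v => (List.range (nV E u)).flatMap fun w => [decide (adjN b u v w)]

def outN (E : ℕ) (u : List Bool) : List Bool := matN E false u ++ matN E true u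

end

variable {X : Ctx} {f g h f1 f2 f3 : X.α → ℕ}

lemma Wd_c : Cmp X fun a => Wd (X.U a) := Cmp.len.sqrt

lemma bitN_c (hf : Cmp X f) : Cmp X fun a => bitN (X.U a) (f a) :=
  Cmp.ite (CmpP.bit hf) (Cmp.const 1) (Cmp.const 0)

lemma tab_c (hf : Cmp X f) : Cmp X fun a => tab (X.U a) (f a) :=
  Cmp.sum (g := fun a y => bitN (X.U a) (f a * Wd (X.U a) + y)) Wd_c
    (bitN_c (X := X.ext) ((hf.weak.mul Wd_c).add Cmp.snd))

lemma T4_c (hf : Cmp X f) (hg : Cmp X g) (hh : Cmp X h) (h1 : Cmp X f1) :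
    Cmp X fun a => T4 (X.U a) (f a) (g a) (h a) (f1 a) := tab_c (hf.pair (hg.pair (hh.pair h1)))

lemma par_c (n : ℕ) : Cmp X fun a => T4 (X.U a) 0 n 0 0 :=
  T4_c (Cmp.const 0) (Cmp.const n) (Cmp.const 0) (Cmp.const 0)

lemma pP_c : Cmp X fun a => pP (X.U a) := par_c 0
lemma pK_c : Cmp X fun a => pK (X.U a) := par_c 1
lemma pL_c : Cmp X fun a => pL (X.U a) := par_c 2
lemma pR_c : Cmp X fun a => pR (X.U a) := par_c 3
lemma pB_c : Cmp X fun a => pB (X.U a) := par_c 4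
lemma pQ_c : Cmp X fun a => pQ (X.U a) := par_c 5
lemma pA_c : Cmp X fun a => pA (X.U a) := par_c 6

lemma nR_c : Cmp X fun a => nR (X.U a) :=
  pR_c.add ((Cmp.len.add (Cmp.const 1)).mul (pQ_c.add (Cmp.const 1)))

lemma xx_c (hf : Cmp X f) : Cmp X fun a => xx (X.U a) (f a) :=
  (hf.sub pR_c).div (pQ_c.add (Cmp.const 1))

lemma ll_c (hf : Cmp X f) : Cmp X fun a => ll (X.U a) (f a) :=
  (hf.sub pR_c).mod (pQ_c.add (Cmp.const 1))

lemma psymN_c (hf : Cmp X f) (hg : Cmp X g) : Cmp X fun a => psymN (X.U a) (f a) (g a) :=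
  Cmp.ite (CmpP.lt hf pR_c) (T4_c (Cmp.const _) hf hg (Cmp.const _))
    (Cmp.ite (CmpP.lt hg (Cmp.const _)) (pB_c.add (xx_c hf))
    (Cmp.ite (CmpP.lt hg (Cmp.const _)) (T4_c (Cmp.const _) (ll_c hf) (Cmp.const _) (Cmp.const _))
    (Cmp.ite (CmpP.lt (ll_c hf) pQ_c) (pB_c.add ((xx_c hf).add (Cmp.const _)))
    (T4_c (Cmp.const _) (Cmp.const _)
      (Cmp.ite (CmpP.lt (xx_c hf) Cmp.len) (bitN_c (xx_c hf)) (Cmp.const _)) (Cmp.const _)))))

lemma pshN_c (hf : Cmp X f) (hg : Cmp X g) (hh : Cmp X h) :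
    Cmp X fun a => pshN (X.U a) (f a) (g a) (h a) :=
  Cmp.ite (CmpP.lt hf pR_c) (T4_c (Cmp.const _) hf hg hh)
    (Cmp.ite (CmpP.lt hg (Cmp.const _)) (T4_c (Cmp.const _) (ll_c hf) hh (Cmp.const _))
      (Cmp.const _))

lemma yvN_c (hf : Cmp X f) (hg : Cmp X g) (hh : Cmp X h) (h1 : Cmp X f1) (h2 : Cmp X f2) :
    Cmp X fun a => yvN (X.U a) (f a) (g a) (h a) (f1 a) (f2 a) :=
  Cmp.ite (CmpP.eq hh (Cmp.const _))
    ((Cmp.const _).pair ((psymN_c hf hg).pair (h1.pair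
      (((h2.add pP_c).sub (pshN_c hf hg h1)).mod pP_c))))
    ((Cmp.const _).pair (hf.pair (hg.pair (hh.pair (h1.pair h2)))))

lemma varC_c (hf : Cmp X f) (hg : Cmp X g) (hh : Cmp X h) (h1 : Cmp X f1) (h2 : Cmp X f2)
    (h3 : Cmp X f3) : Cmp X fun a => varC (X.U a) (f a) (g a) (h a) (f1 a) (f2 a) (f3 a) :=
  Cmp.ite (CmpP.lt hh pL_c) (Cmp.ite (CmpP.eq h3 (Cmp.const _)) (yvN_c hf hg hh h1 h2)
    (Cmp.ite (CmpP.eq h3 (Cmp.const _)) (yvN_c hf hg (hh.add (Cmp.const _)) h1 h2)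
      ((Cmp.const _).pair (hf.pair (hg.pair hh)))))
    (Cmp.ite (CmpP.eq hg (Cmp.const _)) (yvN_c hf h3 pL_c h1 h2)
      ((Cmp.const _).pair (pB_c.pair (h1.pair (Cmp.const _)))))

lemma coefC_c (hf : Cmp X f) (hg : Cmp X g) (hh : Cmp X h) (h1 : Cmp X f1) (h2 : Cmp X f2)
    (h3 : Cmp X f3) : Cmp X fun a => coefC (X.U a) (f a) (g a) (h a) (f1 a) (f2 a) (f3 a) :=
  Cmp.ite (CmpP.lt hh pL_c) (Cmp.ite (CmpP.eq h3 (Cmp.const _)) (Cmp.const _)
    (Cmp.ite (CmpP.eq h3 (Cmp.const _)) (T4_c (Cmp.const _) hh h1 h2)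
      (Cmp.ite (CmpP.eq h3 (Cmp.const _)) (pP_c.sub (Cmp.const _)) (Cmp.const _))))
    (Cmp.ite (CmpP.eq hg (Cmp.const _))
      (Cmp.ite (CmpP.eq h3 (Cmp.const _))
        (Cmp.ite (CmpP.eq (psymN_c hf (Cmp.const _)) pA_c) (Cmp.const _) (Cmp.const _))
        (Cmp.ite (CmpP.eq (h3.mod (Cmp.const _)) (Cmp.const _)) (Cmp.const _)
          (pP_c.sub (Cmp.const _))))
      (Cmp.ite (CmpP.eq h3 (Cmp.const _)) (Cmp.const _) (Cmp.const _)))

lemma rhsC_c (hf : Cmp X f) (hg : Cmp X g) (hh : Cmp X h) (h1 : Cmp X f1) :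
    Cmp X fun a => rhsC (X.U a) (f a) (g a) (h a) (f1 a) :=
  Cmp.ite (CmpP.lt hh pL_c) (Cmp.const _) (Cmp.ite ((CmpP.eq hg (Cmp.const _)).and
    ((CmpP.eq h1 (Cmp.const _)).and (CmpP.eq (psymN_c hf (Cmp.const _)) pA_c)))
    (Cmp.const _) (Cmp.const _))

lemma cH_c (hf : Cmp X f) : Cmp X fun a => cH (X.U a) (f a) := hf.mod pP_c
lemma cI_c (hf : Cmp X f) : Cmp X fun a => cI (X.U a) (f a) := (hf.div pP_c).mod pK_c
lemma cP_c (hf : Cmp X f) : Cmp X fun a => cP (X.U a) (f a) :=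
  ((hf.div pP_c).div pK_c).mod (pL_c.add (Cmp.const _))
lemma cT_c (hf : Cmp X f) : Cmp X fun a => cT (X.U a) (f a) :=
  (((hf.div pP_c).div pK_c).div (pL_c.add (Cmp.const _))).mod (Cmp.const _)
lemma cR_c (hf : Cmp X f) : Cmp X fun a => cR (X.U a) (f a) :=
  (((hf.div pP_c).div pK_c).div (pL_c.add (Cmp.const _))).div (Cmp.const _)

lemma varN_c (hf : Cmp X f) (hg : Cmp X g) : Cmp X fun a => varN (X.U a) (f a) (g a) :=
  varC_c (cR_c hf) (cT_c hf) (cP_c hf) (cI_c hf) (cH_c hf) hg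
lemma coefN_c (hf : Cmp X f) (hg : Cmp X g) : Cmp X fun a => coefN (X.U a) (f a) (g a) :=
  coefC_c (cR_c hf) (cT_c hf) (cP_c hf) (cI_c hf) (cH_c hf) hg
lemma rhsN_c (hf : Cmp X f) : Cmp X fun a => rhsN (X.U a) (f a) :=
  rhsC_c (cR_c hf) (cT_c hf) (cP_c hf) (cI_c hf)

lemma nM_c : Cmp X fun a => nM (X.U a) :=
  (((nR_c.mul (Cmp.const _)).mul (pL_c.add (Cmp.const _))).mul pK_c).mul pP_c

lemma pw_c (hf : Cmp X f) (hg : Cmp X g) : Cmp X fun a => pw (f a) (g a) :=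
  Cmp.ite (CmpP.eq hg (Cmp.const _)) (Cmp.const _) (Cmp.ite (CmpP.eq hg (Cmp.const _)) hf
    (Cmp.ite (CmpP.eq hg (Cmp.const _)) (hf.mul hf) (Cmp.ite (CmpP.eq hg (Cmp.const _))
    ((hf.mul hf).mul hf) (Cmp.ite (CmpP.eq hg (Cmp.const _)) (((hf.mul hf).mul hf).mul hf)
    ((((hf.mul hf).mul hf).mul hf).mul hf)))))

lemma n0_c : Cmp X fun a => n0 (X.U a) := nM_c.mul (pw_c pP_c (Cmp.const _))
lemma bl_c (hf : Cmp X f) : Cmp X fun a => bl (X.U a) (f a) := hf.div (pw_c pP_c (Cmp.const _))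
lemma aN_c (hf : Cmp X f) (hg : Cmp X g) : Cmp X fun a => aN (X.U a) (f a) (g a) :=
  ((hf.mod (pw_c pP_c (Cmp.const _))).div (pw_c pP_c hg)).mod pP_c

lemma padN_c : ∀ E j : ℕ, Cmp X fun a => padN (X.U a) E j
  | 0, _ => Cmp.const 0
  | E + 1, j => (T4_c (Cmp.const _) (Cmp.const _) (Cmp.const _) (Cmp.const _)).add
      (Wd_c.mul (padN_c E (j + 1)))

lemma nV_c (E : ℕ) : Cmp X fun a => nV E (X.U a) :=
  n0_c.add (((((Cmp.const _).mul nM_c).add (Cmp.const _)).mul n0_c).add (padN_c E 0))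

lemma disN_c (hf : Cmp X f) (hg : Cmp X g) : CmpP X fun a => disN (X.U a) (f a) (g a) :=
  CmpP.ex (Cmp.const 5) (CmpP.ex (X := X.ext) (Cmp.const 5)
    ((CmpP.eq (varN_c (X := X.ext.ext) (bl_c hf.weak.weak) Cmp.snd.weak)
      (varN_c (X := X.ext.ext) (bl_c hg.weak.weak) Cmp.snd)).and
    (CmpP.ne (aN_c (X := X.ext.ext) hf.weak.weak Cmp.snd.weak)
      (aN_c (X := X.ext.ext) hg.weak.weak Cmp.snd))))

lemma okN_c (b : Bool) (hf : Cmp X f) : CmpP X fun a => okN b (X.U a) (f a) := by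
  refine (CmpP.eq ((Cmp.sum (g := fun a s => coefN (X.U a) (bl (X.U a) (f a)) s * aN (X.U a) (f a) s)
    (Cmp.const 5) ((coefN_c (X := X.ext) (bl_c hf.weak) Cmp.snd).mul
      (aN_c (X := X.ext) hf.weak Cmp.snd))).mod pP_c) (Cmp.mod ?_ pP_c)).and (disN_c hf hf).not
  cases b
  · exact Cmp.const 0
  · exact rhsN_c (bl_c hf)

lemma colN_c (b : Bool) (hf : Cmp X f) : Cmp X fun a => colN b (X.U a) (f a) :=
  ((Cmp.const _).mul (bl_c hf)).add (okN_c b hf)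

lemma adjN_c (b : Bool) (hf : Cmp X f) (hg : Cmp X g) :
    CmpP X fun a => adjN b (X.U a) (f a) (g a) :=
  CmpP.ite (CmpP.lt hf n0_c) (CmpP.ite (CmpP.lt hg n0_c) ((CmpP.ne hf hg).and (disN_c hf hg))
    (CmpP.lt (hg.sub n0_c) (((colN_c b hf).add (Cmp.const _)).mul n0_c)))
    ((CmpP.lt hg n0_c).and (CmpP.lt (hf.sub n0_c) (((colN_c b hg).add (Cmp.const _)).mul n0_c)))

lemma matN_c (E : ℕ) (b : Bool) : CmpL X fun a => matN E b (X.U a) :=
  CmpL.each (g := fun a v => (List.range (nV E (X.U a))).flatMap fun w =>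
      [decide (adjN b (X.U a) v w)]) (nV_c E)
    (CmpL.each (X := X.ext) (g := fun a w => [decide (adjN b (X.U a.1) a.2 w)]) (nV_c E)
      (CmpL.dec (adjN_c (X := X.ext.ext) b Cmp.snd.weak Cmp.snd)))

lemma outN_c (E : ℕ) : CmpL ctx0 (outN E) := (matN_c (X := ctx0) E false).app (matN_c E true)

end Vale.Agent.P310
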