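import Vale.Agent.P310.Core

/-! Soundness, part one: states of the strategy and their basic modifications. -/

namespace Vale.Agent.P310

open Classical Function Finset

variable {F G Sy Rl : Type} [Field F] [AddCommGroup G] {k r m : ℕ}

structure St (F Sy Rl : Type) (k : ℕ) where
  g : Rl → Fin 5 → ℕ
  X : Sy → Fin k → F → F
  V : Rl → Fin 5 → Fin k → F → F
  lam : Rl → Fin 5 → ℕ → F

variable (D : Setup F G k r m) (H : Horn Sy Rl G) (L : ℕ)

def St.left (st : St F Sy Rl k) (ρ : Rl) (τ : Fin 5) (π : ℕ) (i : Fin k) (h : F) : F :=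
  st.X (H.psym ρ τ) i (h - D.enc (H.psh ρ τ) i) + ∑ π' ∈ range π, st.lam ρ τ π' * D.chk π' i h

def St.right (st : St F Sy Rl k) (ρ : Rl) (τ : Fin 5) (π : ℕ) (i : Fin k) (h : F) : F :=
  st.V ρ τ i h - ∑ π' ∈ Ico π L, st.lam ρ τ π' * D.chk π' i h

def St.asg (st : St F Sy Rl k) : Var F Sy Rl k → F
  | .X σ i h => st.X σ i h
  | .lam ρ τ π => st.lam ρ τ π
  | .Y ρ τ π i h => if π ≤ st.g ρ τ * m then st.left D H ρ τ π i h else st.right D L ρ τ π i h

lemma asg_yv (st : St F Sy Rl k) (ρ τ π i h) : st.asg D H L (yv D H ρ τ π i h) =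
    if π ≤ st.g ρ τ * m then st.left D H ρ τ π i h else st.right D L ρ τ π i h := by
  unfold yv
  split_ifs with h1 h2 h2
  · subst h1; simp [St.asg, St.left]
  · omega
  · simp [St.asg, h2]
  · simp [St.asg, h2]

structure Base (S : Finset (Con F Rl k L)) (st : St F Sy Rl k) : Prop where
  g_lt : ∀ ρ τ, (st.g ρ τ + 1) * m ≤ L
  clean : ∀ ρ τ π i h, Con.step ρ τ π i h ∈ S → π.1 < st.g ρ τ * m ∨ (st.g ρ τ + 1) * m ≤ π.1
  jump : ∀ ρ τ, (fun i h => st.V ρ τ i h - st.X (H.psym ρ τ) i (h - D.enc (H.psh ρ τ) i)) ∈ D.Fn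
  jun : ∀ ρ i h, ∑ τ, H.eps F ρ τ * st.V ρ τ i h = if i.1 = 0 then H.gam F ρ else 0
  gr : ∀ i, st.X H.start i 0 = 0

variable {D H L}

lemma Base.mono {S S' : Finset (Con F Rl k L)} {st} (h : Base D H L S' st) (hS : S ⊆ S') :
    Base D H L S st :=
  ⟨h.g_lt, fun ρ τ π i x hx => h.clean ρ τ π i x (hS hx), h.jump, h.jun, h.gr⟩

lemma Base.asg_L {S : Finset (Con F Rl k L)} {st} (hm : 0 < m) (hb : Base D H L S st) (ρ τ i h) :
    st.asg D H L (yv D H ρ τ L i h) = st.V ρ τ i h := by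
  have := hb.g_lt ρ τ
  rw [asg_yv, if_neg (by nlinarith)]
  simp [St.right]

lemma Base.sat {S : Finset (Con F Rl k L)} {st} (hm : 0 < m) (hb : Base D H L S st) {κ}
    (hκ : κ ∈ S) : (hcsp D H L).Sat κ (st.asg D H L) := by
  cases κ with
  | step ρ τ π i h =>
    rw [sat_step, asg_yv, asg_yv]
    rcases hb.clean ρ τ π i h hκ with h1 | h1
    · rw [if_pos (by omega), if_pos (by omega)]
      simp only [St.left, sum_range_succ, St.asg]
      ring
    · rw [if_neg (by nlinarith), if_neg (by nlinarith)]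
      simp only [St.right, St.asg]
      rw [sum_eq_sum_Ico_succ_bot π.2]
      ring
  | jun ρ i h =>
    rw [sat_jun]
    simp only [hb.asg_L hm]
    exact hb.jun ρ i h
  | gr i => rw [sat_gr]; exact hb.gr i

/-- Criterion for agreement on the touched variables when the segments are unchanged. -/
lemma agree_of {S : Finset (Con F Rl k L)} {st st' : St F Sy Rl k} (hm : 0 < m)
    (hb : Base D H L S st) (hg : st'.g = st.g) (hl : st'.lam = st.lam)
    (h1 : ∀ ρ τ π i h, Con.step ρ τ π i h ∈ S → π.1 < st.g ρ τ * m →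
      st'.X (H.psym ρ τ) i (h - D.enc (H.psh ρ τ) i) = st.X (H.psym ρ τ) i (h - D.enc (H.psh ρ τ) i))
    (h2 : ∀ ρ τ π i h, Con.step ρ τ π i h ∈ S → (st.g ρ τ + 1) * m ≤ π.1 →
      st'.V ρ τ i h = st.V ρ τ i h)
    (h3 : ∀ ρ i h, Con.jun ρ i h ∈ S → ∀ τ, st'.V ρ τ i h = st.V ρ τ i h)
    (h4 : ∀ i, st'.X H.start i 0 = st.X H.start i 0) :
    (hcsp D H L).Agree S (st'.asg D H L) (st.asg D H L) := by
  intro κ hκ τ'
  cases κ with
  | step ρ τ π i h =>
    have key : ∀ π', π' = π.1 ∨ π' = π.1 + 1 →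
        st'.asg D H L (yv D H ρ τ π' i h) = st.asg D H L (yv D H ρ τ π' i h) := by
      intro π' hπ'
      rw [asg_yv, asg_yv, hg]
      rcases hb.clean ρ τ π i h hκ with h5 | h5
      · rw [if_pos (by omega), if_pos (by omega)]
        simp only [St.left, h1 ρ τ π i h hκ h5, hl]
      · rw [if_neg (by rcases hπ' with rfl | rfl <;> nlinarith),
          if_neg (by rcases hπ' with rfl | rfl <;> nlinarith)]
        simp only [St.right, h2 ρ τ π i h hκ h5, hl]
    fin_cases τ'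
    · exact key _ (Or.inl rfl)
    · simp [hcsp, St.asg, hl]
    · exact key _ (Or.inr rfl)
    · simp [hcsp, St.asg, hl]
    · simp [hcsp, St.asg, hl]
  | jun ρ i h =>
    have := hb.g_lt ρ τ'
    simp only [hcsp]
    rw [asg_yv, asg_yv, hg, if_neg (by nlinarith), if_neg (by nlinarith)]
    simp only [St.right, h3 ρ i h hκ, hl]
  | gr i => exact h4 i

def sX (D : Setup F G k r m) (st : St F Sy Rl k) (σ : Sy) (w : G) : F :=
  ∑ i, st.X σ i (D.enc w i)

def sV (D : Setup F G k r m) (st : St F Sy Rl k) (ρ : Rl) (τ : Fin 5) (w : G) : F :=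
  ∑ i, st.V ρ τ i (D.enc w i)

def Con.row : Con F Rl k L → Fin k
  | .step _ _ _ i _ => i
  | .jun _ i _ => i
  | .gr i => i

/-- Adjusting a hub value. -/
lemma setH {S S' : Finset (Con F Rl k L)} {st : St F Sy Rl k} (hm : 0 < m)
    (hb : Base D H L S' st) (hS : S ⊆ S') (σ : Sy) (w : G) (i0 : Fin k) (c : F)
    (hcard : (S.filter fun κ => κ.row = i0).card ≤ 3)
    (h1 : ∀ ρ τ π h, Con.step ρ τ π i0 h ∈ S → H.psym ρ τ = σ → π.1 < st.g ρ τ * m →
      h - D.enc (H.psh ρ τ) i0 ≠ D.enc w i0)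
    (h2 : σ = H.start → D.enc w i0 ≠ 0) :
    ∃ st', Base D H L S' st' ∧ (hcsp D H L).Agree S (st'.asg D H L) (st.asg D H L) ∧
      st'.V = st.V ∧ st'.g = st.g ∧ (∀ σ', σ' ≠ σ → st'.X σ' = st.X σ') ∧ sX D st' σ w = c := by
  let pt : Con F Rl k L → F := fun κ => match κ with
    | .step ρ τ _ i h => h - D.enc (H.psh ρ τ) i
    | _ => 0
  let Z : Finset F := (insert 0 ((S.filter fun κ => κ.row = i0).image pt)).erase (D.enc w i0)
  obtain ⟨b, hbF, hb1, hb2, hb3⟩ := D.bump i0 Z (D.enc w i0)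
    (card_erase_le.trans ((card_insert_le _ _).trans (by
      have := card_image_le (s := S.filter fun κ => κ.row = i0) (f := pt)
      omega))) (notMem_erase _ _)
  let δ := c - sX D st σ w
  let X' := update st.X σ (fun i h => st.X σ i h + δ * b i h)
  have hX : ∀ σ' i h, (σ' = σ → b i h = 0) → X' σ' i h = st.X σ' i h := by
    intro σ' i h hh
    by_cases hσ : σ' = σ
    · subst hσ; simp [X', hh rfl]
    · simp [X', update_of_ne hσ]
  have hgr : ∀ i, X' H.start i 0 = st.X H.start i 0 := by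
    intro i
    refine hX _ _ _ fun hσ => ?_
    by_cases hi : i = i0
    · subst hi
      exact hb2 0 (mem_erase.2 ⟨(h2 hσ.symm).symm, mem_insert_self _ _⟩)
    · exact hb1 i hi 0
  refine ⟨{ st with X := X' }, ⟨hb.g_lt, hb.clean, fun ρ τ => ?_, hb.jun, fun i => ?_⟩, ?_, rfl, rfl,
    fun σ' hσ => update_of_ne hσ _ _, ?_⟩
  · by_cases hσ : H.psym ρ τ = σ
    · have := D.Fn.sub_mem (hb.jump ρ τ) (D.Fn.smul_mem δ (D.shift b hbF (D.enc (H.psh ρ τ))))
      convert this using 1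
      funext i h
      simp [X', hσ]
      ring
    · have := hb.jump ρ τ
      simpa [X', update_of_ne hσ] using this
  · exact (hgr i).trans (hb.gr i)
  · refine agree_of hm (hb.mono hS) rfl rfl (fun ρ τ π i h hκ hπ => hX _ _ _ fun hσ => ?_)
      (fun _ _ _ _ _ _ _ => rfl) (fun _ _ _ _ _ => rfl) hgr
    by_cases hi : i = i0
    · subst hi
      exact hb2 _ (mem_erase.2 ⟨h1 ρ τ π h hκ hσ hπ, mem_insert_of_mem
        (mem_image.2 ⟨_, mem_filter.2 ⟨hκ, rfl⟩, rfl⟩)⟩)
    · exact hb1 i hi _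
  · simp only [sX, X', update_self, sum_add_distrib, ← mul_sum]
    rw [sum_eq_single i0 (fun i _ hi => hb1 i hi _) (by simp), hb3]
    simp [δ, sX]

lemma Base.sum_eps {S : Finset (Con F Rl k L)} {st} (hk : 0 < k) (hb : Base D H L S st) (ρ w) :
    ∑ τ, H.eps F ρ τ * sV D st ρ τ w = H.gam F ρ := by
  simp only [sV, mul_sum]
  rw [sum_comm]
  simp only [hb.jun]
  rw [sum_eq_single (⟨0, hk⟩ : Fin k) (fun i _ hi => if_neg fun h0 => hi (Fin.ext h0)) (by simp)]
  simp

/-- Adjusting the values at a junction. -/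
lemma setJ {S S' : Finset (Con F Rl k L)} {st : St F Sy Rl k} (hm : 0 < m)
    (hb : Base D H L S' st) (hS : S ⊆ S') (ρ : Rl) (w : G) (i0 : Fin k) (c : Fin 5 → F)
    (hc : ∑ τ, H.eps F ρ τ * c τ = H.gam F ρ)
    (hcard : (S.filter fun κ => κ.row = i0).card ≤ 3)
    (h1 : ∀ τ π, Con.step ρ τ π i0 (D.enc w i0) ∈ S → π.1 < st.g ρ τ * m)
    (h2 : Con.jun ρ i0 (D.enc w i0) ∉ S) :
    ∃ st', Base D H L S' st' ∧ (hcsp D H L).Agree S (st'.asg D H L) (st.asg D H L) ∧
      st'.X = st.X ∧ st'.g = st.g ∧ (∀ ρ', ρ' ≠ ρ → st'.V ρ' = st.V ρ') ∧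
      ∀ τ, sV D st' ρ τ w = c τ := by
  let pt : Con F Rl k L → F := fun κ => match κ with
    | .step _ _ _ _ h => h
    | .jun _ _ h => h
    | _ => 0
  let Z : Finset F := ((S.filter fun κ => κ.row = i0).image pt).erase (D.enc w i0)
  obtain ⟨b, hbF, hb1, hb2, hb3⟩ := D.bump i0 Z (D.enc w i0)
    (card_erase_le.trans (card_image_le.trans (by omega))) (notMem_erase _ _)
  let δ := fun τ => c τ - sV D st ρ τ w
  have hδ : ∑ τ, H.eps F ρ τ * δ τ = 0 := by
    simp only [δ, mul_sub, sum_sub_distrib, hc, hb.sum_eps (Fin.pos i0), sub_self]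
  let V' := update st.V ρ (fun τ i h => st.V ρ τ i h + δ τ * b i h)
  have hV : ∀ ρ' τ i h, (ρ' = ρ → b i h = 0) → V' ρ' τ i h = st.V ρ' τ i h := by
    intro ρ' τ i h hh
    by_cases hσ : ρ' = ρ
    · subst hσ; simp [V', hh rfl]
    · simp [V', update_of_ne hσ]
  refine ⟨{ st with V := V' }, ⟨hb.g_lt, hb.clean, fun ρ' τ => ?_, fun ρ' i h => ?_, hb.gr⟩, ?_,
    rfl, rfl, fun σ' hσ => update_of_ne hσ _ _, fun τ => ?_⟩
  · by_cases hσ : ρ' = ρ
    · subst hσ
      have := D.Fn.add_mem (hb.jump ρ' τ) (D.Fn.smul_mem (δ τ) hbF)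
      convert this using 1
      funext i h
      simp [V']
      ring
    · have := hb.jump ρ' τ
      simpa [V', update_of_ne hσ] using this
  · by_cases hσ : ρ' = ρ
    · subst hσ
      have := hb.jun ρ' i h
      simp only [V', update_self, mul_add, sum_add_distrib, this, ← mul_assoc, ← sum_mul, hδ]
      simp
    · simpa [V', update_of_ne hσ] using hb.jun ρ' i h
  · refine agree_of hm (hb.mono hS) rfl rfl (fun _ _ _ _ _ _ _ => rfl)
      (fun ρ' τ π i h hκ hπ => hV _ _ _ _ fun hσ => ?_)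
      (fun ρ' i h hκ τ => hV _ _ _ _ fun hσ => ?_) (fun _ => rfl)
    · subst hσ
      by_cases hi : i = i0
      · subst hi
        refine hb2 _ (mem_erase.2 ⟨?_, mem_image.2 ⟨_, mem_filter.2 ⟨hκ, rfl⟩, rfl⟩⟩)
        rintro rfl
        have := h1 τ π hκ
        nlinarith
      · exact hb1 i hi _
    · subst hσ
      by_cases hi : i = i0
      · subst hi
        refine hb2 _ (mem_erase.2 ⟨?_, mem_image.2 ⟨_, mem_filter.2 ⟨hκ, rfl⟩, rfl⟩⟩)
        rintro rfl
        exact h2 hκ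
      · exact hb1 i hi _
  · simp only [sV, V', update_self, sum_add_distrib, ← mul_sum]
    rw [sum_eq_single i0 (fun i _ hi => hb1 i hi _) (by simp), hb3]
    simp [δ, sV]

/-- Moving the free segment of one wire. -/
lemma relocate {S : Finset (Con F Rl k L)} {st : St F Sy Rl k} (hm : 0 < m)
    (hb : Base D H L S st) (hL : (k + 3) * m ≤ L) (hS : S.card ≤ k + 1) (ρ : Rl) (τ : Fin 5)
    (hW : ∀ w, (∀ i, ∃ π, Con.step ρ τ π i (D.enc w i) ∈ S) →
      sV D st ρ τ w = sX D st (H.psym ρ τ) (w - H.psh ρ τ)) :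
    ∃ st', Base D H L S st' ∧ (hcsp D H L).Agree S (st'.asg D H L) (st.asg D H L) ∧
      st'.X = st.X ∧ st'.V = st.V ∧ st'.g ρ τ ≠ st.g ρ τ := by
  set g := st.g ρ τ with hgdef
  let seg : Con F Rl k L → ℕ := fun κ => match κ with
    | .step _ _ π _ _ => π.1 / m
    | _ => 0
  obtain ⟨g', hg'1, hg'2⟩ : ∃ g' ∈ range (k + 3), g' ∉ insert g (S.image seg) := by
    refine exists_mem_notMem_of_card_lt_card ?_
    have := card_insert_le g (S.image seg)
    have := card_image_le (s := S) (f := seg)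
    rw [card_range]; omega
  rw [mem_range] at hg'1
  rw [mem_insert, not_or] at hg'2
  let pos : Con F Rl k L → Fin k × F := fun κ => match κ with
    | .step _ _ _ i h => (i, h)
    | .jun _ i h => (i, h)
    | .gr i => (i, 0)
  let Pos := (S.filter fun κ => ∃ π i h, κ = .step ρ τ π i h).image pos
  have hPos : ∀ i h, (i, h) ∈ Pos ↔ ∃ π, Con.step ρ τ π i h ∈ S := by
    intro i h
    constructor
    · intro hh
      obtain ⟨κ, hκ, he⟩ := mem_image.1 hh
      obtain ⟨hκ, π, i', h', rfl⟩ := mem_filter.1 hκ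
      simp only [pos, Prod.mk.injEq] at he
      obtain ⟨rfl, rfl⟩ := he
      exact ⟨π, hκ⟩
    · rintro ⟨π, hκ⟩
      exact mem_image.2 ⟨_, mem_filter.2 ⟨hκ, π, i, h, rfl⟩, rfl⟩
  let d : Fin k → F → F := (fun i h => st.V ρ τ i h - st.X (H.psym ρ τ) i (h - D.enc (H.psh ρ τ) i))
    - ∑ π ∈ range (g * m), st.lam ρ τ π • D.chk π
    - ∑ π ∈ Ico ((g + 1) * m) L, st.lam ρ τ π • D.chk π
  have hd : d ∈ D.Fn := D.Fn.sub_mem (D.Fn.sub_mem (hb.jump ρ τ)
    (D.Fn.sum_mem fun π _ => D.Fn.smul_mem _ (D.chk_mem π)))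
    (D.Fn.sum_mem fun π _ => D.Fn.smul_mem _ (D.chk_mem π))
  have hdv : ∀ i h, d i h = st.V ρ τ i h - st.X (H.psym ρ τ) i (h - D.enc (H.psh ρ τ) i)
      - ∑ π ∈ range (g * m), st.lam ρ τ π * D.chk π i h
      - ∑ π ∈ Ico ((g + 1) * m) L, st.lam ρ τ π * D.chk π i h := by
    intro i h
    simp [d, Finset.sum_apply]
  obtain ⟨lam', hlam'⟩ := D.span g Pos d hd
    (card_image_le.trans ((card_filter_le _ _).trans (by omega))) (fun w hw => by
      have h1 := hW w fun i => (hPos _ _).1 (hw i)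
      simp only [hdv, sum_sub_distrib]
      rw [sum_comm (s := univ), sum_comm (s := univ)]
      simp only [← mul_sum, D.chk_sum, mul_zero, sum_const_zero, sub_zero]
      simp only [sV, sX, map_sub, Pi.sub_apply] at h1
      rw [h1, sub_self])
  let lam2 : ℕ → F := fun π => if g * m ≤ π ∧ π < (g + 1) * m then lam' π else st.lam ρ τ π
  let st' : St F Sy Rl k := { st with
    g := update st.g ρ (update (st.g ρ) τ g')
    lam := update st.lam ρ (update (st.lam ρ) τ lam2) }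
  have e1 : st'.g ρ τ = g' := by simp [st']
  have e2 : st'.lam ρ τ = lam2 := by simp [st']
  have e3 : ∀ ρ' τ', ¬ (ρ' = ρ ∧ τ' = τ) → st'.g ρ' τ' = st.g ρ' τ' ∧
      st'.lam ρ' τ' = st.lam ρ' τ' := by
    intro ρ' τ' hne
    by_cases h1 : ρ' = ρ
    · subst h1
      have h2 : τ' ≠ τ := fun h => hne ⟨rfl, h⟩
      simp [st', update_of_ne h2]
    · simp [st', update_of_ne h1]
  have hgL := hb.g_lt ρ τ
  have hb' : Base D H L S st' := by
    refine ⟨fun ρ' τ' => ?_, fun ρ' τ' π i h hκ => ?_, hb.jump, hb.jun, hb.gr⟩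
    · by_cases hh : ρ' = ρ ∧ τ' = τ
      · obtain ⟨rfl, rfl⟩ := hh
        rw [e1]
        exact (Nat.mul_le_mul_right _ (by omega)).trans hL
      · rw [(e3 _ _ hh).1]; exact hb.g_lt _ _
    · by_cases hh : ρ' = ρ ∧ τ' = τ
      · obtain ⟨rfl, rfl⟩ := hh
        rw [e1]
        have h1 : π.1 / m ≠ g' := fun h1 => hg'2.2 (mem_image.2 ⟨_, hκ, h1⟩)
        by_contra hc
        push Not at hc
        exact h1 (Nat.div_eq_of_lt_le hc.1 hc.2)
      · rw [(e3 _ _ hh).1]; exact hb.clean _ _ _ _ _ hκ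
  refine ⟨st', hb', ?_, rfl, rfl, by rw [e1]; exact hg'2.1⟩
  have l1 : ∀ π ≤ g * m, ∀ i h, ∑ π' ∈ range π, lam2 π' * D.chk π' i h =
      ∑ π' ∈ range π, st.lam ρ τ π' * D.chk π' i h := fun π hπ i h =>
    sum_congr rfl fun π' hπ' => by
      rw [mem_range] at hπ'
      simp only [lam2]; rw [if_neg (by omega)]
  have l2 : ∀ π, (g + 1) * m ≤ π → ∀ i h, ∑ π' ∈ Ico π L, lam2 π' * D.chk π' i h =
      ∑ π' ∈ Ico π L, st.lam ρ τ π' * D.chk π' i h := fun π hπ i h =>
    sum_congr rfl fun π' hπ' => by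
      rw [mem_Ico] at hπ'
      simp only [lam2]; rw [if_neg (by omega)]
  have l3 : ∀ i h, (i, h) ∈ Pos → ∀ π ≤ L, st'.left D H ρ τ π i h = st'.right D L ρ τ π i h := by
    intro i h hp π hπ
    have a1 := hlam' i h hp
    have a2 : ∑ π' ∈ Ico (g * m) ((g + 1) * m), lam2 π' * D.chk π' i h =
        ∑ π' ∈ Ico (g * m) ((g + 1) * m), lam' π' * D.chk π' i h :=
      sum_congr rfl fun π' hπ' => by
        rw [mem_Ico] at hπ'
        simp only [lam2]; rw [if_pos hπ']
    have a3 := sum_range_add_sum_Ico (fun π' => lam2 π' * D.chk π' i h) hπ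
    have a4 := sum_range_add_sum_Ico (fun π' => lam2 π' * D.chk π' i h) hgL
    have a5 := sum_range_add_sum_Ico (fun π' => lam2 π' * D.chk π' i h)
      (show g * m ≤ (g + 1) * m by nlinarith)
    rw [l1 _ le_rfl, a2, a1, hdv] at a5
    rw [l2 _ le_rfl] at a4
    simp only [St.left, St.right, e2]
    change st.X _ _ _ + _ = st.V _ _ _ _ - _
    linear_combination a3 - a4 - a5
  intro κ hκ τ'
  cases κ with
  | step ρ' τ1 π i h =>
    by_cases hh : ρ' = ρ ∧ τ1 = τ
    · obtain ⟨rfl, rfl⟩ := hh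
      have hp := (hPos i h).2 ⟨π, hκ⟩
      have hcl : π.1 < g * m ∨ (g + 1) * m ≤ π.1 := hb.clean _ _ _ _ _ hκ
      have key : ∀ π', π' = π.1 ∨ π' = π.1 + 1 →
          st'.asg D H L (yv D H ρ' τ1 π' i h) = st.asg D H L (yv D H ρ' τ1 π' i h) := by
        intro π' hπ'
        have hπL : π' ≤ L := by have := π.2; omega
        rw [asg_yv, asg_yv, ← l3 i h hp π' hπL, ite_self]
        rcases hcl with h5 | h5
        · rw [if_pos (show π' ≤ g * m by omega)]
          simp only [St.left, e2, l1 π' (by omega)]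
          rfl
        · rw [if_neg (show ¬ π' ≤ g * m by rcases hπ' with rfl | rfl <;> nlinarith),
            l3 i h hp π' hπL]
          simp only [St.right, e2, l2 π' (by omega)]
          rfl
      have hl : st'.lam ρ' τ1 π = st.lam ρ' τ1 π := by
        rw [e2]; simp only [lam2]; rw [if_neg (by omega)]
      fin_cases τ'
      · exact key _ (Or.inl rfl)
      · exact hl
      · exact key _ (Or.inr rfl)
      · exact hl
      · exact hl
    · obtain ⟨h1, h2⟩ := e3 _ _ hh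
      have key : ∀ π', st'.asg D H L (yv D H ρ' τ1 π' i h) = st.asg D H L (yv D H ρ' τ1 π' i h) := by
        intro π'
        rw [asg_yv, asg_yv, h1]
        simp only [St.left, St.right, h2]
        rfl
      have hl : st'.lam ρ' τ1 π = st.lam ρ' τ1 π := by rw [h2]
      fin_cases τ'
      · exact key π.1
      · exact hl
      · exact key (π.1 + 1)
      · exact hl
      · exact hl
  | jun ρ' i h =>
    simp only [hcsp]
    rw [hb.asg_L hm, hb'.asg_L hm]
  | gr i => rfl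

end Vale.Agent.P310
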